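import Vale.Agent.P064.Graph

/-! P064: the two minima are attained. -/

namespace P064

open Finset

theorem continuous_gnpWeight (n : ℕ) (G : SimpleGraph (Fin n)) :
    Continuous fun p : ℝ => gnpWeight n p G := by
  unfold gnpWeight
  fun_prop

theorem continuous_prob (n : ℕ) (E : Set (SimpleGraph (Fin n))) :
    Continuous fun p : ℝ => prob n p E := by
  classical
  unfold prob
  refine continuous_finsetSum _ fun G _ => ?_
  by_cases h : G ∈ E
  · simp only [h, if_true]
    exact continuous_gnpWeight n G
  · simp only [h, if_false]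
    exact continuous_const

theorem continuous_expec (n : ℕ) (f : SimpleGraph (Fin n) → ℝ) :
    Continuous fun p : ℝ => expec n p f := by
  unfold expec
  exact continuous_finsetSum _ fun G _ => (continuous_gnpWeight n G).mul continuous_const

theorem isLeast_pc {n : ℕ} {V : Type*} [Fintype V] (H : SimpleGraph V)
    (hV : Fintype.card V ≤ n) : IsLeast (pcSet n H) (pc n H) := by
  have hcl : IsClosed (pcSet n H) := by
    have e : pcSet n H = Set.Icc 0 1 ∩ {p | 1 / 2 ≤ prob n p {G | 0 < copies G H}} := by
      ext p
      simp only [pcSet, Set.mem_ofPred_eq, Set.mem_inter_iff, Set.mem_Icc, and_assoc]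
    rw [e]
    exact isClosed_Icc.inter (isClosed_le continuous_const (continuous_prob n _))
  have hc : IsCompact (pcSet n H) :=
    IsCompact.of_isClosed_subset isCompact_Icc hcl fun p hp => ⟨hp.1, hp.2.1⟩
  obtain ⟨a, ha⟩ := hc.exists_isLeast ⟨1, one_mem_pcSet H hV⟩
  have : pc n H = a := ha.csInf_eq
  rwa [this]

theorem isLeast_pE {n : ℕ} {V : Type*} [Fintype V] (H : SimpleGraph V)
    (hV : Fintype.card V ≤ n) : IsLeast (pESet n H) (pE n H) := by
  have hcl : IsClosed (pESet n H) := by
    have e : pESet n H = Set.Icc 0 1 ∩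
        ⋂ F : H.Subgraph, {p | 1 / 2 ≤ expec n p fun G => (copies G F.coe : ℝ)} := by
      ext p
      simp only [pESet, Set.mem_ofPred_eq, Set.mem_inter_iff, Set.mem_Icc, and_assoc,
        Set.mem_iInter]
    rw [e]
    exact isClosed_Icc.inter (isClosed_iInter fun F =>
      isClosed_le continuous_const (continuous_expec n _))
  have hc : IsCompact (pESet n H) :=
    IsCompact.of_isClosed_subset isCompact_Icc hcl fun p hp => ⟨hp.1, hp.2.1⟩
  obtain ⟨a, ha⟩ := hc.exists_isLeast ⟨1, one_mem_pESet H hV⟩
  have : pE n H = a := ha.csInf_eq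
  rwa [this]

end P064
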