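import Mathlib

/-!
P064: definitions for random graph thresholds and for the abstract part.
-/

namespace P064

open Finset
open scoped Pointwise

/-! ### the abstract part -/

/-- number of group elements `g` with `g • A ⊆ B` -/
noncomputable def cnt (Γ : Type*) {X : Type*} [Group Γ] [Fintype Γ] [DecidableEq X] [MulAction Γ X]
    (A B : Finset X) : ℕ :=
  (univ.filter fun g : Γ => g • A ⊆ B).card

/-- the proportion of group elements `g` with `g • A ⊆ B` -/
noncomputable def spr (Γ : Type*) {X : Type*} [Group Γ] [Fintype Γ] [DecidableEq X]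
    [MulAction Γ X] (A B : Finset X) : ℝ :=
  (cnt Γ A B : ℝ) / Fintype.card Γ

/-- the weight of `W` as a random subset of `X` with independent elements of density `p` -/
noncomputable def bw {X : Type*} [Fintype X] (p : ℝ) (W : Finset X) : ℝ :=
  p ^ W.card * (1 - p) ^ (Fintype.card X - W.card)

/-! ### the graph part -/

/-- `copies G F` is the number `N(G,F)` of subgraphs of `G` isomorphic to `F`. -/
noncomputable def copies {V W : Type*} (G : SimpleGraph V) (F : SimpleGraph W) : ℕ :=
  Nat.card {F' : G.Subgraph // Nonempty (F ≃g F'.coe)}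

/-- probability that `G(n,p)` equals `G`: each of the `n.choose 2` possible edges is present
independently with probability `p`. -/
noncomputable def gnpWeight (n : ℕ) (p : ℝ) (G : SimpleGraph (Fin n)) : ℝ :=
  p ^ Nat.card G.edgeSet * (1 - p) ^ (n.choose 2 - Nat.card G.edgeSet)

open Classical in
/-- probability of the event `E` for `G(n,p)` -/
noncomputable def prob (n : ℕ) (p : ℝ) (E : Set (SimpleGraph (Fin n))) : ℝ :=
  ∑ G : SimpleGraph (Fin n), if G ∈ E then gnpWeight n p G else 0

open Classical in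
/-- expectation of `f` for `G(n,p)` -/
noncomputable def expec (n : ℕ) (p : ℝ) (f : SimpleGraph (Fin n) → ℝ) : ℝ :=
  ∑ G : SimpleGraph (Fin n), gnpWeight n p G * f G

/-- the set of `p ∈ [0,1]` with `P(N(G(n,p),H) > 0) ≥ 1/2` -/
def pcSet (n : ℕ) {V : Type*} (H : SimpleGraph V) : Set ℝ :=
  {p | 0 ≤ p ∧ p ≤ 1 ∧ 1 / 2 ≤ prob n p {G | 0 < copies G H}}

/-- the set of `p ∈ [0,1]` with `E N(G(n,p),F) ≥ 1/2` for every subgraph `F` of `H` -/
def pESet (n : ℕ) {V : Type*} (H : SimpleGraph V) : Set ℝ :=
  {p | 0 ≤ p ∧ p ≤ 1 ∧ ∀ F : H.Subgraph, 1 / 2 ≤ expec n p fun G => (copies G F.coe : ℝ)}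

/-- the threshold `p_c(n,H)` -/
noncomputable def pc (n : ℕ) {V : Type*} (H : SimpleGraph V) : ℝ := sInf (pcSet n H)

/-- the expectation threshold `p_E(n,H)` -/
noncomputable def pE (n : ℕ) {V : Type*} (H : SimpleGraph V) : ℝ := sInf (pESet n H)

/-- the possible edges on `Fin n` -/
abbrev Edg (n : ℕ) : Type := {e : Sym2 (Fin n) // ¬ e.IsDiag}

/-- permutations of the vertices act on the possible edges -/
instance actEdg (n : ℕ) : MulAction (Equiv.Perm (Fin n)) (Edg n) where
  smul g e := ⟨Sym2.map g e.1, fun h => e.2 ((Sym2.isDiag_map g.injective).1 h)⟩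
  one_smul e := by
    apply Subtype.ext
    show Sym2.map (⇑(1 : Equiv.Perm (Fin n))) e.1 = e.1
    simp
  mul_smul g h e := by
    apply Subtype.ext
    show Sym2.map (⇑(g * h)) e.1 = Sym2.map g (Sym2.map h e.1)
    rw [Sym2.map_map]
    rfl

open Classical in
/-- the edges of `G` as a finset of possible edges -/
noncomputable def edg {n : ℕ} (G : SimpleGraph (Fin n)) : Finset (Edg n) :=
  univ.filter fun e => e.1 ∈ G.edgeSet

end P064
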