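import Vale.Agent.P064.Basic

/-! P064 module C0: translation between graphs on `Fin n` and sets of possible edges. -/

namespace P064

open Finset
open scoped Pointwise

theorem card_Edg (n : ℕ) : Fintype.card (Edg n) = n.choose 2 := by
  have h := Sym2.card_subtype_not_diag (α := Fin n)
  rw [Fintype.card_fin] at h
  rw [← h]

theorem mem_edg {n : ℕ} {G : SimpleGraph (Fin n)} {e : Edg n} :
    e ∈ edg G ↔ e.1 ∈ G.edgeSet := by
  unfold edg; simp

/-- graphs on `Fin n` are the same as sets of possible edges -/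
noncomputable def edgEquiv (n : ℕ) : SimpleGraph (Fin n) ≃ Finset (Edg n) where
  toFun G := edg G
  invFun W := SimpleGraph.fromEdgeSet (Subtype.val '' (W : Set (Edg n)))
  left_inv G := by
    apply SimpleGraph.edgeSet_inj.1
    rw [SimpleGraph.edgeSet_fromEdgeSet]
    ext e
    simp only [Set.mem_sdiff, Set.mem_image, mem_coe, mem_edg]
    constructor
    · rintro ⟨⟨e', h1, h2⟩, -⟩
      exact h2 ▸ h1
    · intro h
      exact ⟨⟨⟨e, G.not_isDiag_of_mem_edgeSet h⟩, h, rfl⟩, G.not_isDiag_of_mem_edgeSet h⟩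
  right_inv W := by
    ext e
    rw [mem_edg, SimpleGraph.edgeSet_fromEdgeSet]
    simp only [Set.mem_sdiff, Set.mem_image, mem_coe]
    constructor
    · rintro ⟨⟨e', h1, h2⟩, -⟩
      exact (Subtype.ext h2) ▸ h1
    · intro h
      exact ⟨⟨e, h, rfl⟩, e.2⟩

theorem card_edg {n : ℕ} (G : SimpleGraph (Fin n)) : Nat.card G.edgeSet = (edg G).card := by
  classical
  have : Nat.card G.edgeSet = Nat.card (edg G : Set (Edg n)) := by
    apply Nat.card_congr
    refine ⟨fun e => ⟨⟨e.1, G.not_isDiag_of_mem_edgeSet e.2⟩, by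
      simp [mem_edg]⟩, fun e => ⟨e.1.1, mem_edg.1 e.2⟩, fun e => rfl, fun e => rfl⟩
  rw [this]
  simp

theorem gnpWeight_eq {n : ℕ} (p : ℝ) (G : SimpleGraph (Fin n)) :
    gnpWeight n p G = bw p (edg G) := by
  unfold gnpWeight bw
  rw [card_edg, card_Edg]

theorem sum_graph {n : ℕ} (F : Finset (Edg n) → ℝ) :
    ∑ G : SimpleGraph (Fin n), F (edg G) = ∑ W : Finset (Edg n), F W := by
  exact (edgEquiv n).sum_comp F

/-- The Boolean lattice sum. -/
theorem sum_bw_superset {X : Type*} [Fintype X] [DecidableEq X] (p : ℝ) (S : Finset X) :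
    (∑ W : Finset X, if S ⊆ W then bw p W else 0) = p ^ S.card := by
  have h1 : (∑ W : Finset X, if S ⊆ W then bw p W else 0) =
      ∑ W ∈ (Sᶜ).powerset, bw p (S ∪ W) := by
    rw [← Finset.sum_filter]
    apply Finset.sum_bij' (fun W _ => W \ S) (fun W _ => S ∪ W)
    · intro W hW
      rw [Finset.mem_powerset]
      intro x hx
      rw [Finset.mem_compl]
      exact (Finset.mem_sdiff.1 hx).2
    · intro W hW
      simp
    · intro W hW
      simp only [mem_filter, mem_univ, true_and] at hW
      exact Finset.union_sdiff_of_subset hW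
    · intro W hW
      rw [Finset.mem_powerset] at hW
      ext x
      simp only [mem_sdiff, mem_union]
      constructor
      · rintro ⟨h1 | h1, h2⟩
        · exact absurd h1 h2
        · exact h1
      · intro h
        exact ⟨Or.inr h, Finset.mem_compl.1 (hW h)⟩
    · intro W hW
      simp only [mem_filter, mem_univ, true_and] at hW
      rw [Finset.union_sdiff_of_subset hW]
  rw [h1]
  have h2 : ∀ W ∈ (Sᶜ).powerset, bw p (S ∪ W) =
      p ^ S.card * (p ^ W.card * (1 - p) ^ ((Sᶜ).card - W.card)) := by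
    intro W hW
    rw [Finset.mem_powerset] at hW
    unfold bw
    have hd : Disjoint S W := by
      rw [Finset.disjoint_left]
      intro x hx hx'
      exact (Finset.mem_compl.1 (hW hx')) hx
    rw [Finset.card_union_of_disjoint hd, pow_add, Finset.card_compl, mul_assoc]
    congr 3
    omega
  rw [Finset.sum_congr rfl h2, ← Finset.mul_sum, Finset.sum_pow_mul_eq_add_pow]
  simp

end P064
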