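import Vale.Agent.P064.GBase

/-! P064 modules C1 and C3: containing a copy of `H` in terms of edge sets; density one. -/

namespace P064

open Finset
open scoped Pointwise

theorem copies_pos {n : ℕ} {V : Type*} (H : SimpleGraph V) (G : SimpleGraph (Fin n))
    (φ : V → Fin n) (hφ : Function.Injective φ) (h : ∀ v w, H.Adj v w → G.Adj (φ v) (φ w)) :
    0 < copies G H := by
  have h1 : H.IsContained G := ⟨⟨⟨φ, fun {v w} hvw => h v w hvw⟩, hφ⟩⟩
  obtain ⟨B, hB⟩ := SimpleGraph.isContained_iff_exists_iso_subgraph.1 h1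
  unfold copies
  have : Nonempty {F' : G.Subgraph // Nonempty (H ≃g F'.coe)} := ⟨⟨B, hB⟩⟩
  exact Nat.card_pos

theorem bw_nonneg {X : Type*} [Fintype X] {p : ℝ} (hp0 : 0 ≤ p) (hp1 : p ≤ 1) (W : Finset X) :
    0 ≤ bw p W := by
  unfold bw
  have : 0 ≤ 1 - p := by linarith
  positivity

open Classical in
theorem prob_ge {n : ℕ} {V : Type*} [Fintype V] (H : SimpleGraph V) (f : V ↪ Fin n)
    {p : ℝ} (hp0 : 0 ≤ p) (hp1 : p ≤ 1) :
    (∑ W : Finset (Edg n), if ∃ g : Equiv.Perm (Fin n), g • edg (H.map f) ⊆ W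
        then bw p W else 0) ≤
      prob n p {G | 0 < copies G H} := by
  rw [← sum_graph]
  unfold prob
  apply Finset.sum_le_sum
  intro G _
  rw [gnpWeight_eq]
  by_cases h : ∃ g : Equiv.Perm (Fin n), g • edg (H.map f) ⊆ edg G
  · rw [if_pos h, if_pos]
    obtain ⟨g, hg⟩ := h
    apply copies_pos H G (fun v => g (f v)) (g.injective.comp f.injective)
    intro v w hvw
    have h1 : (H.map f).Adj (f v) (f w) := by
      rw [SimpleGraph.map_adj]
      exact ⟨v, w, hvw, rfl, rfl⟩
    have h2 : (⟨s(f v, f w), (H.map f).not_isDiag_of_mem_edgeSet h1⟩ : Edg n) ∈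
        edg (H.map f) := mem_edg.2 h1
    have h3 := hg (Finset.smul_mem_smul_finset (a := g) h2)
    rw [mem_edg] at h3
    exact h3
  · rw [if_neg h]
    split_ifs
    · exact bw_nonneg hp0 hp1 _
    · exact le_refl _

theorem gnpWeight_nonneg {n : ℕ} {p : ℝ} (hp0 : 0 ≤ p) (hp1 : p ≤ 1)
    (G : SimpleGraph (Fin n)) : 0 ≤ gnpWeight n p G := by
  rw [gnpWeight_eq]; exact bw_nonneg hp0 hp1 _

theorem gnpWeight_one_top (n : ℕ) : gnpWeight n 1 (⊤ : SimpleGraph (Fin n)) = 1 := by
  rw [gnpWeight_eq]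
  have : edg (⊤ : SimpleGraph (Fin n)) = univ := by
    ext e
    simp only [mem_edg, mem_univ, iff_true, SimpleGraph.edgeSet_top]
    exact e.2
  rw [this]
  unfold bw
  simp

theorem copies_top_pos {n : ℕ} {V : Type*} [Fintype V] (H : SimpleGraph V)
    (hV : Fintype.card V ≤ n) : 0 < copies (⊤ : SimpleGraph (Fin n)) H := by
  have : Nonempty (V ↪ Fin n) := by
    apply Function.Embedding.nonempty_of_card_le
    simpa using hV
  obtain ⟨f⟩ := this
  apply copies_pos H _ f f.injective
  intro v w hvw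
  rw [SimpleGraph.top_adj]
  exact fun h => hvw.ne (f.injective h)

theorem one_mem_pcSet {n : ℕ} {V : Type*} [Fintype V] (H : SimpleGraph V)
    (hV : Fintype.card V ≤ n) : (1 : ℝ) ∈ pcSet n H := by
  classical
  refine ⟨zero_le_one, le_refl _, ?_⟩
  unfold prob
  have h1 := Finset.single_le_sum (f := fun G : SimpleGraph (Fin n) =>
    if G ∈ {G : SimpleGraph (Fin n) | 0 < copies G H} then gnpWeight n 1 G else 0)
    (s := univ) (fun G _ => by
      split_ifs
      · exact gnpWeight_nonneg zero_le_one (le_refl _) G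
      · exact le_refl _) (mem_univ (⊤ : SimpleGraph (Fin n)))
  rw [if_pos (show (⊤ : SimpleGraph (Fin n)) ∈ {G : SimpleGraph (Fin n) | 0 < copies G H} from
    copies_top_pos H hV), gnpWeight_one_top] at h1
  refine le_trans (by norm_num) (h1.trans (le_of_eq ?_))
  apply Finset.sum_congr rfl
  intro G _
  congr

theorem one_mem_pESet {n : ℕ} {V : Type*} [Fintype V] (H : SimpleGraph V)
    (hV : Fintype.card V ≤ n) : (1 : ℝ) ∈ pESet n H := by
  classical
  refine ⟨zero_le_one, le_refl _, ?_⟩
  intro F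
  have hF : Nat.card F.verts ≤ n := by
    refine le_trans (Nat.card_le_card_of_injective (Subtype.val : F.verts → V)
      Subtype.val_injective) ?_
    rw [Nat.card_eq_fintype_card]
    exact hV
  have : Fintype F.verts := Fintype.ofFinite _
  rw [Nat.card_eq_fintype_card] at hF
  unfold expec
  have h1 := Finset.single_le_sum (f := fun G : SimpleGraph (Fin n) =>
    gnpWeight n 1 G * (copies G F.coe : ℝ))
    (s := univ) (fun G _ => by
      have := gnpWeight_nonneg (n := n) zero_le_one (le_refl _) G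
      positivity) (mem_univ (⊤ : SimpleGraph (Fin n)))
  rw [gnpWeight_one_top, one_mul] at h1
  have h2 : (1 : ℝ) ≤ copies (⊤ : SimpleGraph (Fin n)) F.coe := by
    exact_mod_cast copies_top_pos F.coe hF
  linarith

end P064
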