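import Vale.Agent.P064.Basic

/-! P064 module A: stabilizer bounds imply spread bounds, with a logarithmic loss. -/

namespace P064

open Finset
open scoped Pointwise

section

variable {Γ X : Type*} [Group Γ] [Fintype Γ] [DecidableEq X] [MulAction Γ X]

theorem card_pos_real : (0 : ℝ) < Fintype.card Γ := by
  exact_mod_cast Fintype.card_pos

theorem spr_nonneg (A B : Finset X) : 0 ≤ spr Γ A B := by
  unfold spr; positivity

theorem spr_empty (B : Finset X) : spr Γ ∅ B = 1 := by
  have h : cnt Γ ∅ B = Fintype.card Γ := by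
    unfold cnt
    rw [Finset.filter_true_of_mem]
    · exact Finset.card_univ
    · intro g _
      simp
  unfold spr
  rw [h]
  exact div_self card_pos_real.ne'

theorem cnt_smul_left (g : Γ) (A B : Finset X) : cnt Γ (g • A) B = cnt Γ A B := by
  unfold cnt
  apply Finset.card_bij (fun h _ => h * g)
  · intro h hh
    simp only [mem_filter, mem_univ, true_and] at hh ⊢
    rwa [mul_smul]
  · intro a _ b _ hab
    exact mul_right_cancel hab
  · intro b hb
    refine ⟨b * g⁻¹, ?_, by simp⟩
    simp only [mem_filter, mem_univ, true_and] at hb ⊢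
    rw [← mul_smul]
    simpa using hb

theorem cnt_smul_right (g : Γ) (A B : Finset X) : cnt Γ A (g • B) = cnt Γ A B := by
  unfold cnt
  apply Finset.card_bij (fun h _ => g⁻¹ * h)
  · intro h hh
    simp only [mem_filter, mem_univ, true_and] at hh ⊢
    rw [mul_smul, Finset.smul_finset_subset_iff]
    simpa using hh
  · intro a _ b _ hab
    exact mul_left_cancel hab
  · intro b hb
    refine ⟨g * b, ?_, by simp⟩
    simp only [mem_filter, mem_univ, true_and] at hb ⊢
    rw [mul_smul]
    exact Finset.smul_finset_subset_smul_finset hb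

theorem spr_smul_left (g : Γ) (A B : Finset X) : spr Γ (g • A) B = spr Γ A B := by
  unfold spr; rw [cnt_smul_left]

theorem spr_smul_right (g : Γ) (A B : Finset X) : spr Γ A (g • B) = spr Γ A B := by
  unfold spr; rw [cnt_smul_right]

theorem exists_of_spr_pos {A B : Finset X} (h : 0 < spr Γ A B) : ∃ g : Γ, g • A ⊆ B := by
  by_contra hc
  push Not at hc
  have : cnt Γ A B = 0 := by
    unfold cnt
    rw [Finset.card_eq_zero, Finset.filter_eq_empty_iff]
    intro g _
    exact hc g
  unfold spr at h
  rw [this] at h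
  simp at h

theorem spr_empty_right {A : Finset X} (hA : A.Nonempty) : spr Γ A ∅ = 0 := by
  have h0 := spr_nonneg (Γ := Γ) A ∅
  by_contra hc
  have hpos : 0 < spr Γ A ∅ := lt_of_le_of_ne h0 (Ne.symm hc)
  obtain ⟨g, hg⟩ := exists_of_spr_pos hpos
  rw [Finset.subset_empty] at hg
  have : (g • A).Nonempty := hA.smul_finset
  rw [hg] at this
  exact Finset.not_nonempty_empty this

/-- `#{γ : I ⊆ γ • K} = cnt I K` -/
theorem card_inv (I K : Finset X) :
    (univ.filter fun g : Γ => I ⊆ g • K).card = cnt Γ I K := by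
  unfold cnt
  apply Finset.card_bij (fun h _ => h⁻¹)
  · intro h hh
    simp only [mem_filter, mem_univ, true_and] at hh ⊢
    rw [Finset.smul_finset_subset_iff]
    simpa using hh
  · intro a _ b _ hab
    exact inv_injective hab
  · intro b hb
    refine ⟨b⁻¹, ?_, by simp⟩
    simp only [mem_filter, mem_univ, true_and] at hb ⊢
    rw [← Finset.smul_finset_subset_iff]
    exact hb

/-- the product formula -/
theorem cnt_mul (A K H : Finset X) :
    cnt Γ A H * cnt Γ K H = ∑ g : Γ, cnt Γ (A ∪ g • K) H := by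
  have h1 : cnt Γ A H * cnt Γ K H =
      ∑ a : Γ, ∑ b : Γ, (if a • A ⊆ H then 1 else 0) * (if b • K ⊆ H then 1 else 0) := by
    unfold cnt
    rw [Finset.card_filter, Finset.card_filter, Finset.sum_mul_sum]
  have h2 : ∀ a : Γ, (∑ b : Γ, (if a • A ⊆ H then 1 else 0) * (if b • K ⊆ H then 1 else 0) : ℕ)
      = ∑ g : Γ, (if a • (A ∪ g • K) ⊆ H then 1 else 0) := by
    intro a
    rw [← Equiv.sum_comp (Equiv.mulLeft a)]
    apply Finset.sum_congr rfl
    intro g _
    have hiff : a • (A ∪ g • K) ⊆ H ↔ a • A ⊆ H ∧ (a * g) • K ⊆ H := by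
      rw [Finset.smul_finset_union, Finset.union_subset_iff, mul_smul]
    show (if a • A ⊆ H then 1 else 0) * (if (a * g) • K ⊆ H then 1 else 0) = _
    by_cases h : a • A ⊆ H
    · by_cases h' : (a * g) • K ⊆ H
      · rw [if_pos h, if_pos h', if_pos (hiff.2 ⟨h, h'⟩)]
      · rw [if_pos h, if_neg h', if_neg (fun hh => h' (hiff.1 hh).2)]
    · rw [if_neg h, if_neg (fun hh => h (hiff.1 hh).1), zero_mul]
  rw [h1, Finset.sum_congr rfl (fun a _ => h2 a), Finset.sum_comm]
  apply Finset.sum_congr rfl
  intro g _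
  unfold cnt
  rw [Finset.card_filter]

theorem spr_mul (A K H : Finset X) :
    spr Γ A H * spr Γ K H = (∑ g : Γ, spr Γ (A ∪ g • K) H) / Fintype.card Γ := by
  have h := cnt_mul (Γ := Γ) A K H
  have h' : (cnt Γ A H : ℝ) * cnt Γ K H = ∑ g : Γ, (cnt Γ (A ∪ g • K) H : ℝ) := by
    exact_mod_cast h
  unfold spr
  rw [← Finset.sum_div, div_mul_div_comm, h', div_div]

/-- key lemma -/
theorem key (H K : Finset X) {r : ℝ} (hr : 0 < r)
    (hK : ∀ U : Finset X, spr Γ U H * (1 / r) ^ U.card ≤ spr Γ K H * (1 / r) ^ K.card)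
    (A : Finset X) :
    spr Γ A H ≤ r ^ A.card * ∑ I ∈ A.powerset, (1 / r) ^ I.card * spr Γ I K := by
  have hKpos : 0 < spr Γ K H := by
    have h := hK ∅
    rw [spr_empty] at h
    simp only [card_empty, pow_zero, mul_one] at h
    have h2 : 0 < (1 / r) ^ K.card := by positivity
    by_contra hc
    push Not at hc
    nlinarith
  have hNpos := card_pos_real (Γ := Γ)
  have h1 : ∀ g : Γ, spr Γ (A ∪ g • K) H ≤
      spr Γ K H * (r ^ A.card * ∑ I ∈ A.powerset, (1 / r) ^ I.card *
        (if I ⊆ g • K then 1 else 0)) := by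
    intro g
    have h2 := hK (A ∪ g • K)
    have hc : (A ∪ g • K).card + (A ∩ g • K).card = A.card + K.card := by
      rw [Finset.card_union_add_card_inter, Finset.card_smul_finset]
    have h3 : spr Γ (A ∪ g • K) H ≤
        spr Γ K H * (r ^ A.card * (1 / r) ^ (A ∩ g • K).card) := by
      have e1 : spr Γ (A ∪ g • K) H = spr Γ (A ∪ g • K) H * (1 / r) ^ (A ∪ g • K).card *
          r ^ (A ∪ g • K).card := by
        rw [mul_assoc, ← mul_pow]
        rw [one_div, inv_mul_cancel₀ hr.ne']
        simp
      have e2 : (1 / r) ^ K.card * r ^ (A ∪ g • K).card =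
          r ^ A.card * (1 / r) ^ (A ∩ g • K).card := by
        have : (1 / r) ^ K.card * r ^ (A ∪ g • K).card * (r ^ K.card * r ^ (A ∩ g • K).card) =
          r ^ A.card * (1 / r) ^ (A ∩ g • K).card * (r ^ K.card * r ^ (A ∩ g • K).card) := by
          have x1 : (1 / r) ^ K.card * r ^ K.card = 1 := by
            rw [← mul_pow, one_div, inv_mul_cancel₀ hr.ne', one_pow]
          have x2 : (1 / r) ^ (A ∩ g • K).card * r ^ (A ∩ g • K).card = 1 := by
            rw [← mul_pow, one_div, inv_mul_cancel₀ hr.ne', one_pow]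
          calc _ = ((1 / r) ^ K.card * r ^ K.card) *
                (r ^ (A ∪ g • K).card * r ^ (A ∩ g • K).card) := by ring
            _ = r ^ (A.card + K.card) := by rw [x1, ← pow_add, hc, one_mul]
            _ = r ^ A.card * r ^ K.card * ((1 / r) ^ (A ∩ g • K).card *
                  r ^ (A ∩ g • K).card) := by rw [x2, pow_add, mul_one]
            _ = _ := by ring
        have hpos : 0 < r ^ K.card * r ^ (A ∩ g • K).card := by positivity
        exact mul_right_cancel₀ hpos.ne' this
      rw [e1]
      calc spr Γ (A ∪ g • K) H * (1 / r) ^ (A ∪ g • K).card * r ^ (A ∪ g • K).card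
          ≤ spr Γ K H * (1 / r) ^ K.card * r ^ (A ∪ g • K).card := by
            apply mul_le_mul_of_nonneg_right h2; positivity
        _ = spr Γ K H * (r ^ A.card * (1 / r) ^ (A ∩ g • K).card) := by
            rw [mul_assoc, e2]
    refine h3.trans ?_
    apply mul_le_mul_of_nonneg_left _ hKpos.le
    apply mul_le_mul_of_nonneg_left _ (by positivity)
    have hmem : A ∩ g • K ∈ A.powerset := Finset.mem_powerset.2 Finset.inter_subset_left
    have h4 := Finset.single_le_sum (f := fun I : Finset X => (1 / r) ^ I.card *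
        (if I ⊆ g • K then (1 : ℝ) else 0)) (s := A.powerset)
        (fun I _ => by positivity) hmem
    simpa [Finset.inter_subset_right] using h4
  have h5 : spr Γ A H * spr Γ K H ≤
      spr Γ K H * (r ^ A.card * ∑ I ∈ A.powerset, (1 / r) ^ I.card * spr Γ I K) := by
    rw [spr_mul, div_le_iff₀ hNpos]
    refine (Finset.sum_le_sum fun g _ => h1 g).trans (le_of_eq ?_)
    rw [← Finset.mul_sum, ← Finset.mul_sum, Finset.sum_comm, mul_assoc, mul_assoc]
    congr 2
    rw [Finset.sum_mul]
    apply Finset.sum_congr rfl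
    intro I _
    rw [← Finset.mul_sum, mul_assoc]
    congr 1
    have := card_inv (Γ := Γ) I K
    rw [Finset.card_filter] at this
    unfold spr
    rw [div_mul_cancel₀ _ hNpos.ne', ← this]
    push_cast
    rfl
  have h6 : spr Γ K H * spr Γ A H ≤
      spr Γ K H * (r ^ A.card * ∑ I ∈ A.powerset, (1 / r) ^ I.card * spr Γ I K) := by
    rw [mul_comm]; exact h5
  exact le_of_mul_le_mul_left h6 hKpos

theorem step2 (H K F : Finset X) {lam eta : ℝ} (hlam : 0 < lam) (he0 : 0 < eta)
    (he1 : eta < 1)
    (hK : ∀ U : Finset X, spr Γ U H * (1 / (eta * lam)) ^ U.card ≤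
      spr Γ K H * (1 / (eta * lam)) ^ K.card)
    (hF : F.Nonempty) (hs : lam ^ F.card ≤ spr Γ F H) :
    ∃ I ⊆ F, I.Nonempty ∧ ((1 - eta) * lam) ^ I.card ≤ spr Γ I K := by
  by_contra hc
  push Not at hc
  have hr : 0 < eta * lam := by positivity
  have h1 := key H K hr hK F
  have he : 0 < 1 - eta := by linarith
  have h2 : ∑ I ∈ F.powerset, (1 / (eta * lam)) ^ I.card * spr Γ I K <
      ∑ I ∈ F.powerset, (1 / (eta * lam)) ^ I.card * ((1 - eta) * lam) ^ I.card := by
    apply Finset.sum_lt_sum
    · intro I hI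
      apply mul_le_mul_of_nonneg_left _ (by positivity)
      rcases I.eq_empty_or_nonempty with h | h
      · subst h; rw [spr_empty]; simp
      · exact (hc I (Finset.mem_powerset.1 hI) h).le
    · refine ⟨F, by simp, ?_⟩
      exact mul_lt_mul_of_pos_left (hc F (le_refl _) hF) (by positivity)
  have h3 : ∑ I ∈ F.powerset, (1 / (eta * lam)) ^ I.card * ((1 - eta) * lam) ^ I.card =
      ((1 - eta) / eta + 1) ^ F.card := by
    rw [← Finset.sum_pow_mul_eq_add_pow]
    apply Finset.sum_congr rfl
    intro I _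
    rw [one_pow, mul_one, ← mul_pow]
    congr 1
    field_simp
  rw [h3] at h2
  have h4 : (eta * lam) ^ F.card * ((1 - eta) / eta + 1) ^ F.card = lam ^ F.card := by
    rw [← mul_pow]
    congr 1
    field_simp
    ring
  have h5 : (eta * lam) ^ F.card * ∑ I ∈ F.powerset, (1 / (eta * lam)) ^ I.card * spr Γ I K <
      (eta * lam) ^ F.card * ((1 - eta) / eta + 1) ^ F.card :=
    mul_lt_mul_of_pos_left h2 (by positivity)
  rw [h4] at h5
  linarith

theorem cnt_le_choose (K H : Finset X) :
    cnt Γ K H ≤ H.card.choose K.card * cnt Γ K K := by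
  have h1 : ((univ.filter fun g : Γ => g • K ⊆ H).image fun g => g • K) ⊆
      H.powersetCard K.card := by
    intro U hU
    simp only [mem_image, mem_filter, mem_univ, true_and] at hU
    obtain ⟨g, hg, rfl⟩ := hU
    rw [Finset.mem_powersetCard]
    exact ⟨hg, Finset.card_smul_finset _ _⟩
  have h2 := Finset.card_le_mul_card_image (f := fun g : Γ => g • K)
    (univ.filter fun g : Γ => g • K ⊆ H) (cnt Γ K K) (by
      intro U hU
      simp only [mem_image, mem_filter, mem_univ, true_and] at hU
      obtain ⟨g0, hg0, rfl⟩ := hU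
      unfold cnt
      apply Finset.card_le_card_of_injOn (fun g => g0⁻¹ * g)
      · intro g hg
        simp only [coe_filter, mem_filter, mem_univ, true_and, Set.mem_ofPred_eq] at hg ⊢
        rw [mul_smul, hg.2]
        simp
      · intro a _ b _ hab
        exact mul_left_cancel hab)
  calc cnt Γ K H = (univ.filter fun g : Γ => g • K ⊆ H).card := rfl
    _ ≤ cnt Γ K K * ((univ.filter fun g : Γ => g • K ⊆ H).image fun g => g • K).card := h2
    _ ≤ cnt Γ K K * (H.powersetCard K.card).card :=
        Nat.mul_le_mul_left _ (Finset.card_le_card h1)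
    _ = _ := by rw [Finset.card_powersetCard, mul_comm]

theorem choose_le (h k : ℕ) (hk : 0 < k) :
    (h.choose k : ℝ) ≤ (3 * h / k) ^ k := by
  have h1 : (h.choose k : ℝ) ≤ (h : ℝ) ^ k / (k.factorial : ℝ) := Nat.choose_le_pow_div k h
  have h2 : (k : ℝ) ^ k / (k.factorial : ℝ) ≤ 3 ^ k := by
    have := Real.pow_div_factorial_le_exp (k : ℝ) (by positivity) k
    refine this.trans ?_
    have e : Real.exp (k : ℝ) = Real.exp 1 ^ k := by
      rw [← Real.exp_nat_mul]; simp
    rw [e]
    exact pow_le_pow_left₀ (Real.exp_pos _).le (Real.exp_one_lt_three.le) k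
  have hkf : (0 : ℝ) < k.factorial := by exact_mod_cast Nat.factorial_pos k
  have hk' : (0 : ℝ) < k := by exact_mod_cast hk
  refine h1.trans ?_
  rw [div_pow, mul_pow]
  rw [div_le_div_iff₀ hkf (by positivity)]
  rw [div_le_iff₀ hkf] at h2
  calc (h : ℝ) ^ k * (k : ℝ) ^ k ≤ (h : ℝ) ^ k * (3 ^ k * k.factorial) :=
        mul_le_mul_of_nonneg_left h2 (by positivity)
    _ = _ := by ring

theorem size_le {K H : Finset X} {q r : ℝ} (hq : 0 < q) (hKne : K.Nonempty)
    (hst : spr Γ K K ≤ q ^ K.card) (hs : r ^ K.card ≤ spr Γ K H) :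
    r * K.card ≤ 3 * H.card * q := by
  have hk : 0 < K.card := hKne.card_pos
  have hk' : (0 : ℝ) < K.card := by exact_mod_cast hk
  have h1 : spr Γ K H ≤ H.card.choose K.card * spr Γ K K := by
    unfold spr
    rw [← mul_div_assoc]
    apply div_le_div_of_nonneg_right _ card_pos_real.le
    exact_mod_cast cnt_le_choose K H
  have h2 : r ^ K.card ≤ (3 * H.card / K.card * q) ^ K.card := by
    rw [mul_pow]
    refine hs.trans (h1.trans ?_)
    exact mul_le_mul (choose_le _ _ hk) hst (spr_nonneg _ _) (by positivity)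
  have h3 : r ≤ 3 * H.card / K.card * q :=
    le_of_pow_le_pow_left₀ hk.ne' (by positivity) h2
  calc r * K.card ≤ 3 * H.card / K.card * q * K.card :=
        mul_le_mul_of_nonneg_right h3 hk'.le
    _ = _ := by field_simp

end

theorem spread_of_stab {Γ X : Type*} [Group Γ] [Fintype Γ] [Fintype X] [DecidableEq X]
    [MulAction Γ X] (H : Finset X) (q : ℝ) (hq : 0 < q) (J : ℕ) (hJ1 : 1 ≤ J)
    (hJ : H.card < 3 ^ J)
    (hst : ∀ U ⊆ H, U.Nonempty → spr Γ U U ≤ q ^ U.card) (A : Finset X) :
    spr Γ A H ≤ (36 * J * q) ^ A.card := by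
  by_contra hc
  push Not at hc
  have hJ' : (1 : ℝ) ≤ J := by exact_mod_cast hJ1
  have hAne : A.Nonempty := by
    rw [Finset.nonempty_iff_ne_empty]
    rintro rfl
    rw [spr_empty] at hc
    simp at hc
  set eta : ℝ := 1 / (2 * J) with heta
  have he0 : 0 < eta := by positivity
  have he1 : eta ≤ 1 / 2 := by
    rw [heta, div_le_div_iff₀ (by positivity) (by norm_num)]
    linarith
  have hJeta : J * eta = 1 / 2 := by rw [heta]; field_simp
  have main : ∀ j ≤ J, ∃ K ⊆ H, 3 ^ j * K.card ≤ H.card ∧ ∃ F : Finset X, F.Nonempty ∧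
      ((1 - eta) ^ j * (36 * J * q)) ^ F.card ≤ spr Γ F K := by
    intro j
    induction j with
    | zero =>
      intro _
      refine ⟨H, le_refl _, by simp, A, hAne, ?_⟩
      simpa using hc.le
    | succ j ih =>
      intro hj
      obtain ⟨K, hKH, hcard, F, hF, hs⟩ := ih (by omega)
      set lam : ℝ := (1 - eta) ^ j * (36 * J * q) with hlamdef
      have hpow : (1 : ℝ) / 2 ≤ (1 - eta) ^ j := by
        have h1 := one_add_mul_le_pow (a := -eta) (by linarith) j
        have h2 : (j : ℝ) * eta ≤ J * eta := by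
          apply mul_le_mul_of_nonneg_right _ he0.le
          exact_mod_cast (by omega : j ≤ J)
        have h3 : 1 + (j : ℝ) * -eta ≤ (1 - eta) ^ j := by
          simpa [sub_eq_add_neg] using h1
        linarith
      have hlam : 0 < lam := by
        have : 0 < (1 - eta) ^ j := by linarith
        positivity
      have hr : 0 < eta * lam := by positivity
      obtain ⟨K1, hK1⟩ := Finite.exists_max
        (fun U : Finset X => spr Γ U K * (1 / (eta * lam)) ^ U.card)
      have hK1pos : 1 ≤ spr Γ K1 K * (1 / (eta * lam)) ^ K1.card := by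
        have := hK1 ∅
        simpa [spr_empty] using this
      have hpos : 0 < spr Γ K1 K := by
        have h2 : 0 < (1 / (eta * lam)) ^ K1.card := by positivity
        by_contra hcc
        push Not at hcc
        nlinarith
      obtain ⟨g, hg⟩ := exists_of_spr_pos hpos
      set K2 : Finset X := g • K1 with hK2
      have hK2card : K2.card = K1.card := by rw [hK2, Finset.card_smul_finset]
      have hK2s : spr Γ K2 K = spr Γ K1 K := by rw [hK2, spr_smul_left]
      have hmax : ∀ U : Finset X, spr Γ U K * (1 / (eta * lam)) ^ U.card ≤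
          spr Γ K2 K * (1 / (eta * lam)) ^ K2.card := by
        intro U
        rw [hK2card, hK2s]
        exact hK1 U
      obtain ⟨I, hIF, hIne, hI⟩ := step2 K K2 F hlam he0 (by linarith) hmax hF hs
      refine ⟨K2, hg.trans hKH, ?_, I, hIne, ?_⟩
      · rcases K2.eq_empty_or_nonempty with h | h
        · rw [h]; simp
        · have h1 : (eta * lam) ^ K2.card ≤ spr Γ K2 K := by
            rw [← hK2card, ← hK2s] at hK1pos
            have h3 : spr Γ K2 K * (1 / (eta * lam)) ^ K2.card * (eta * lam) ^ K2.card =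
                spr Γ K2 K := by
              rw [mul_assoc, ← mul_pow, one_div, inv_mul_cancel₀ hr.ne', one_pow, mul_one]
            calc (eta * lam) ^ K2.card = 1 * (eta * lam) ^ K2.card := by ring
              _ ≤ spr Γ K2 K * (1 / (eta * lam)) ^ K2.card * (eta * lam) ^ K2.card :=
                mul_le_mul_of_nonneg_right hK1pos (by positivity)
              _ = _ := h3
          have h2 := size_le hq h (hst K2 (hg.trans hKH) h) h1
          have h3 : 9 * q ≤ eta * lam := by
            have : eta * lam = (J * eta) * 36 * q * (1 - eta) ^ j := by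
              rw [hlamdef]; ring
            rw [this, hJeta]
            nlinarith
          have h4 : 9 * q * K2.card ≤ 3 * K.card * q :=
            (mul_le_mul_of_nonneg_right h3 (by positivity)).trans h2
          have h5 : 3 * (K2.card : ℝ) ≤ K.card := by
            have : q * (3 * (K2.card : ℝ)) ≤ q * K.card := by nlinarith
            exact le_of_mul_le_mul_left this hq
          have h6 : 3 * K2.card ≤ K.card := by exact_mod_cast h5
          calc 3 ^ (j + 1) * K2.card = 3 ^ j * (3 * K2.card) := by ring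
            _ ≤ 3 ^ j * K.card := Nat.mul_le_mul_left _ h6
            _ ≤ H.card := hcard
      · have : (1 - eta) ^ (j + 1) * (36 * J * q) = (1 - eta) * lam := by
          rw [hlamdef]; ring
        rw [this]
        exact hI
  obtain ⟨K, -, hcard, F, hF, hs⟩ := main J (le_refl _)
  have hK0 : K.card = 0 := by
    by_contra h
    have h1 : 1 ≤ K.card := Nat.one_le_iff_ne_zero.2 h
    have : 3 ^ J * 1 ≤ 3 ^ J * K.card := Nat.mul_le_mul_left _ h1
    omega
  rw [Finset.card_eq_zero] at hK0
  rw [hK0, spr_empty_right hF] at hs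
  have : 0 < ((1 - eta) ^ J * (36 * J * q)) ^ F.card := by
    have : 0 < 1 - eta := by linarith
    positivity
  linarith

end P064
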