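import Vale.Agent.P064.Thr
import Vale.Agent.P064.Spr

/-!
P064, full result: definitions for hierarchical spread families.
-/

namespace P064.H

open Finset P064

variable {X : Type} [Fintype X] [DecidableEq X]

/-- expectation of `f` of a random subset of `X` of density `p` -/
noncomputable def ex (p : ℝ) (f : Finset X → ℝ) : ℝ := ∑ W : Finset X, bw p W * f W

/-- a weighted family of labels, of size exponent `j`, which is `r`-spread and has large atoms -/
structure Fam {ι : Type} (r : ℝ) (j : ℕ) (I : Finset ι) (wt : ι → ℝ) (lab : ι → Finset X) :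
    Prop where
  atom : ∀ a ∈ I, (1 / 65536 : ℝ) ^ (2 ^ j) * r ^ (lab a).card ≤ wt a
  mass : 1 - (1 / 2 : ℝ) ^ (j + 1) ≤ ∑ a ∈ I, wt a
  spread : ∀ S : Finset X, ∑ a ∈ I with S ⊆ lab a, wt a ≤ (1 + (1 / 2 : ℝ) ^ j) * r ^ S.card
  size : ∀ a ∈ I, (lab a).card < 2 ^ j

/-- badness of a child with exponent `jc` and badness `B`, relative to the exponent `j` of its
parent -/
noncomputable def hb (j jc : ℕ) (B : ℝ) : ℝ := 2 ^ (2 ^ jc * (jc - (j + 7))) * (1 + B) - 1

/-- hierarchical spread systems of depth `m`: `j` is the size exponent of the first family, `B` a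
bound for the badness, `L` the ground set used, `E` the event that is wanted -/
def Good (r : ℝ) : ℕ → ℕ → ℝ → Finset X → (Finset X → Prop) → Prop
  | 0, _, _, _, E => ∀ W, E W
  | m + 1, j, B, L, E => ∃ (ι : Type) (I : Finset ι) (wt : ι → ℝ) (lab : ι → Finset X)
      (jc : ι → ℕ) (Bc : ι → ℝ) (Lc : ι → Finset X) (Ec : ι → Finset X → Prop),
      Fam r j I wt lab ∧
      (∀ a ∈ I, lab a ⊆ L ∧ Lc a ⊆ L ∧ Disjoint (lab a) (Lc a)) ∧
      (∀ a ∈ I, j + 7 ≤ jc a ∧ 0 ≤ Bc a) ∧
      (∀ a ∈ I, ∀ W W', W ⊆ W' → Ec a W → Ec a W') ∧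
      (∀ a ∈ I, Good r m (jc a) (Bc a) (Lc a) (Ec a)) ∧
      (∀ a ∈ I, ∀ W, lab a ⊆ W → Ec a W → E W) ∧
      ∑ a ∈ I, wt a * hb j (jc a) (Bc a) ≤ B

open Classical in
/-- probability that the union of `t` independent random sets of density `p` is in `E` -/
noncomputable def pu (p : ℝ) : ℕ → (Finset X → Prop) → ℝ
  | 0, E => if E ∅ then 1 else 0
  | t + 1, E => ex p fun W => pu p t fun W' => E (W ∪ W')

end P064.H
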