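import Vale.Agent.P064.HDefs

/-!
# P064, module B : the weighted fragment lemma
-/

namespace P064.H

open Finset P064

variable {X : Type} [Fintype X] [DecidableEq X]

namespace FknpAux

lemma bw_sdiff {p : ℝ} (h0 : 0 < p) (h1 : p ≤ 1) {W S : Finset X} (h : Disjoint W S) :
    bw p W ≤ (p ^ S.card)⁻¹ * bw p (W ∪ S) := by
  have h2 := Thr.bw_sdiff_le h0 h1 h
  have h3 : @Union.union (Finset X) (@Finset.instUnion X fun a b =>
      Classical.propDecidable (a = b)) W S = W ∪ S := by
    ext x
    simp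
  rw [h3] at h2
  exact h2

end FknpAux

/-- the fragment lemma -/
theorem fknp {ι : Type} (I : Finset ι) (wt : ι → ℝ) (hwt : ∀ a ∈ I, 0 ≤ wt a)
    (T : ι → Finset X) (sel : ι → Finset X → ι)
    (hsel : ∀ u ∈ I, ∀ W, sel u W ∈ I ∧ T (sel u W) ⊆ W ∪ T u ∧
      ∀ a ∈ I, T a ⊆ W ∪ T u → (T (sel u W) \ W).card ≤ (T a \ W).card)
    {A r p : ℝ} (hr : 0 < r) (hrp : r ≤ p) (hp1 : p ≤ 1) (hA : 0 ≤ A)
    (hspr : ∀ S : Finset X, ∑ a ∈ I with S ⊆ T a, wt a ≤ A * r ^ S.card)
    (m : ℕ) (hm : ∀ a ∈ I, (T a).card < 2 * m) :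
    ex p (fun W => ∑ u ∈ I with m ≤ (T (sel u W) \ W).card, wt u) ≤ A * (4 * r / p) ^ m := by
  classical
  have hp0 : 0 < p := lt_of_lt_of_le hr hrp
  -- the large subsets of a chosen member inside `Z`
  let Ss : Finset X → Finset (Finset X) := fun Z =>
    if h : ∃ j, j ∈ I ∧ T j ⊆ Z then (T h.choose).powerset.filter fun S => m ≤ S.card else ∅
  have hSs : ∀ W, ∀ i ∈ I, m ≤ (T (sel i W) \ W).card →
      T (sel i W) \ W ∈ Ss (W ∪ (T (sel i W) \ W)) := by
    intro W i hi hmi
    obtain ⟨h1, h2, h3⟩ := hsel i hi W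
    have hsub : T (sel i W) ⊆ W ∪ (T (sel i W) \ W) := by
      intro x hx
      rw [Finset.mem_union, Finset.mem_sdiff]
      by_cases hxW : x ∈ W
      · exact Or.inl hxW
      · exact Or.inr ⟨hx, hxW⟩
    have hex : ∃ j, j ∈ I ∧ T j ⊆ W ∪ (T (sel i W) \ W) := ⟨_, h1, hsub⟩
    have hSeq : Ss (W ∪ (T (sel i W) \ W)) =
        (T hex.choose).powerset.filter fun S => m ≤ S.card := dif_pos hex
    rw [hSeq, Finset.mem_filter, Finset.mem_powerset]
    refine ⟨?_, hmi⟩
    obtain ⟨h4, h5⟩ := hex.choose_spec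
    set j0 := hex.choose with hj0
    have h6 : T j0 ⊆ W ∪ T i := by
      intro x hx
      have := h5 hx
      rw [Finset.mem_union, Finset.mem_sdiff] at this
      rcases this with h | h
      · exact Finset.mem_union_left _ h
      · exact h2 h.1
    have h7 := h3 j0 h4 h6
    have h8 : T j0 \ W ⊆ T (sel i W) \ W := by
      intro x hx
      rw [Finset.mem_sdiff] at hx
      have := h5 hx.1
      rw [Finset.mem_union] at this
      exact this.resolve_left hx.2
    have h9 : T j0 \ W = T (sel i W) \ W := Finset.eq_of_subset_of_card_le h8 h7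
    rw [← h9]
    exact Finset.sdiff_subset
  have hScard : ∀ Z, ((Ss Z).card : ℝ) ≤ 4 ^ m := by
    intro Z
    by_cases h : ∃ j, j ∈ I ∧ T j ⊆ Z
    · have hSeq : Ss Z = (T h.choose).powerset.filter fun S => m ≤ S.card := dif_pos h
      have h1 : (Ss Z).card ≤ 2 ^ (T h.choose).card := by
        rw [hSeq, ← Finset.card_powerset]
        exact Finset.card_filter_le _ _
      have h2 : (2 : ℕ) ^ (T h.choose).card ≤ 4 ^ m := by
        have h3 : (4 : ℕ) ^ m = 2 ^ (2 * m) := by
          rw [pow_mul]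
          norm_num
        rw [h3]
        exact Nat.pow_le_pow_right (by norm_num) (hm _ h.choose_spec.1).le
      exact_mod_cast h1.trans h2
    · have hSeq : Ss Z = ∅ := dif_neg h
      rw [hSeq]
      simp
  have hSm : ∀ Z, ∀ S ∈ Ss Z, m ≤ S.card := by
    intro Z S hS
    by_cases h : ∃ j, j ∈ I ∧ T j ⊆ Z
    · have hSeq : Ss Z = (T h.choose).powerset.filter fun S => m ≤ S.card := dif_pos h
      rw [hSeq, Finset.mem_filter] at hS
      exact hS.2
    · have hSeq : Ss Z = ∅ := dif_neg h
      rw [hSeq] at hS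
      exact absurd hS (Finset.notMem_empty _)
  -- for a fixed index
  have hone : ∀ i ∈ I, ∑ W : Finset X, (if m ≤ (T (sel i W) \ W).card then bw p W else 0) ≤
      ∑ Z : Finset X, ∑ S ∈ Ss Z, if S ⊆ T i then (p ^ S.card)⁻¹ * bw p Z else 0 := by
    intro i hi
    rw [Finset.sum_sigma' univ Ss, ← Finset.sum_filter, ← Finset.sum_filter]
    have hinj : Set.InjOn (fun W : Finset X =>
        (⟨W ∪ (T (sel i W) \ W), T (sel i W) \ W⟩ : Sigma fun _ : Finset X => Finset X))
        (univ.filter fun W => m ≤ (T (sel i W) \ W).card : Finset (Finset X)) := by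
      intro W _ W' _ h
      simp only [Sigma.mk.injEq, heq_eq_eq] at h
      have h1 : ∀ V : Finset X, (V ∪ (T (sel i V) \ V)) \ (T (sel i V) \ V) = V := by
        intro V
        ext x
        simp only [mem_sdiff, mem_union]
        tauto
      rw [← h1 W, ← h1 W', h.1, h.2]
    calc ∑ W ∈ univ.filter (fun W => m ≤ (T (sel i W) \ W).card), bw p W ≤
        ∑ W ∈ univ.filter (fun W => m ≤ (T (sel i W) \ W).card),
          (p ^ (T (sel i W) \ W).card)⁻¹ * bw p (W ∪ (T (sel i W) \ W)) :=
          Finset.sum_le_sum fun W _ => FknpAux.bw_sdiff hp0 hp1 disjoint_sdiff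
      _ = ∑ x ∈ (univ.filter fun W => m ≤ (T (sel i W) \ W).card).image (fun W : Finset X =>
            (⟨W ∪ (T (sel i W) \ W), T (sel i W) \ W⟩ : Sigma fun _ : Finset X => Finset X)),
          (p ^ x.2.card)⁻¹ * bw p x.1 := by
          rw [Finset.sum_image hinj]
      _ ≤ _ := by
          refine Finset.sum_le_sum_of_subset_of_nonneg ?_ fun x _ _ => ?_
          · intro x hx
            rw [Finset.mem_image] at hx
            obtain ⟨W, hW, rfl⟩ := hx
            rw [Finset.mem_filter] at hW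
            rw [Finset.mem_filter, Finset.mem_sigma]
            refine ⟨⟨mem_univ _, hSs W i hi hW.2⟩, ?_⟩
            intro y hy
            rw [Finset.mem_sdiff] at hy
            have := (hsel i hi W).2.1 hy.1
            rw [Finset.mem_union] at this
            exact this.resolve_left hy.2
          · exact mul_nonneg (by positivity) (Thr.bw_nonneg hp0.le hp1 _)
  calc ex p (fun W => ∑ u ∈ I with m ≤ (T (sel u W) \ W).card, wt u) =
      ∑ i ∈ I, wt i * ∑ W : Finset X, (if m ≤ (T (sel i W) \ W).card then bw p W else 0) := by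
        unfold ex
        simp_rw [Finset.mul_sum]
        rw [Finset.sum_comm (s := I)]
        refine Finset.sum_congr rfl fun W _ => ?_
        rw [Finset.sum_filter]
        refine Finset.sum_congr rfl fun i _ => ?_
        split_ifs <;> ring
    _ ≤ ∑ i ∈ I, wt i * ∑ Z : Finset X, ∑ S ∈ Ss Z,
          (if S ⊆ T i then (p ^ S.card)⁻¹ * bw p Z else 0) :=
        Finset.sum_le_sum fun i hi => mul_le_mul_of_nonneg_left (hone i hi) (hwt i hi)
    _ = ∑ Z : Finset X, ∑ S ∈ Ss Z, (∑ i ∈ I with S ⊆ T i, wt i) *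
          ((p ^ S.card)⁻¹ * bw p Z) := by
        simp_rw [Finset.mul_sum]
        rw [Finset.sum_comm]
        refine Finset.sum_congr rfl fun Z _ => ?_
        rw [Finset.sum_comm]
        refine Finset.sum_congr rfl fun S _ => ?_
        rw [Finset.sum_filter, Finset.sum_mul]
        refine Finset.sum_congr rfl fun i _ => ?_
        split_ifs <;> ring
    _ ≤ ∑ Z : Finset X, ∑ S ∈ Ss Z, (A * (r / p) ^ m) * bw p Z := by
        refine Finset.sum_le_sum fun Z _ => Finset.sum_le_sum fun S hS => ?_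
        have hbw := Thr.bw_nonneg (X := X) hp0.le hp1 Z
        rw [← mul_assoc]
        refine mul_le_mul_of_nonneg_right ?_ hbw
        have h1 : (∑ i ∈ I with S ⊆ T i, wt i) * (p ^ S.card)⁻¹ ≤
            (A * r ^ S.card) * (p ^ S.card)⁻¹ :=
          mul_le_mul_of_nonneg_right (hspr S) (by positivity)
        refine h1.trans ?_
        have h2 : (A * r ^ S.card) * (p ^ S.card)⁻¹ = A * (r / p) ^ S.card := by
          rw [div_pow, mul_assoc, div_eq_mul_inv]
        rw [h2]
        refine mul_le_mul_of_nonneg_left ?_ hA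
        exact pow_le_pow_of_le_one (by positivity) ((div_le_one hp0).mpr hrp) (hSm Z S hS)
    _ = ∑ Z : Finset X, ((Ss Z).card : ℝ) * ((A * (r / p) ^ m) * bw p Z) := by
        refine Finset.sum_congr rfl fun Z _ => ?_
        rw [Finset.sum_const, nsmul_eq_mul]
    _ ≤ ∑ Z : Finset X, (4 : ℝ) ^ m * ((A * (r / p) ^ m) * bw p Z) := by
        refine Finset.sum_le_sum fun Z _ => mul_le_mul_of_nonneg_right (hScard Z) ?_
        exact mul_nonneg (by positivity) (Thr.bw_nonneg hp0.le hp1 Z)
    _ = A * (4 * r / p) ^ m := by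
        rw [← Finset.mul_sum, ← Finset.mul_sum, Thr.sum_bw, mul_one, mul_div_assoc, mul_pow]
        ring

end P064.H
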