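import Vale.Agent.P064.HStep

/-!
# P064, module E : hierarchical spread systems are hit by unions of random sets
-/

namespace P064.H

open Finset P064

variable {X : Type} [Fintype X] [DecidableEq X]

namespace HitAux

/-! ### expectations -/

omit [DecidableEq X] in
lemma ex_mono {p : ℝ} (h0 : 0 ≤ p) (h1 : p ≤ 1) {f g : Finset X → ℝ} (h : ∀ W, f W ≤ g W) :
    ex p f ≤ ex p g :=
  Finset.sum_le_sum fun W _ => mul_le_mul_of_nonneg_left (h W) (Thr.bw_nonneg h0 h1 W)

omit [DecidableEq X] in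
lemma ex_const (p c : ℝ) : ex p (fun _ : Finset X => c) = c := by
  unfold ex
  rw [← Finset.sum_mul, Thr.sum_bw, one_mul]

omit [DecidableEq X] in
lemma ex_add (p : ℝ) (f g : Finset X → ℝ) : ex p (fun W => f W + g W) = ex p f + ex p g := by
  unfold ex
  rw [← Finset.sum_add_distrib]
  exact Finset.sum_congr rfl fun W _ => by ring

omit [DecidableEq X] in
lemma ex_smul (p c : ℝ) (f : Finset X → ℝ) : ex p (fun W => c * f W) = c * ex p f := by
  unfold ex
  rw [Finset.mul_sum]
  exact Finset.sum_congr rfl fun W _ => by ring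

lemma pu_nonneg {p : ℝ} (h0 : 0 ≤ p) (h1 : p ≤ 1) (t : ℕ) :
    ∀ E : Finset X → Prop, 0 ≤ pu p t E := by
  induction t with
  | zero =>
    intro E
    unfold pu
    split_ifs <;> norm_num
  | succ t ih =>
    intro E
    unfold pu
    exact Finset.sum_nonneg fun W _ => mul_nonneg (Thr.bw_nonneg h0 h1 W) (ih _)

lemma pu_mono {p : ℝ} (h0 : 0 ≤ p) (h1 : p ≤ 1) (t : ℕ) :
    ∀ E E' : Finset X → Prop, (∀ W, E W → E' W) → pu p t E ≤ pu p t E' := by
  induction t with
  | zero =>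
    intro E E' h
    unfold pu
    by_cases h2 : E ∅
    · rw [if_pos h2, if_pos (h _ h2)]
    · rw [if_neg h2]
      split_ifs <;> norm_num
  | succ t ih =>
    intro E E' h
    unfold pu
    exact ex_mono h0 h1 fun W => ih _ _ fun W' hW' => h _ hW'

lemma pu_true {p : ℝ} (t : ℕ) :
    ∀ E : Finset X → Prop, (∀ W, E W) → pu p t E = 1 := by
  induction t with
  | zero =>
    intro E h
    unfold pu
    rw [if_pos (h _)]
  | succ t ih =>
    intro E h
    unfold pu
    rw [show (fun W : Finset X => pu p t fun W' => E (W ∪ W')) = fun _ => (1 : ℝ) from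
      funext fun W => ih _ fun W' => h _]
    exact ex_const p 1

/-! ### the numerical part of the descent to a child -/

lemma six_le {jc : ℕ} (h : 7 ≤ jc) : 6 ≤ 2 ^ jc :=
  le_trans (by norm_num) (Nat.pow_le_pow_right (by norm_num : 1 ≤ 2) (h : 7 ≤ jc))

lemma hb_ge {jc : ℕ} (h : 7 ≤ jc) {B : ℝ} (hB : 0 ≤ B) :
    64 ^ (jc - 7) * (1 + B) ≤ hb 0 jc B + 1 := by
  unfold hb
  have h1 : (64 : ℝ) ^ (jc - 7) ≤ 2 ^ (2 ^ jc * (jc - (0 + 7))) := by
    calc (64 : ℝ) ^ (jc - 7) = 2 ^ (6 * (jc - 7)) := by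
          rw [pow_mul]; norm_num
      _ ≤ 2 ^ (2 ^ jc * (jc - (0 + 7))) := by
          refine pow_le_pow_right₀ (by norm_num) ?_
          rw [Nat.zero_add]
          exact Nat.mul_le_mul_right _ (six_le h)
  have h2 : 0 ≤ 1 + B := by linarith
  nlinarith [mul_le_mul_of_nonneg_right h1 h2]

/-- the assertion `H1(t)` -/
def H1 (X : Type) [Fintype X] [DecidableEq X] (r p : ℝ) (t : ℕ) : Prop :=
  ∀ (m j : ℕ) (B : ℝ) (L : Finset X) (E : Finset X → Prop), 1 ≤ j → 0 ≤ B →
    (∀ W W', W ⊆ W' → E W → E W') → Good r m j B L E →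
    1 - (1 / 8 : ℝ) ^ t * 64 ^ (j + 7 * m) * (1 + B) ≤ pu p t E

lemma H0_of_H1 {r p : ℝ} (hr : 0 < r) (hp0 : 0 ≤ p) (hp1 : p ≤ 1) (t : ℕ) (h1 : H1 X r p t)
    (m j : ℕ) (B : ℝ) (L : Finset X) (E : Finset X → Prop) (hB : 0 ≤ B)
    (hE : ∀ W W', W ⊆ W' → E W → E W') (hG : Good r m j B L E) :
    1 - 2 * ((1 / 8 : ℝ) ^ t * 64 ^ (j + 7 * m) * (1 + B)) ≤ pu p t E := by
  have hc : 0 ≤ (1 / 8 : ℝ) ^ t * 64 ^ (j + 7 * m) * (1 + B) := by positivity
  rcases Nat.eq_zero_or_pos j with hj | hj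
  · subst hj
    cases m with
    | zero =>
      have hE' : ∀ W, E W := hG
      rw [pu_true t E hE']
      linarith
    | succ m =>
      obtain ⟨ι, I, wt, lab, jc, Bc, Lc, Ec, hF, hL, hj, hmono, hgood, himp, hB2⟩ := hG
      have hwt : ∀ a ∈ I, 0 < wt a := fun a ha =>
        lt_of_lt_of_le (by positivity) (hF.atom a ha)
      have hmass : (1 / 2 : ℝ) ≤ ∑ a ∈ I, wt a := by
        have := hF.mass
        norm_num at this ⊢
        linarith
      have hne : I.Nonempty := by
        rw [Finset.nonempty_iff_ne_empty]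
        intro h
        rw [h, Finset.sum_empty] at hmass
        norm_num at hmass
      have hex : ∃ a ∈ I, hb 0 (jc a) (Bc a) ≤ 2 * B := by
        by_contra hcon
        push Not at hcon
        have h2 : ∑ a ∈ I, wt a * (2 * B) < ∑ a ∈ I, wt a * hb 0 (jc a) (Bc a) :=
          Finset.sum_lt_sum_of_nonempty hne fun a ha =>
            mul_lt_mul_of_pos_left (hcon a ha) (hwt a ha)
        rw [← Finset.sum_mul] at h2
        nlinarith
      obtain ⟨a, ha, hab⟩ := hex
      have hja : 7 ≤ jc a := by have := (hj a ha).1; omega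
      have hBa : 0 ≤ Bc a := (hj a ha).2
      have hlab : lab a = ∅ := by
        have := hF.size a ha
        rw [pow_zero] at this
        exact Finset.card_eq_zero.mp (by omega)
      have h3 := h1 m (jc a) (Bc a) (Lc a) (Ec a) (by omega) hBa (hmono a ha) (hgood a ha)
      have h4 : pu p t (Ec a) ≤ pu p t E := pu_mono hp0 hp1 t _ _ fun W hW =>
        himp a ha W (by rw [hlab]; exact Finset.empty_subset _) hW
      have h5 := hb_ge hja hBa
      have h6 : (64 : ℝ) ^ (jc a + 7 * m) = 64 ^ (0 + 7 * (m + 1)) * 64 ^ (jc a - 7) := by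
        rw [← pow_add]
        congr 1
        omega
      have h7 : (1 / 8 : ℝ) ^ t * 64 ^ (jc a + 7 * m) * (1 + Bc a) ≤
          2 * ((1 / 8 : ℝ) ^ t * 64 ^ (0 + 7 * (m + 1)) * (1 + B)) := by
        rw [h6]
        have h8 : (64 : ℝ) ^ (jc a - 7) * (1 + Bc a) ≤ 2 * (1 + B) := by linarith
        have h9 : 0 ≤ (1 / 8 : ℝ) ^ t * 64 ^ (0 + 7 * (m + 1)) := by positivity
        calc (1 / 8 : ℝ) ^ t * (64 ^ (0 + 7 * (m + 1)) * 64 ^ (jc a - 7)) * (1 + Bc a)
            = ((1 / 8 : ℝ) ^ t * 64 ^ (0 + 7 * (m + 1))) * (64 ^ (jc a - 7) * (1 + Bc a)) := by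
              ring
          _ ≤ ((1 / 8 : ℝ) ^ t * 64 ^ (0 + 7 * (m + 1))) * (2 * (1 + B)) :=
              mul_le_mul_of_nonneg_left h8 h9
          _ = 2 * ((1 / 8 : ℝ) ^ t * 64 ^ (0 + 7 * (m + 1)) * (1 + B)) := by ring
      linarith
  · have := h1 m j B L E hj hB hE hG
    linarith

open Classical in
lemma H1_succ {r p : ℝ} (hr : 0 < r) (hp : p = 1024 * r) (hp1 : p ≤ 1) (t : ℕ)
    (h1 : H1 X r p t) : H1 X r p (t + 1) := by
  intro m j B L E hj hB hE hG
  have hp0 : 0 ≤ p := by rw [hp]; positivity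
  obtain ⟨sc, b, -, -, hb0, hgood, hsc, hscb⟩ := step hr hp hp1 m j B L E hj hB hE hG
  set c : ℝ := (1 / 8 : ℝ) ^ t * 64 ^ (j + 7 * m) with hc
  have hc0 : 0 ≤ c := by positivity
  have hj64 : (64 : ℝ) ^ (j + 7 * m) = 64 * 64 ^ (j - 1 + 7 * m) := by
    rw [← pow_succ']
    congr 1
    omega
  set u : ℝ := ex p (fun W => if sc W then (1 : ℝ) else 0) with hu
  set v : ℝ := ex p (fun W => if sc W then (0 : ℝ) else 1) with hv
  set w : ℝ := ex p (fun W => if sc W then b W else 0) with hw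
  have key : ∀ W, 1 + ((-(c / 32)) * (if sc W then (1 : ℝ) else 0) +
      ((-(c / 32)) * (if sc W then b W else 0) +
        (-(c * (1 + B))) * (if sc W then (0 : ℝ) else 1))) ≤
      pu p t fun W' => E (W ∪ W') := by
    intro W
    have hEW : ∀ W1 W2 : Finset X, W1 ⊆ W2 → E (W ∪ W1) → E (W ∪ W2) := fun W1 W2 h12 h =>
      hE _ _ (Finset.union_subset_union_right h12) h
    by_cases hs : sc W
    · have h2 := H0_of_H1 hr hp0 hp1 t h1 m (j - 1) (b W) L (fun W' => E (W ∪ W')) (hb0 W) hEW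
        (hgood W hs)
      simp only [if_pos hs]
      refine le_trans (le_of_eq ?_) h2
      rw [hc, hj64]
      ring
    · have h2 := h1 m j B L E hj hB hE hG
      have h3 : pu p t E ≤ pu p t fun W' => E (W ∪ W') :=
        pu_mono hp0 hp1 t _ _ fun W' h => hE _ _ Finset.subset_union_right h
      simp only [if_neg hs]
      refine le_trans (le_of_eq ?_) (h2.trans h3)
      rw [hc]
      ring
  have hex : 1 + ((-(c / 32)) * u + ((-(c / 32)) * w + (-(c * (1 + B))) * v)) ≤
      pu p (t + 1) E := by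
    have h2 := ex_mono hp0 hp1 key
    rw [ex_add, ex_add, ex_add, ex_const, ex_smul, ex_smul, ex_smul] at h2
    exact h2
  have hu1 : u ≤ 1 := by
    rw [hu]
    calc ex p (fun W => if sc W then (1 : ℝ) else 0) ≤ ex p (fun _ : Finset X => (1 : ℝ)) := by
          refine ex_mono hp0 hp1 fun W => ?_
          split_ifs <;> norm_num
      _ = 1 := ex_const p 1
  have h2j : 2 ≤ 2 ^ j := by
    calc 2 = 2 ^ 1 := by norm_num
      _ ≤ 2 ^ j := Nat.pow_le_pow_right (by norm_num) hj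
  have hw1 : w ≤ 1 / 4 * (1 + B) := by
    refine hscb.trans ?_
    refine mul_le_mul_of_nonneg_right ?_ (by linarith)
    calc (1 / 2 : ℝ) ^ (2 ^ j) ≤ (1 / 2) ^ 2 :=
          pow_le_pow_of_le_one (by norm_num) (by norm_num) h2j
      _ = 1 / 4 := by norm_num
  have hv1 : v ≤ 1 / 16 := by
    refine hsc.trans ?_
    calc (1 / 4 : ℝ) ^ (2 ^ j) ≤ (1 / 4) ^ 2 :=
          pow_le_pow_of_le_one (by norm_num) (by norm_num) h2j
      _ = 1 / 16 := by norm_num
  refine le_trans ?_ hex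
  have h5 : (1 / 8 : ℝ) ^ (t + 1) * 64 ^ (j + 7 * m) * (1 + B) = c * ((1 + B) / 8) := by
    rw [hc, pow_succ]
    ring
  rw [h5]
  have h6 : u / 32 + w / 32 + (1 + B) * v ≤ (1 + B) / 8 := by
    have h7 : (1 + B) * v ≤ (1 + B) * (1 / 16) :=
      mul_le_mul_of_nonneg_left hv1 (by linarith)
    linarith
  have h8 := mul_le_mul_of_nonneg_left h6 hc0
  linarith

lemma H1_all {r p : ℝ} (hr : 0 < r) (hp : p = 1024 * r) (hp1 : p ≤ 1) (t : ℕ) :
    H1 X r p t := by
  have hp0 : 0 ≤ p := by rw [hp]; positivity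
  induction t with
  | zero =>
    intro m j B L E hj hB hE hG
    have h1 := pu_nonneg hp0 hp1 0 E
    have h2 : (1 : ℝ) ≤ 64 ^ (j + 7 * m) := one_le_pow₀ (by norm_num)
    have h3 : (1 : ℝ) ≤ (1 / 8 : ℝ) ^ 0 * 64 ^ (j + 7 * m) * (1 + B) := by
      rw [pow_zero, one_mul]
      nlinarith
    linarith
  | succ t ih => exact H1_succ hr hp hp1 t ih

end HitAux

theorem hit {r p : ℝ} (hr : 0 < r) (hp : p = 1024 * r) (hp1 : p ≤ 1) (t m j : ℕ) (B : ℝ)
    (L : Finset X) (E : Finset X → Prop) (hj : 1 ≤ j) (hB : 0 ≤ B)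
    (hE : ∀ W W', W ⊆ W' → E W → E W') (hG : Good r m j B L E) :
    1 - (1 / 8 : ℝ) ^ t * 64 ^ (j + 7 * m) * (1 + B) ≤ pu p t E :=
  HitAux.H1_all hr hp hp1 t m j B L E hj hB hE hG

open Classical in
theorem pu_eq (p : ℝ) (t : ℕ) (E : Finset X → Prop) :
    pu p t E = ∑ W : Finset X, if E W then bw (1 - (1 - p) ^ t) W else 0 := by
  induction t generalizing E with
  | zero =>
    have h1 : ∀ W : Finset X, (if E W then bw (1 - (1 - p) ^ 0) W else 0) =
        if W = ∅ then (if E ∅ then (1 : ℝ) else 0) else 0 := by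
      intro W
      by_cases hW : W = ∅
      · subst hW
        rw [if_pos rfl]
        unfold bw
        simp
      · rw [if_neg hW]
        have h2 : W.card ≠ 0 := fun h => hW (Finset.card_eq_zero.mp h)
        have h3 : bw (1 - (1 - p) ^ 0) W = 0 := by
          unfold bw
          rw [pow_zero, sub_self, zero_pow h2, zero_mul]
        rw [h3, ite_self]
    simp_rw [h1]
    rw [Finset.sum_ite_eq' univ (∅ : Finset X)]
    simp only [Finset.mem_univ, if_true]
    unfold pu
    rfl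
  | succ t ih =>
    have h1 : pu p (t + 1) E = ∑ W : Finset X, ∑ W' : Finset X,
        bw p W * bw (1 - (1 - p) ^ t) W' * (if E (W ∪ W') then 1 else 0) := by
      show ex p (fun W => pu p t fun W' => E (W ∪ W')) = _
      unfold ex
      refine Finset.sum_congr rfl fun W _ => ?_
      show bw p W * (pu p t fun W' => E (W ∪ W')) = _
      rw [ih, Finset.mul_sum]
      refine Finset.sum_congr rfl fun W' _ => ?_
      split_ifs <;> ring
    have h2 := Thr.sum_union p (1 - (1 - p) ^ t) (fun W : Finset X => if E W then (1 : ℝ) else 0)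
    have h3 : p + (1 - (1 - p) ^ t) - p * (1 - (1 - p) ^ t) = 1 - (1 - p) ^ (t + 1) := by
      rw [pow_succ]; ring
    rw [h3] at h2
    rw [h1]
    have h4 : ∑ W : Finset X, (if E W then bw (1 - (1 - p) ^ (t + 1)) W else 0) =
        ∑ W : Finset X, bw (1 - (1 - p) ^ (t + 1)) W * (if E W then (1 : ℝ) else 0) :=
      Finset.sum_congr rfl fun W _ => by split_ifs <;> ring
    rw [h4, ← h2]
    refine Finset.sum_congr rfl fun W _ => Finset.sum_congr rfl fun W' _ => ?_
    have h5 : @Union.union (Finset X) (@Finset.instUnion X fun a b => Classical.propDecidable (a = b)) W W' = W ∪ W' := by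
      ext x
      simp
    rw [h5]

end P064.H
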