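import Vale.Agent.P064.HDefs

/-!
# P064, module A : independence and the union bound
-/

namespace P064.H

open Finset P064

variable {X : Type} [Fintype X] [DecidableEq X]

namespace IndepAux

lemma sum_split (T : Finset X) (F : Finset X → ℝ) :
    ∑ W : Finset X, F W = ∑ V ∈ Tᶜ.powerset, ∑ U ∈ T.powerset, F (V ∪ U) := by
  rw [← Finset.sum_product' Tᶜ.powerset T.powerset (fun V U => F (V ∪ U))]
  refine Finset.sum_nbij' (fun W => (W \ T, W ∩ T)) (fun w => w.1 ∪ w.2) ?_ ?_ ?_ ?_ ?_
  · intro W _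
    simp only [Finset.mem_product, Finset.mem_powerset]
    refine ⟨fun x hx => ?_, Finset.inter_subset_right⟩
    rw [Finset.mem_sdiff] at hx
    exact Finset.mem_compl.mpr hx.2
  · intro w _
    exact Finset.mem_univ _
  · intro W _
    exact Finset.sdiff_union_inter W T
  · rintro ⟨V, U⟩ h
    simp only [Finset.mem_product, Finset.mem_powerset] at h
    have hV : ∀ x ∈ V, x ∉ T := fun x hx => Finset.mem_compl.mp (h.1 hx)
    refine Prod.ext ?_ ?_
    · ext x
      simp only [Finset.mem_sdiff, Finset.mem_union]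
      constructor
      · rintro ⟨hx | hx, hT⟩
        · exact hx
        · exact absurd (h.2 hx) hT
      · exact fun hx => ⟨Or.inl hx, hV x hx⟩
    · ext x
      simp only [Finset.mem_inter, Finset.mem_union]
      constructor
      · rintro ⟨hx | hx, hT⟩
        · exact absurd hT (hV x hx)
        · exact hx
      · exact fun hx => ⟨Or.inr hx, h.2 hx⟩
  · intro W _
    show F W = F (W \ T ∪ W ∩ T)
    rw [Finset.sdiff_union_inter W T]

lemma ex_split (p c : ℝ) (T : Finset X) (g : Finset X → ℝ) (hg : ∀ W, g W = g (W \ T)) :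
    ex p (fun W => c ^ (T \ W).card * g W) =
      (p + (1 - p) * c) ^ T.card *
        ∑ V ∈ Tᶜ.powerset, p ^ V.card * (1 - p) ^ (Tᶜ.card - V.card) * g V := by
  unfold ex
  rw [sum_split T, Finset.mul_sum]
  refine Finset.sum_congr rfl fun V hV => ?_
  rw [Finset.mem_powerset] at hV
  have hV' : ∀ x ∈ V, x ∉ T := fun x hx => Finset.mem_compl.mp (hV hx)
  have hVc : V.card ≤ Tᶜ.card := Finset.card_le_card hV
  have hX : T.card + Tᶜ.card = Fintype.card X := Finset.card_add_card_compl T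
  rw [← Finset.sum_pow_mul_eq_add_pow p ((1 - p) * c) T, Finset.sum_mul]
  refine Finset.sum_congr rfl fun U hU => ?_
  rw [Finset.mem_powerset] at hU
  have hUc : U.card ≤ T.card := Finset.card_le_card hU
  have hdis : Disjoint V U := by
    rw [Finset.disjoint_left]
    exact fun x hx hxU => hV' x hx (hU hxU)
  have h1 : (V ∪ U).card = V.card + U.card := Finset.card_union_of_disjoint hdis
  have h2 : T \ (V ∪ U) = T \ U := by
    ext x
    simp only [Finset.mem_sdiff, Finset.mem_union, not_or]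
    exact ⟨fun h => ⟨h.1, h.2.2⟩, fun h => ⟨h.1, fun hx => hV' x hx h.1, h.2⟩⟩
  have h3 : (T \ U).card = T.card - U.card := Finset.card_sdiff_of_subset hU
  have h4 : (V ∪ U) \ T = V := by
    ext x
    simp only [Finset.mem_sdiff, Finset.mem_union]
    constructor
    · rintro ⟨hx | hx, hT⟩
      · exact hx
      · exact absurd (hU hx) hT
    · exact fun hx => ⟨Or.inl hx, hV' x hx⟩
  have h5 : Fintype.card X - (V.card + U.card) = (Tᶜ.card - V.card) + (T.card - U.card) := by
    omega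
  show bw p (V ∪ U) * (c ^ (T \ (V ∪ U)).card * g (V ∪ U)) = _
  rw [hg (V ∪ U), h4, h2, h3]
  unfold bw
  rw [h1, h5, pow_add, pow_add, mul_pow]
  ring

end IndepAux

open IndepAux

theorem ex_indep (p c : ℝ) (T : Finset X) (g : Finset X → ℝ) (hg : ∀ W, g W = g (W \ T)) :
    ex p (fun W => c ^ (T \ W).card * g W) = (p + (1 - p) * c) ^ T.card * ex p g := by
  rw [ex_split p c T g hg]
  have h := ex_split p 1 T g hg
  simp only [one_pow, one_mul] at h
  rw [h]
  have h1 : p + (1 - p) * 1 = 1 := by ring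
  rw [h1, one_pow, one_mul]

/-- union bound -/
theorem union_bd {ι : Type} (I : Finset ι) (wt : ι → ℝ) (hwt : ∀ a ∈ I, 0 ≤ wt a)
    (T : ι → Finset X) (sel : ι → Finset X → ι)
    (hsel : ∀ u ∈ I, ∀ W, sel u W ∈ I ∧ T (sel u W) ⊆ W ∪ T u)
    {A r p : ℝ} (hr : 0 < r) (hp0 : 0 ≤ p) (hp1 : p ≤ 1) (hA : 0 ≤ A)
    (hspr : ∀ S : Finset X, ∑ a ∈ I with S ⊆ T a, wt a ≤ A * r ^ S.card)
    (G : ι → Finset X → ℝ) (hG0 : ∀ a ∈ I, ∀ W, 0 ≤ G a W)
    (hG : ∀ a ∈ I, ∀ W, G a W = G a (W \ T a)) :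
    ex p (fun W => ∑ u ∈ I, wt u * G (sel u W) W) ≤
      A * ∑ a ∈ I, (p + r) ^ (T a).card * ex p (G a) := by
  classical
  have hpt : ∀ W : Finset X, ∑ u ∈ I, wt u * G (sel u W) W ≤
      ∑ a ∈ I, A * (r ^ (T a \ W).card * G a W) := by
    intro W
    rw [← Finset.sum_fiberwise_of_maps_to (s := I) (t := I) (g := fun u => sel u W)
      (fun u hu => (hsel u hu W).1) (fun u => wt u * G (sel u W) W)]
    refine Finset.sum_le_sum fun a ha => ?_
    have h1 : ∑ u ∈ I with sel u W = a, wt u * G (sel u W) W =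
        (∑ u ∈ I with sel u W = a, wt u) * G a W := by
      rw [Finset.sum_mul]
      refine Finset.sum_congr rfl fun u hu => ?_
      rw [(Finset.mem_filter.mp hu).2]
    have h2 : ∑ u ∈ I with sel u W = a, wt u ≤ ∑ u ∈ I with T a \ W ⊆ T u, wt u := by
      refine Finset.sum_le_sum_of_subset_of_nonneg ?_ fun u hu _ =>
        hwt u (Finset.mem_filter.mp hu).1
      intro u hu
      rw [Finset.mem_filter] at hu ⊢
      refine ⟨hu.1, fun x hx => ?_⟩
      rw [Finset.mem_sdiff] at hx
      have h3 := (hsel u hu.1 W).2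
      rw [hu.2] at h3
      rcases Finset.mem_union.mp (h3 hx.1) with h4 | h4
      · exact absurd h4 hx.2
      · exact h4
    rw [h1]
    calc (∑ u ∈ I with sel u W = a, wt u) * G a W
        ≤ (A * r ^ (T a \ W).card) * G a W :=
          mul_le_mul_of_nonneg_right (h2.trans (hspr _)) (hG0 a ha W)
      _ = A * (r ^ (T a \ W).card * G a W) := by ring
  have h1 : ex p (fun W => ∑ u ∈ I, wt u * G (sel u W) W) ≤
      ex p (fun W => ∑ a ∈ I, A * (r ^ (T a \ W).card * G a W)) :=
    Finset.sum_le_sum fun W _ => mul_le_mul_of_nonneg_left (hpt W) (Thr.bw_nonneg hp0 hp1 W)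
  have h2 : ex p (fun W => ∑ a ∈ I, A * (r ^ (T a \ W).card * G a W)) =
      A * ∑ a ∈ I, ex p (fun W => r ^ (T a \ W).card * G a W) := by
    unfold ex
    rw [Finset.sum_comm (s := I), Finset.mul_sum]
    refine Finset.sum_congr rfl fun W _ => ?_
    rw [Finset.mul_sum, Finset.mul_sum]
    exact Finset.sum_congr rfl fun a _ => by ring
  rw [h2] at h1
  refine h1.trans (mul_le_mul_of_nonneg_left ?_ hA)
  refine Finset.sum_le_sum fun a ha => ?_
  rw [ex_indep p r (T a) (G a) (hG a ha)]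
  have h3 : 0 ≤ ex p (G a) := Finset.sum_nonneg fun W _ =>
    mul_nonneg (Thr.bw_nonneg hp0 hp1 W) (hG0 a ha W)
  refine mul_le_mul_of_nonneg_right ?_ h3
  refine pow_le_pow_left₀ ?_ ?_ _
  · have : 0 ≤ (1 - p) * r := mul_nonneg (by linarith) hr.le
    linarith
  · nlinarith

end P064.H
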