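import Mathlib

/-!
# P064, full result, module C : sparse resampling of a spread family
-/

namespace P064.H

open Finset

section EE

variable {ι : Type} [DecidableEq ι]

/-- expectation over a random subset of `I` with independent memberships -/
noncomputable def EE (I : Finset ι) (q : ι → ℝ) (f : Finset ι → ℝ) : ℝ :=
  ∑ K ∈ I.powerset, ((∏ a ∈ K, q a) * ∏ a ∈ I \ K, (1 - q a)) * f K

theorem EE_one (I : Finset ι) (q : ι → ℝ) : EE I q (fun _ => 1) = 1 := by
  unfold EE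
  have h := Finset.prod_add q (fun a => 1 - q a) I
  simp only [add_sub_cancel, Finset.prod_const_one] at h
  refine Eq.trans (Finset.sum_congr rfl fun K _ => ?_) h.symm
  exact mul_one _

theorem EE_add (I : Finset ι) (q : ι → ℝ) (f g : Finset ι → ℝ) :
    EE I q (fun K => f K + g K) = EE I q f + EE I q g := by
  unfold EE
  rw [← Finset.sum_add_distrib]
  exact Finset.sum_congr rfl fun K _ => mul_add _ _ _

theorem EE_mul (I : Finset ι) (q : ι → ℝ) (c : ℝ) (f : Finset ι → ℝ) :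
    EE I q (fun K => c * f K) = c * EE I q f := by
  unfold EE
  rw [Finset.mul_sum]
  exact Finset.sum_congr rfl fun K _ => by ring

theorem EE_sum {κ : Type} (I : Finset ι) (q : ι → ℝ) (J : Finset κ) (f : κ → Finset ι → ℝ) :
    EE I q (fun K => ∑ k ∈ J, f k K) = ∑ k ∈ J, EE I q (f k) := by
  unfold EE
  rw [Finset.sum_comm]
  exact Finset.sum_congr rfl fun K _ => Finset.mul_sum _ _ _

theorem EE_mono {I : Finset ι} {q : ι → ℝ} (hq0 : ∀ a ∈ I, 0 ≤ q a) (hq1 : ∀ a ∈ I, q a ≤ 1)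
    {f g : Finset ι → ℝ} (h : ∀ K ⊆ I, f K ≤ g K) : EE I q f ≤ EE I q g := by
  unfold EE
  refine Finset.sum_le_sum fun K hK => ?_
  rw [Finset.mem_powerset] at hK
  refine mul_le_mul_of_nonneg_left (h K hK) (mul_nonneg ?_ ?_)
  · exact Finset.prod_nonneg fun a ha => hq0 a (hK ha)
  · exact Finset.prod_nonneg fun a ha => by
      have := hq1 a (Finset.mem_sdiff.mp ha).1
      linarith

theorem EE_insert {J : Finset ι} {a : ι} (ha : a ∉ J) (q : ι → ℝ) (f : Finset ι → ℝ) :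
    EE (insert a J) q f = EE J q (fun K => (1 - q a) * f K + q a * f (insert a K)) := by
  unfold EE
  rw [Finset.sum_powerset_insert ha, ← Finset.sum_add_distrib]
  refine Finset.sum_congr rfl fun K hK => ?_
  rw [Finset.mem_powerset] at hK
  have haK : a ∉ K := fun h => ha (hK h)
  have e1 : insert a J \ K = insert a (J \ K) := Finset.insert_sdiff_of_notMem _ haK
  have e2 : insert a J \ insert a K = J \ K := by
    rw [Finset.insert_sdiff_insert]
    ext b
    simp only [Finset.mem_sdiff, Finset.mem_insert]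
    constructor
    · rintro ⟨h1, h2⟩
      exact ⟨h1, fun h => h2 (Or.inr h)⟩
    · rintro ⟨h1, h2⟩
      refine ⟨h1, ?_⟩
      rintro (h | h)
      · exact ha (h ▸ h1)
      · exact h2 h
  rw [e1, e2, Finset.prod_insert haK, Finset.prod_insert (fun h => ha (Finset.mem_sdiff.mp h).1)]
  ring

theorem EE_fact {I : Finset ι} {a : ι} (ha : a ∈ I) (q : ι → ℝ) (u v : ℝ) (F : Finset ι → ℝ)
    (hF : ∀ K, F (insert a K) = F K) :
    EE I q (fun K => (if a ∈ K then u else v) * F K) = (q a * u + (1 - q a) * v) * EE I q F := by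
  have hI : insert a (I.erase a) = I := Finset.insert_erase ha
  rw [← hI, EE_insert (Finset.notMem_erase a I), EE_insert (Finset.notMem_erase a I), ← EE_mul]
  unfold EE
  refine Finset.sum_congr rfl fun K hK => ?_
  rw [Finset.mem_powerset] at hK
  have haK : a ∉ K := fun h => Finset.notMem_erase a I (hK h)
  beta_reduce
  rw [if_neg haK, if_pos (Finset.mem_insert_self a K), hF K]
  ring

/-- the centered variables -/
noncomputable def Z (y wt : ι → ℝ) (a : ι) (K : Finset ι) : ℝ := (if a ∈ K then y a else 0) - wt a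

theorem Z_insert {y wt : ι → ℝ} {a b : ι} (h : b ≠ a) (K : Finset ι) :
    Z y wt b (insert a K) = Z y wt b K := by
  unfold Z
  have : b ∈ insert a K ↔ b ∈ K := by
    rw [Finset.mem_insert]
    exact ⟨fun h' => h'.resolve_left h, Or.inr⟩
  simp only [this]

theorem sumZ_insert {y wt : ι → ℝ} {a : ι} {J : Finset ι} (h : a ∉ J) (K : Finset ι) :
    ∑ b ∈ J, Z y wt b (insert a K) = ∑ b ∈ J, Z y wt b K :=
  Finset.sum_congr rfl fun b hb =>
    Z_insert (a := a) (b := b) (fun h' : b = a => h (by rw [← h']; exact hb)) K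

variable {I : Finset ι} {q y wt : ι → ℝ}

theorem EE_Y {a : ι} (ha : a ∈ I) (hqy : q a * y a = wt a) (F : Finset ι → ℝ)
    (hF : ∀ K, F (insert a K) = F K) :
    EE I q (fun K => (if a ∈ K then y a else 0) * F K) = wt a * EE I q F := by
  rw [EE_fact ha q (y a) 0 F hF, hqy, mul_zero, add_zero]

theorem EE_Z {a : ι} (ha : a ∈ I) (hqy : q a * y a = wt a) (F : Finset ι → ℝ)
    (hF : ∀ K, F (insert a K) = F K) :
    EE I q (fun K => Z y wt a K * F K) = 0 := by
  have h : (fun K => Z y wt a K * F K) =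
      fun K => (if a ∈ K then y a - wt a else -wt a) * F K := by
    funext K
    unfold Z
    by_cases h : a ∈ K
    · rw [if_pos h, if_pos h]
    · rw [if_neg h, if_neg h, zero_sub]
  rw [h, EE_fact ha q _ _ F hF]
  have h2 : q a * (y a - wt a) + (1 - q a) * -wt a = 0 := by
    linear_combination hqy
  rw [h2, zero_mul]

theorem EE_Z_sq {a : ι} (ha : a ∈ I) (hqy : q a * y a = wt a) :
    EE I q (fun K => Z y wt a K ^ 2) = wt a * (y a - wt a) := by
  have h : (fun K => Z y wt a K ^ 2) =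
      fun K => (if a ∈ K then (y a - wt a) ^ 2 else wt a ^ 2) * (fun _ => (1 : ℝ)) K := by
    funext K
    unfold Z
    by_cases h : a ∈ K
    · rw [if_pos h, if_pos h, mul_one]
    · rw [if_neg h, if_neg h, mul_one]
      ring
  rw [h, EE_fact ha q _ _ (fun _ => (1 : ℝ)) (fun _ => rfl), EE_one, mul_one]
  linear_combination (y a - 2 * wt a) * hqy

theorem EE_sum_sq (hqy : ∀ a ∈ I, q a * y a = wt a) (J : Finset ι) (hJ : J ⊆ I) :
    EE I q (fun K => (∑ a ∈ J, Z y wt a K) ^ 2) = ∑ a ∈ J, wt a * (y a - wt a) := by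
  induction J using Finset.induction_on with
  | empty =>
    simp only [Finset.sum_empty]
    unfold EE
    refine Finset.sum_eq_zero fun K _ => ?_
    norm_num
  | insert a J haJ ih =>
    have ha : a ∈ I := hJ (Finset.mem_insert_self a J)
    have h1 : (fun K => (∑ b ∈ insert a J, Z y wt b K) ^ 2) = fun K =>
        (Z y wt a K ^ 2 + 2 * (Z y wt a K * ∑ b ∈ J, Z y wt b K)) +
          (∑ b ∈ J, Z y wt b K) ^ 2 := by
      funext K
      rw [Finset.sum_insert haJ]
      ring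
    rw [h1, EE_add, EE_add, EE_mul, EE_Z_sq ha (hqy a ha), EE_Z ha (hqy a ha) _
      (fun K => sumZ_insert haJ K), ih (fun b hb => hJ (Finset.mem_insert_of_mem hb)),
      Finset.sum_insert haJ]
    ring

end EE

theorem numeric (s : ℕ) (hs : 1 ≤ s) :
    1 / 4 + 512 * (s : ℝ) ^ 2 * (1 / 65536 : ℝ) ^ s +
      16 * s * (64 * (s : ℝ) ^ 2 * 2 ^ s * (1 / 65536 : ℝ) ^ s) < 1 := by
  have h0 : (s : ℝ) ≤ 2 ^ s := by exact_mod_cast (Nat.lt_two_pow_self (n := s)).le
  have h1 : (s : ℝ) ^ 2 ≤ 4 ^ s := by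
    calc (s : ℝ) ^ 2 ≤ (2 ^ s) ^ 2 := pow_le_pow_left₀ (Nat.cast_nonneg s) h0 2
      _ = 4 ^ s := by rw [← pow_mul, mul_comm, pow_mul]; norm_num
  have h2 : (s : ℝ) ^ 3 ≤ 8 ^ s := by
    calc (s : ℝ) ^ 3 ≤ (2 ^ s) ^ 3 := pow_le_pow_left₀ (Nat.cast_nonneg s) h0 3
      _ = 8 ^ s := by rw [← pow_mul, mul_comm, pow_mul]; norm_num
  have hc : (0 : ℝ) < (1 / 65536 : ℝ) ^ s := by positivity
  have e1 : (s : ℝ) ^ 2 * (1 / 65536 : ℝ) ^ s ≤ 1 / 16384 := by
    calc (s : ℝ) ^ 2 * (1 / 65536 : ℝ) ^ s ≤ 4 ^ s * (1 / 65536 : ℝ) ^ s :=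
          mul_le_mul_of_nonneg_right h1 hc.le
      _ = (1 / 16384 : ℝ) ^ s := by rw [← mul_pow]; norm_num
      _ ≤ (1 / 16384 : ℝ) ^ 1 := pow_le_pow_of_le_one (by norm_num) (by norm_num) hs
      _ = 1 / 16384 := pow_one _
  have e2 : (s : ℝ) ^ 3 * 2 ^ s * (1 / 65536 : ℝ) ^ s ≤ 1 / 4096 := by
    calc (s : ℝ) ^ 3 * 2 ^ s * (1 / 65536 : ℝ) ^ s ≤ 8 ^ s * 2 ^ s * (1 / 65536 : ℝ) ^ s :=
          mul_le_mul_of_nonneg_right (mul_le_mul_of_nonneg_right h2 (by positivity)) hc.le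
      _ = (1 / 4096 : ℝ) ^ s := by rw [← mul_pow, ← mul_pow]; norm_num
      _ ≤ (1 / 4096 : ℝ) ^ 1 := pow_le_pow_of_le_one (by norm_num) (by norm_num) hs
      _ = 1 / 4096 := pow_one _
  nlinarith

theorem resample_core {X : Type} [DecidableEq X] {ι : Type} [DecidableEq ι] (I : Finset ι)
    (wt : ι → ℝ) (hwt : ∀ a ∈ I, 0 < wt a)
    (T : ι → Finset X) {A r : ℝ} (hr : 0 < r) (hr1 : r ≤ 1) (hA0 : 0 ≤ A) (hA : A ≤ 2)
    (hspr : ∀ S : Finset X, ∑ a ∈ I with S ⊆ T a, wt a ≤ A * r ^ S.card)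
    (s : ℕ) (hs : 1 ≤ s) (hT : ∀ a ∈ I, (T a).card < s)
    (h : ι → ℝ) (hh : ∀ a ∈ I, 0 ≤ h a) :
    ∃ (I' : Finset ι) (wt' : ι → ℝ), I' ⊆ I ∧
      (∀ a ∈ I', (1 / 65536 : ℝ) ^ s * r ^ (T a).card ≤ wt' a) ∧
      (∀ S : Finset X, ∑ a ∈ I' with S ⊆ T a, wt' a ≤ (A + 1 / (2 * s)) * r ^ S.card) ∧
      (∑ a ∈ I, wt a - 1 / (8 * s) ≤ ∑ a ∈ I', wt' a) ∧
      (∑ a ∈ I', wt' a * h a ≤ 4 * ∑ a ∈ I, wt a * h a) := by
  have hs0 : (0 : ℝ) < s := by exact_mod_cast hs
  obtain ⟨c, hc⟩ : ∃ c : ℝ, c = (1 / 65536 : ℝ) ^ s := ⟨_, rfl⟩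
  have hc0 : 0 < c := by rw [hc]; positivity
  have hcs : c ≤ 1 / (4 * s) := by
    rw [hc, le_div_iff₀ (by positivity)]
    have h0 : (s : ℝ) ≤ 2 ^ s := by exact_mod_cast (Nat.lt_two_pow_self (n := s)).le
    calc (1 / 65536 : ℝ) ^ s * (4 * s) ≤ (1 / 65536 : ℝ) ^ s * (4 * 2 ^ s) := by
          refine mul_le_mul_of_nonneg_left ?_ (by positivity)
          linarith
      _ = 4 * (1 / 32768 : ℝ) ^ s := by
          rw [show (1 / 32768 : ℝ) = 1 / 65536 * 2 by norm_num, mul_pow]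
          ring
      _ ≤ 4 * (1 / 32768 : ℝ) ^ 1 :=
          mul_le_mul_of_nonneg_left (pow_le_pow_of_le_one (by norm_num) (by norm_num) hs)
            (by norm_num)
      _ ≤ 1 := by norm_num
  obtain ⟨x, hx⟩ : ∃ x : ι → ℝ, x = fun a => c * r ^ (T a).card := ⟨_, rfl⟩
  have hx0 : ∀ a, 0 < x a := fun a => by rw [hx]; exact mul_pos hc0 (pow_pos hr _)
  have hxS : ∀ a, ∀ S ⊆ T a, x a ≤ c * r ^ S.card := fun a S hS => by
    rw [hx]
    exact mul_le_mul_of_nonneg_left
      (pow_le_pow_of_le_one hr.le hr1 (Finset.card_le_card hS)) hc0.le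
  obtain ⟨y, hy⟩ : ∃ y : ι → ℝ, y = fun a => max (wt a) (x a) := ⟨_, rfl⟩
  have hy0 : ∀ a, 0 < y a := fun a => by rw [hy]; exact lt_max_of_lt_right (hx0 a)
  have hyx : ∀ a, x a ≤ y a := fun a => by rw [hy]; exact le_max_right _ _
  have hyw : ∀ a, wt a ≤ y a := fun a => by rw [hy]; exact le_max_left _ _
  have hyd : ∀ a ∈ I, y a - wt a ≤ x a := fun a ha => by
    rw [hy]
    have h1 := hwt a ha
    have h2 := hx0 a
    rcases le_total (wt a) (x a) with h3 | h3
    · simp only [max_eq_right h3]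
      linarith
    · simp only [max_eq_left h3]
      linarith
  obtain ⟨q, hq⟩ : ∃ q : ι → ℝ, q = fun a => wt a / y a := ⟨_, rfl⟩
  have hqy : ∀ a ∈ I, q a * y a = wt a := fun a _ => by
    rw [hq]
    exact div_mul_cancel₀ _ (hy0 a).ne'
  have hq0 : ∀ a ∈ I, 0 ≤ q a := fun a ha => by
    rw [hq]
    exact div_nonneg (hwt a ha).le (hy0 a).le
  have hq1 : ∀ a ∈ I, q a ≤ 1 := fun a ha => by
    rw [hq]
    exact (div_le_one (hy0 a)).mpr (hyw a)
  -- variances
  have hV : ∀ S : Finset X, ∀ J ⊆ I.filter (fun a => S ⊆ T a),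
      ∑ a ∈ J, wt a * (y a - wt a) ≤ 2 * c * (r ^ S.card) ^ 2 := by
    intro S J hJ
    have hJI : ∀ a ∈ J, a ∈ I := fun a ha => (Finset.mem_filter.mp (hJ ha)).1
    calc ∑ a ∈ J, wt a * (y a - wt a) ≤ ∑ a ∈ J, wt a * (c * r ^ S.card) := by
          refine Finset.sum_le_sum fun a ha => mul_le_mul_of_nonneg_left ?_ (hwt a (hJI a ha)).le
          exact (hyd a (hJI a ha)).trans (hxS a S (Finset.mem_filter.mp (hJ ha)).2)
      _ = (∑ a ∈ J, wt a) * (c * r ^ S.card) := (Finset.sum_mul _ _ _).symm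
      _ ≤ (2 * r ^ S.card) * (c * r ^ S.card) := by
          refine mul_le_mul_of_nonneg_right ?_ (mul_nonneg hc0.le (pow_nonneg hr.le _))
          refine (Finset.sum_le_sum_of_subset_of_nonneg hJ fun a ha _ =>
            (hwt a (Finset.mem_filter.mp ha).1).le).trans ((hspr S).trans ?_)
          exact mul_le_mul_of_nonneg_right hA (pow_nonneg hr.le _)
      _ = 2 * c * (r ^ S.card) ^ 2 := by ring
  have hmass : ∑ a ∈ I, wt a ≤ 2 := by
    have h1 := hspr ∅
    rw [Finset.card_empty, pow_zero, mul_one] at h1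
    have h2 : I.filter (fun a => (∅ : Finset X) ⊆ T a) = I :=
      Finset.filter_true_of_mem fun a _ => Finset.empty_subset _
    rw [h2] at h1
    linarith
  obtain ⟨W, hW⟩ : ∃ W : ℝ, W = ∑ a ∈ I, wt a * h a := ⟨_, rfl⟩
  have hW0 : 0 ≤ W := by
    rw [hW]
    exact Finset.sum_nonneg fun a ha => mul_nonneg (hwt a ha).le (hh a ha)
  -- the potential
  obtain ⟨Φ₁, hΦ₁⟩ : ∃ Φ : Finset ι → ℝ, Φ = fun K =>
      1 / (4 * W) * ∑ a ∈ I, (if a ∈ K then y a else 0) * h a := ⟨_, rfl⟩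
  obtain ⟨Φ₂, hΦ₂⟩ : ∃ Φ : Finset ι → ℝ, Φ = fun K =>
      (16 * s : ℝ) ^ 2 * (∑ a ∈ I, Z y wt a K) ^ 2 := ⟨_, rfl⟩
  obtain ⟨Φ₃, hΦ₃⟩ : ∃ Φ : Finset ι → ℝ, Φ = fun K =>
      ∑ a ∈ I, ∑ S ∈ (T a).powerset, (if a ∈ K then y a else 0) *
        (16 * (s : ℝ) ^ 2 / (r ^ S.card) ^ 2 *
          (∑ b ∈ (I.filter (fun b => S ⊆ T b)).erase a, Z y wt b K) ^ 2) := ⟨_, rfl⟩
  have E₁ : EE I q Φ₁ ≤ 1 / 4 := by
    rw [hΦ₁, EE_mul, EE_sum]
    have h1 : ∀ a ∈ I, EE I q (fun K => (if a ∈ K then y a else 0) * h a) = wt a * h a := by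
      intro a ha
      have h2 := EE_Y (wt := wt) ha (hqy a ha) (fun _ => h a) (fun _ => rfl)
      have h3 := EE_mul I q (h a) (fun _ => 1)
      rw [EE_one] at h3
      simp only [mul_one] at h3
      rw [h2, h3]
    rw [Finset.sum_congr rfl h1, ← hW]
    rcases hW0.eq_or_lt with h2 | h2
    · rw [← h2]
      norm_num
    · rw [div_mul_eq_mul_div, one_mul, div_le_iff₀ (by positivity)]
      linarith
  have E₂ : EE I q Φ₂ ≤ 512 * (s : ℝ) ^ 2 * c := by
    rw [hΦ₂, EE_mul, EE_sum_sq hqy I (Finset.Subset.refl I)]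
    have h1 := hV ∅ I (by
      intro a ha
      exact Finset.mem_filter.mpr ⟨ha, Finset.empty_subset _⟩)
    rw [Finset.card_empty, pow_zero, one_pow, mul_one] at h1
    have h2 : (0 : ℝ) ≤ (16 * s) ^ 2 := by positivity
    have h3 := mul_le_mul_of_nonneg_left h1 h2
    refine h3.trans (le_of_eq ?_)
    ring
  have E₃ : EE I q Φ₃ ≤ 64 * (s : ℝ) ^ 2 * 2 ^ s * c := by
    rw [hΦ₃, EE_sum]
    have h1 : ∀ a ∈ I, EE I q (fun K => ∑ S ∈ (T a).powerset, (if a ∈ K then y a else 0) *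
        (16 * (s : ℝ) ^ 2 / (r ^ S.card) ^ 2 *
          (∑ b ∈ (I.filter (fun b => S ⊆ T b)).erase a, Z y wt b K) ^ 2)) ≤
        wt a * (32 * (s : ℝ) ^ 2 * 2 ^ s * c) := by
      intro a ha
      rw [EE_sum]
      have h2 : ∀ S ∈ (T a).powerset, EE I q (fun K => (if a ∈ K then y a else 0) *
        (16 * (s : ℝ) ^ 2 / (r ^ S.card) ^ 2 *
          (∑ b ∈ (I.filter (fun b => S ⊆ T b)).erase a, Z y wt b K) ^ 2)) ≤
          wt a * (32 * (s : ℝ) ^ 2 * c) := by
        intro S hS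
        rw [EE_Y (wt := wt) ha (hqy a ha) _ (fun K => by
          rw [sumZ_insert (Finset.notMem_erase a _)])]
        refine mul_le_mul_of_nonneg_left ?_ (hwt a ha).le
        rw [EE_mul, EE_sum_sq hqy _ (fun b hb =>
          (Finset.mem_filter.mp (Finset.mem_of_mem_erase hb)).1)]
        have h3 := hV S _ (Finset.erase_subset a (I.filter (fun b => S ⊆ T b)))
        have hrS : 0 < r ^ S.card := pow_pos hr _
        calc 16 * (s : ℝ) ^ 2 / (r ^ S.card) ^ 2 *
              ∑ b ∈ (I.filter (fun b => S ⊆ T b)).erase a, wt b * (y b - wt b)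
            ≤ 16 * (s : ℝ) ^ 2 / (r ^ S.card) ^ 2 * (2 * c * (r ^ S.card) ^ 2) :=
              mul_le_mul_of_nonneg_left h3 (by positivity)
          _ = 32 * (s : ℝ) ^ 2 * c := by
              field_simp
              ring
      calc _ ≤ ∑ S ∈ (T a).powerset, wt a * (32 * (s : ℝ) ^ 2 * c) := Finset.sum_le_sum h2
        _ = 2 ^ (T a).card * (wt a * (32 * (s : ℝ) ^ 2 * c)) := by
            rw [Finset.sum_const, Finset.card_powerset, nsmul_eq_mul]
            push_cast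
            rfl
        _ ≤ 2 ^ s * (wt a * (32 * (s : ℝ) ^ 2 * c)) := by
            refine mul_le_mul_of_nonneg_right ?_ ?_
            · exact pow_le_pow_right₀ (by norm_num) (hT a ha).le
            · have := (hwt a ha).le
              positivity
        _ = wt a * (32 * (s : ℝ) ^ 2 * 2 ^ s * c) := by ring
    refine (Finset.sum_le_sum h1).trans ?_
    rw [← Finset.sum_mul]
    calc (∑ a ∈ I, wt a) * (32 * (s : ℝ) ^ 2 * 2 ^ s * c) ≤ 2 * (32 * (s : ℝ) ^ 2 * 2 ^ s * c) :=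
          mul_le_mul_of_nonneg_right hmass (by positivity)
      _ = 64 * (s : ℝ) ^ 2 * 2 ^ s * c := by ring
  -- a good outcome
  have hE : EE I q (fun K => Φ₁ K + Φ₂ K + 16 * s * Φ₃ K) < 1 := by
    rw [EE_add, EE_add, EE_mul]
    have h1 := numeric s hs
    rw [← hc] at h1
    have h2 := mul_le_mul_of_nonneg_left E₃ (show (0 : ℝ) ≤ 16 * s by positivity)
    linarith
  obtain ⟨K, hK, hΦ⟩ : ∃ K ⊆ I, Φ₁ K + Φ₂ K + 16 * s * Φ₃ K < 1 := by
    by_contra hne
    push Not at hne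
    have h1 := EE_mono hq0 hq1 (f := fun _ => (1 : ℝ))
      (g := fun K => Φ₁ K + Φ₂ K + 16 * s * Φ₃ K) hne
    rw [EE_one] at h1
    linarith
  have hYK : ∀ g : ι → ℝ, ∑ a ∈ I, (if a ∈ K then y a else 0) * g a = ∑ a ∈ K, y a * g a := by
    intro g
    have h1 : ∀ a ∈ I, (if a ∈ K then y a else 0) * g a = if a ∈ K then y a * g a else 0 := by
      intro a _
      by_cases h2 : a ∈ K
      · rw [if_pos h2, if_pos h2]
      · rw [if_neg h2, if_neg h2, zero_mul]
    rw [Finset.sum_congr rfl h1, ← Finset.sum_filter]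
    refine Finset.sum_congr ?_ fun _ _ => rfl
    ext a
    rw [Finset.mem_filter]
    exact ⟨fun h3 => h3.2, fun h3 => ⟨hK h3, h3⟩⟩
  have p₁ : 0 ≤ Φ₁ K := by
    rw [hΦ₁]
    refine mul_nonneg (by positivity) (Finset.sum_nonneg fun a ha => mul_nonneg ?_ (hh a ha))
    split_ifs
    · exact (hy0 a).le
    · exact le_rfl
  have p₂ : 0 ≤ Φ₂ K := by
    rw [hΦ₂]
    positivity
  have hterm : ∀ a, ∀ S : Finset X, 0 ≤ (if a ∈ K then y a else 0) *
        (16 * (s : ℝ) ^ 2 / (r ^ S.card) ^ 2 *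
          (∑ b ∈ (I.filter (fun b => S ⊆ T b)).erase a, Z y wt b K) ^ 2) := by
    intro a S
    refine mul_nonneg ?_ (by positivity)
    split_ifs
    · exact (hy0 a).le
    · exact le_rfl
  have p₃ : 0 ≤ Φ₃ K := by
    rw [hΦ₃]
    exact Finset.sum_nonneg fun a _ => Finset.sum_nonneg fun S _ => hterm a S
  have p₄ : 0 ≤ 16 * (s : ℝ) * Φ₃ K := by positivity
  have c₁ : Φ₁ K < 1 := by linarith
  have c₂ : Φ₂ K < 1 := by linarith
  have c₃ : Φ₃ K < 1 / (16 * s) := by
    rw [lt_div_iff₀ (by positivity)]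
    linarith
  -- the kept indices
  obtain ⟨YS, hYS⟩ : ∃ YS : Finset X → ℝ, YS = fun S =>
      ∑ b ∈ I.filter (fun b => S ⊆ T b), (if b ∈ K then y b else 0) := ⟨_, rfl⟩
  have hYSK : ∀ S, ∑ b ∈ K.filter (fun b => S ⊆ T b), y b = YS S := by
    intro S
    rw [hYS]
    simp only [Finset.sum_filter]
    have h1 := hYK (fun b => if S ⊆ T b then 1 else 0)
    simp only [mul_ite, mul_one, mul_zero] at h1
    rw [← h1]
  refine ⟨K.filter (fun a => ∀ S ∈ (T a).powerset, YS S ≤ (A + 1 / (2 * s)) * r ^ S.card), y,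
    (Finset.filter_subset _ _).trans hK, ?_, ?_, ?_, ?_⟩
  · intro a _
    rw [← hc]
    have h1 := hyx a
    rw [hx] at h1
    exact h1
  · intro S
    by_cases hne : ((K.filter (fun a => ∀ S ∈ (T a).powerset,
        YS S ≤ (A + 1 / (2 * s)) * r ^ S.card)).filter (fun a => S ⊆ T a)).Nonempty
    · obtain ⟨a, ha⟩ := hne
      rw [Finset.mem_filter, Finset.mem_filter] at ha
      refine le_trans ?_ (ha.1.2 S (Finset.mem_powerset.mpr ha.2))
      rw [← hYSK S]
      refine Finset.sum_le_sum_of_subset_of_nonneg ?_ fun b _ _ => (hy0 b).le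
      intro b hb
      rw [Finset.mem_filter, Finset.mem_filter] at hb
      exact Finset.mem_filter.mpr ⟨hb.1.1, hb.2⟩
    · rw [Finset.not_nonempty_iff_eq_empty] at hne
      rw [hne, Finset.sum_empty]
      positivity
  · -- mass
    have hremoved : ∑ a ∈ K.filter (fun a => ¬ ∀ S ∈ (T a).powerset,
        YS S ≤ (A + 1 / (2 * s)) * r ^ S.card), y a ≤ Φ₃ K := by
      rw [hΦ₃]
      have h1 : ∀ a ∈ K.filter (fun a => ¬ ∀ S ∈ (T a).powerset,
          YS S ≤ (A + 1 / (2 * s)) * r ^ S.card), y a ≤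
          ∑ S ∈ (T a).powerset, (if a ∈ K then y a else 0) *
          (16 * (s : ℝ) ^ 2 / (r ^ S.card) ^ 2 *
            (∑ b ∈ (I.filter (fun b => S ⊆ T b)).erase a, Z y wt b K) ^ 2) := by
        intro a ha
        rw [Finset.mem_filter] at ha
        obtain ⟨haK, hviol⟩ := ha
        push Not at hviol
        obtain ⟨S, hS, hSv⟩ := hviol
        refine le_trans ?_ (Finset.single_le_sum (fun S _ => hterm a S) hS)
        rw [Finset.mem_powerset] at hS
        have haI : a ∈ I := hK haK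
        have hrS : 0 < r ^ S.card := pow_pos hr _
        obtain ⟨D, hD⟩ : ∃ D : ℝ, D =
          ∑ b ∈ (I.filter (fun b => S ⊆ T b)).erase a, Z y wt b K := ⟨_, rfl⟩
        rw [← hD, if_pos haK]
        have hmem : a ∈ I.filter (fun b => S ⊆ T b) := Finset.mem_filter.mpr ⟨haI, hS⟩
        have h2 : YS S = (y a - wt a) + D + ∑ b ∈ I.filter (fun b => S ⊆ T b), wt b := by
          rw [hYS, hD]
          beta_reduce
          rw [← Finset.add_sum_erase _ _ hmem, ← Finset.add_sum_erase _ wt hmem, if_pos haK]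
          have h3 : ∑ b ∈ (I.filter (fun b => S ⊆ T b)).erase a, Z y wt b K =
              ∑ b ∈ (I.filter (fun b => S ⊆ T b)).erase a, (if b ∈ K then y b else 0) -
                ∑ b ∈ (I.filter (fun b => S ⊆ T b)).erase a, wt b := by
            rw [← Finset.sum_sub_distrib]
            rfl
          rw [h3]
          ring
        have h4 : y a - wt a ≤ 1 / (4 * s) * r ^ S.card :=
          (hyd a haI).trans ((hxS a S hS).trans (mul_le_mul_of_nonneg_right hcs hrS.le))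
        have h5 := hspr S
        have h6 : 1 / (4 * s) * r ^ S.card < D := by
          have h7 : (A + 1 / (2 * s)) * r ^ S.card =
              A * r ^ S.card + 2 * (1 / (4 * s) * r ^ S.card) := by
            field_simp
            ring
          rw [h7] at hSv
          linarith
        have h8 : 0 < 1 / (4 * s) * r ^ S.card := by positivity
        have h9 : (1 / (4 * s) * r ^ S.card) ^ 2 ≤ D ^ 2 := pow_le_pow_left₀ h8.le h6.le 2
        have h10 : 1 ≤ 16 * (s : ℝ) ^ 2 / (r ^ S.card) ^ 2 * D ^ 2 := by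
          have h11 : (1 : ℝ) = 16 * (s : ℝ) ^ 2 / (r ^ S.card) ^ 2 *
              (1 / (4 * s) * r ^ S.card) ^ 2 := by
            field_simp
            norm_num
          calc (1 : ℝ) = _ := h11
            _ ≤ _ := mul_le_mul_of_nonneg_left h9 (by positivity)
        calc y a = y a * 1 := (mul_one _).symm
          _ ≤ _ := mul_le_mul_of_nonneg_left h10 (hy0 a).le
      refine (Finset.sum_le_sum h1).trans ?_
      refine Finset.sum_le_sum_of_subset_of_nonneg ?_ fun a _ _ =>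
        Finset.sum_nonneg fun S _ => hterm a S
      exact (Finset.filter_subset _ _).trans hK
    have hsplit := Finset.sum_filter_add_sum_filter_not K
      (fun a => ∀ S ∈ (T a).powerset, YS S ≤ (A + 1 / (2 * s)) * r ^ S.card) y
    have htot : ∑ a ∈ K, y a = ∑ a ∈ I, Z y wt a K + ∑ a ∈ I, wt a := by
      have h1 := hYK (fun _ => 1)
      simp only [mul_one] at h1
      rw [← h1]
      unfold Z
      rw [Finset.sum_sub_distrib]
      ring
    have hZ : -(1 / (16 * s)) < ∑ a ∈ I, Z y wt a K := by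
      rw [hΦ₂] at c₂
      beta_reduce at c₂
      rw [← mul_pow] at c₂
      have h1 : |16 * s * ∑ a ∈ I, Z y wt a K| < 1 := by
        rw [← sq_lt_one_iff_abs_lt_one]
        exact c₂
      have h2 := (abs_lt.mp h1).1
      have h3 : 16 * s * (-(1 / (16 * s))) = (-1 : ℝ) := by field_simp
      by_contra hcon
      push Not at hcon
      have h4 := mul_le_mul_of_nonneg_left hcon (show (0 : ℝ) ≤ 16 * s by positivity)
      linarith
    have h16 : (1 : ℝ) / (8 * s) = 1 / (16 * s) + 1 / (16 * s) := by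
      field_simp
      norm_num
    rw [h16]
    linarith
  · -- weights of h
    have h1 : ∑ a ∈ K.filter (fun a => ∀ S ∈ (T a).powerset,
        YS S ≤ (A + 1 / (2 * s)) * r ^ S.card), y a * h a ≤ ∑ a ∈ K, y a * h a :=
      Finset.sum_le_sum_of_subset_of_nonneg (Finset.filter_subset _ _) fun a ha _ =>
        mul_nonneg (hy0 a).le (hh a (hK ha))
    refine h1.trans ?_
    rw [← hYK h, ← hW]
    rcases hW0.eq_or_lt with h2 | h2
    · have h3 : ∀ a ∈ I, h a = 0 := by
        intro a ha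
        have h4 := (Finset.sum_eq_zero_iff_of_nonneg fun a ha =>
          mul_nonneg (hwt a ha).le (hh a ha)).mp (hW ▸ h2.symm) a ha
        rcases mul_eq_zero.mp h4 with h5 | h5
        · exact absurd h5 (hwt a ha).ne'
        · exact h5
      rw [← h2, Finset.sum_eq_zero fun a ha => by rw [h3 a ha, mul_zero]]
      norm_num
    · rw [hΦ₁] at c₁
      beta_reduce at c₁
      rw [div_mul_eq_mul_div, one_mul, div_lt_one (by positivity)] at c₁
      exact c₁.le

/-- sparse resampling of a spread family -/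
theorem resample {X : Type} [Fintype X] [DecidableEq X] {ι : Type} (I : Finset ι) (wt : ι → ℝ)
    (hwt : ∀ a ∈ I, 0 ≤ wt a)
    (T : ι → Finset X) {A r : ℝ} (hr : 0 < r) (hr1 : r ≤ 1) (hA0 : 0 ≤ A) (hA : A ≤ 2)
    (hspr : ∀ S : Finset X, ∑ a ∈ I with S ⊆ T a, wt a ≤ A * r ^ S.card)
    (s : ℕ) (hs : 1 ≤ s) (hT : ∀ a ∈ I, (T a).card < s)
    (h : ι → ℝ) (hh : ∀ a ∈ I, 0 ≤ h a) :
    ∃ (I' : Finset ι) (wt' : ι → ℝ), I' ⊆ I ∧
      (∀ a ∈ I', (1 / 65536 : ℝ) ^ s * r ^ (T a).card ≤ wt' a) ∧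
      (∀ S : Finset X, ∑ a ∈ I' with S ⊆ T a, wt' a ≤ (A + 1 / (2 * s)) * r ^ S.card) ∧
      (∑ a ∈ I, wt a - 1 / (8 * s) ≤ ∑ a ∈ I', wt' a) ∧
      (∑ a ∈ I', wt' a * h a ≤ 4 * ∑ a ∈ I, wt a * h a) := by
  classical
  have hz : ∀ a ∈ I, a ∉ I.filter (fun a => 0 < wt a) → wt a = 0 := by
    intro a ha hna
    rw [Finset.mem_filter, not_and, not_lt] at hna
    exact le_antisymm (hna ha) (hwt a ha)
  have e1 : ∑ a ∈ I.filter (fun a => 0 < wt a), wt a = ∑ a ∈ I, wt a :=
    Finset.sum_subset (Finset.filter_subset _ _) hz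
  have e2 : ∑ a ∈ I.filter (fun a => 0 < wt a), wt a * h a = ∑ a ∈ I, wt a * h a :=
    Finset.sum_subset (Finset.filter_subset _ _) fun a ha hna => by rw [hz a ha hna, zero_mul]
  obtain ⟨I', wt', h1, h2, h3, h4, h5⟩ := resample_core (I.filter fun a => 0 < wt a) wt
    (fun a ha => (Finset.mem_filter.mp ha).2) T hr hr1 hA0 hA (fun S => by
      refine le_trans (Finset.sum_le_sum_of_subset_of_nonneg ?_ fun a ha _ => ?_) (hspr S)
      · intro a ha
        rw [Finset.mem_filter, Finset.mem_filter] at ha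
        exact Finset.mem_filter.mpr ⟨ha.1.1, ha.2⟩
      · exact hwt a (Finset.mem_filter.mp ha).1) s hs
    (fun a ha => hT a (Finset.mem_filter.mp ha).1) h
    (fun a ha => hh a (Finset.mem_filter.mp ha).1)
  rw [e1] at h4
  rw [e2] at h5
  exact ⟨I', wt', h1.trans (Finset.filter_subset _ _), h2, h3, h4, h5⟩

end P064.H
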