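import Vale.Agent.P064.HDefs
import Vale.Agent.P064.HResample

/-! P064, full result, module F: the chain of maximizers gives a hierarchical spread system. -/

namespace P064.H

open Finset P064
open scoped Pointwise

variable {X : Type} [Fintype X] [DecidableEq X]

/-- one step of the chain -/
theorem init_next {Γ : Type} [Group Γ] [Fintype Γ] [MulAction Γ X] (H : Finset X) {q r : ℝ}
    (hq : 0 < q) (hr : r = 384 * q)
    (hst : ∀ U ⊆ H, U.Nonempty → spr Γ U U ≤ q ^ U.card) (K : Finset X) (hK : K ⊆ H) :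
    ∃ K' ⊆ K, (∀ U : Finset X, spr Γ U K * (1 / r) ^ U.card ≤
      spr Γ K' K * (1 / r) ^ K'.card) ∧ 128 * K'.card ≤ K.card := by
  have hr0 : 0 < r := by rw [hr]; positivity
  obtain ⟨K1, hK1⟩ := Finite.exists_max (fun U : Finset X => spr Γ U K * (1 / r) ^ U.card)
  have hK1pos : 1 ≤ spr Γ K1 K * (1 / r) ^ K1.card := by
    have := hK1 ∅
    simpa [spr_empty] using this
  have hpos : 0 < spr Γ K1 K := by
    have h2 : 0 < (1 / r) ^ K1.card := by positivity
    by_contra hcc
    push Not at hcc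
    nlinarith
  obtain ⟨g, hg⟩ := exists_of_spr_pos hpos
  have hK2card : (g • K1).card = K1.card := Finset.card_smul_finset _ _
  have hK2s : spr Γ (g • K1) K = spr Γ K1 K := spr_smul_left _ _ _
  refine ⟨g • K1, hg, fun U => ?_, ?_⟩
  · rw [hK2card, hK2s]
    exact hK1 U
  · rcases (g • K1).eq_empty_or_nonempty with h | h
    · rw [h]; simp
    · have h1 : r ^ (g • K1).card ≤ spr Γ (g • K1) K := by
        rw [← hK2card, ← hK2s] at hK1pos
        have h3 : spr Γ (g • K1) K * (1 / r) ^ (g • K1).card * r ^ (g • K1).card =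
            spr Γ (g • K1) K := by
          rw [mul_assoc, ← mul_pow, one_div, inv_mul_cancel₀ hr0.ne', one_pow, mul_one]
        calc r ^ (g • K1).card = 1 * r ^ (g • K1).card := by ring
          _ ≤ spr Γ (g • K1) K * (1 / r) ^ (g • K1).card * r ^ (g • K1).card :=
            mul_le_mul_of_nonneg_right hK1pos (by positivity)
          _ = _ := h3
      have h2 := size_le hq h (hst (g • K1) (hg.trans hK) h) h1
      have h5 : 128 * ((g • K1).card : ℝ) ≤ K.card := by
        have : q * (128 * ((g • K1).card : ℝ)) ≤ q * K.card := by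
          rw [hr] at h2
          linarith
        exact le_of_mul_le_mul_left this hq
      exact_mod_cast h5

/-- the chain -/
theorem init_chain {Γ : Type} [Group Γ] [Fintype Γ] [MulAction Γ X] (H : Finset X) {q r : ℝ}
    (hq : 0 < q) (hr : r = 384 * q)
    (hst : ∀ U ⊆ H, U.Nonempty → spr Γ U U ≤ q ^ U.card) :
    ∃ K : ℕ → Finset X, K 0 = H ∧ ∀ i, K (i + 1) ⊆ K i ∧
      (∀ U : Finset X, spr Γ U (K i) * (1 / r) ^ U.card ≤
      spr Γ (K (i + 1)) (K i) * (1 / r) ^ (K (i + 1)).card) ∧
      128 * (K (i + 1)).card ≤ (K i).card := by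
  choose nx h1 h2 h3 using init_next H hq hr hst
  let f : {K : Finset X // K ⊆ H} → {K : Finset X // K ⊆ H} :=
    fun K => ⟨nx K.1 K.2, (h1 K.1 K.2).trans K.2⟩
  refine ⟨fun i => (f^[i] ⟨H, Finset.Subset.refl H⟩).1, rfl, fun i => ?_⟩
  have e : f^[i + 1] ⟨H, Finset.Subset.refl H⟩ = f (f^[i] ⟨H, Finset.Subset.refl H⟩) :=
    Function.iterate_succ_apply' f i _
  simp only [e]
  exact ⟨h1 _ _, h2 _ _, h3 _ _⟩

omit [Fintype X] in
/-- spread of the copies of `K` that contain a maximizer -/
theorem init_spread {Γ : Type} [Group Γ] [Fintype Γ] [MulAction Γ X] (K K' : Finset X) {r : ℝ}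
    (hr0 : 0 < r) (hK' : K' ⊆ K)
    (hmax : ∀ U : Finset X, spr Γ U K * (1 / r) ^ U.card ≤ spr Γ K' K * (1 / r) ^ K'.card)
    (g0 : Γ) (S : Finset X) :
    ∑ a ∈ (univ.filter fun g : Γ => g0 • K' ⊆ g • K) with S ⊆ a • K \ g0 • K',
      (1 / ((univ.filter fun g : Γ => g0 • K' ⊆ g • K).card : ℝ)) ≤ 1 * r ^ S.card := by
  set M := g0 • K' with hM
  have hcard0 : (univ.filter fun g : Γ => M ⊆ g • K).card = cnt Γ K' K := by
    rw [card_inv, hM, cnt_smul_left]
  have hpos : 0 < cnt Γ K' K := by
    unfold cnt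
    refine Finset.card_pos.mpr ⟨1, ?_⟩
    simpa using hK'
  have hpos' : (0 : ℝ) < cnt Γ K' K := by exact_mod_cast hpos
  rw [hcard0, Finset.sum_const, nsmul_eq_mul, one_mul]
  by_cases hdis : Disjoint S M
  · have h1 : ((univ.filter fun g : Γ => M ⊆ g • K).filter fun a => S ⊆ a • K \ M).card ≤
        cnt Γ (M ∪ S) K := by
      rw [← card_inv]
      refine Finset.card_le_card fun a ha => ?_
      simp only [Finset.mem_filter, Finset.mem_univ, true_and] at ha ⊢
      exact Finset.union_subset ha.1 (ha.2.trans Finset.sdiff_subset)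
    have h2 := hmax (M ∪ S)
    have h3 : (M ∪ S).card = K'.card + S.card := by
      rw [Finset.card_union_of_disjoint hdis.symm, hM, Finset.card_smul_finset]
    have hN := card_pos_real (Γ := Γ)
    have h4 : (cnt Γ (M ∪ S) K : ℝ) ≤ cnt Γ K' K * r ^ S.card := by
      unfold spr at h2
      rw [h3, pow_add] at h2
      have h5 : (cnt Γ (M ∪ S) K : ℝ) * (1 / r) ^ S.card ≤ cnt Γ K' K := by
        have h6 : 0 < (1 / r) ^ K'.card / (Fintype.card Γ : ℝ) := by positivity
        refine le_of_mul_le_mul_right ?_ h6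
        calc (cnt Γ (M ∪ S) K : ℝ) * (1 / r) ^ S.card * ((1 / r) ^ K'.card / (Fintype.card Γ : ℝ))
            = (cnt Γ (M ∪ S) K : ℝ) / (Fintype.card Γ : ℝ) *
              ((1 / r) ^ K'.card * (1 / r) ^ S.card) := by ring
          _ ≤ (cnt Γ K' K : ℝ) / (Fintype.card Γ : ℝ) * (1 / r) ^ K'.card := h2
          _ = _ := by ring
      have h7 : (1 / r) ^ S.card * r ^ S.card = 1 := by
        rw [← mul_pow, one_div, inv_mul_cancel₀ hr0.ne', one_pow]
      calc (cnt Γ (M ∪ S) K : ℝ) = (cnt Γ (M ∪ S) K : ℝ) * (1 / r) ^ S.card * r ^ S.card := by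
            rw [mul_assoc, h7, mul_one]
        _ ≤ _ := mul_le_mul_of_nonneg_right h5 (by positivity)
    have h8 : (((univ.filter fun g : Γ => M ⊆ g • K).filter fun a => S ⊆ a • K \ M).card : ℝ) ≤
        cnt Γ K' K * r ^ S.card := le_trans (by exact_mod_cast h1) h4
    calc _ ≤ (cnt Γ K' K * r ^ S.card) * (1 / (cnt Γ K' K : ℝ)) :=
          mul_le_mul_of_nonneg_right h8 (by positivity)
      _ = r ^ S.card := by field_simp
  · have h1 : ((univ.filter fun g : Γ => M ⊆ g • K).filter fun a => S ⊆ a • K \ M) = ∅ := by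
      rw [Finset.filter_eq_empty_iff]
      intro a _ hS
      apply hdis
      rw [Finset.disjoint_left]
      intro x hx
      exact (Finset.mem_sdiff.mp (hS hx)).2
    rw [h1]
    simp only [Finset.card_empty, Nat.cast_zero, zero_mul]
    positivity

theorem init {Γ : Type} [Group Γ] [Fintype Γ] [MulAction Γ X] (H : Finset X) {q r : ℝ}
    (hq : 0 < q) (hr : r = 384 * q) (hr1 : r ≤ 1) (J : ℕ) (hJ : H.card < 128 ^ J)
    (hst : ∀ U ⊆ H, U.Nonempty → spr Γ U U ≤ q ^ U.card) :
    ∃ L : Finset X, Good r J 7 0 L (fun W => ∃ g : Γ, g • H ⊆ W) := by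
  have hr0 : 0 < r := by rw [hr]; positivity
  obtain ⟨K, hK0, hK⟩ := init_chain (Γ := Γ) H hq hr hst
  have hcard : ∀ i, 128 ^ i * (K i).card ≤ H.card := by
    intro i
    induction i with
    | zero => rw [hK0]; simp
    | succ i ih =>
      have := (hK i).2.2
      calc 128 ^ (i + 1) * (K (i + 1)).card = 128 ^ i * (128 * (K (i + 1)).card) := by ring
        _ ≤ 128 ^ i * (K i).card := Nat.mul_le_mul_left _ this
        _ ≤ H.card := ih
  have hsize : ∀ i ≤ J, (K i).card < 2 ^ (7 * (J - i)) := by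
    intro i hi
    by_contra hc
    rw [not_lt] at hc
    have h1 := Nat.mul_le_mul_left (128 ^ i) hc
    have h2 : 128 ^ i * 2 ^ (7 * (J - i)) = 128 ^ J := by
      rw [pow_mul]
      norm_num
      rw [← pow_add]
      congr 1
      omega
    rw [h2] at h1
    have h3 := hcard i
    omega
  have claim : ∀ i ≤ J, ∀ g0 : Γ, Good r i (7 * (J + 1 - i)) 0 (univ \ g0 • K i)
      (fun W => ∃ g : Γ, g0 • K i ⊆ g • H ∧ g • H \ g0 • K i ⊆ W) := by
    intro i
    induction i with
    | zero =>
      intro _ g0 W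
      refine ⟨g0, ?_, ?_⟩
      · rw [hK0]
      · rw [hK0, Finset.sdiff_self]
        exact Finset.empty_subset _
    | succ i ih =>
      intro hi g0
      obtain ⟨hsub, hmax, -⟩ := hK i
      have hj : 7 * (J + 1 - (i + 1)) = 7 * (J - i) := by congr 1; omega
      rw [hj]
      set j := 7 * (J - i) with hjdef
      set M := g0 • K (i + 1) with hM
      set I0 := univ.filter fun g : Γ => M ⊆ g • K i with hI0
      have hI0pos : 0 < I0.card := by
        refine Finset.card_pos.mpr ⟨g0, ?_⟩
        simp only [hI0, Finset.mem_filter, Finset.mem_univ, true_and, hM]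
        exact Finset.smul_finset_subset_smul_finset hsub
      have hI0pos' : (0 : ℝ) < I0.card := by exact_mod_cast hI0pos
      have hs1 : 1 ≤ 2 ^ j := Nat.one_le_two_pow
      have hlabcard : ∀ a : Γ, (a • K i \ M).card < 2 ^ j := by
        intro a
        refine lt_of_le_of_lt (Finset.card_le_card Finset.sdiff_subset) ?_
        rw [Finset.card_smul_finset]
        exact hsize i (by omega)
      obtain ⟨I', wt', hI', hatom, hspr, hmass, -⟩ := resample I0
        (fun _ => 1 / (I0.card : ℝ)) (fun a _ => by positivity) (fun a => a • K i \ M)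
        (A := 1) hr0 hr1 (by norm_num) (by norm_num)
        (fun S => init_spread (K i) (K (i + 1)) hr0 hsub hmax g0 S) (2 ^ j) hs1
        (fun a _ => hlabcard a) (fun _ => 0) (fun _ _ => le_refl _)
      have hsum0 : ∑ a ∈ I0, 1 / (I0.card : ℝ) = 1 := by
        rw [Finset.sum_const, nsmul_eq_mul]
        field_simp
      rw [hsum0] at hmass
      have hMa : ∀ a ∈ I', M ⊆ a • K i := fun a ha =>
        (Finset.mem_filter.mp (hI' ha)).2
      refine ⟨Γ, I', wt', fun a => a • K i \ M, fun _ => 7 * (J + 1 - i), fun _ => 0,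
        fun a => univ \ a • K i, fun a W => ∃ g : Γ, a • K i ⊆ g • H ∧ g • H \ a • K i ⊆ W,
        ⟨hatom, ?_, ?_, fun a _ => hlabcard a⟩, ?_, ?_, ?_, ?_, ?_, ?_⟩
      · refine le_trans ?_ hmass
        push_cast
        have h1 : (1 / 2 : ℝ) ^ (j + 1) = 1 / (2 * 2 ^ j) := by
          rw [pow_succ, one_div, inv_pow]
          field_simp
        rw [h1]
        have h2 : (0 : ℝ) < 2 ^ j := by positivity
        have h3 : 1 / (8 * (2 : ℝ) ^ j) ≤ 1 / (2 * 2 ^ j) := by
          apply one_div_le_one_div_of_le <;> nlinarith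
        linarith
      · intro S
        refine (hspr S).trans ?_
        refine mul_le_mul_of_nonneg_right ?_ (by positivity)
        push_cast
        have h1 : (1 / 2 : ℝ) ^ j = 1 / 2 ^ j := by rw [one_div, inv_pow, one_div]
        rw [h1]
        have h2 : (0 : ℝ) < 2 ^ j := by positivity
        have h3 : 1 / (2 * (2 : ℝ) ^ j) ≤ 1 / 2 ^ j := by
          apply one_div_le_one_div_of_le <;> nlinarith
        linarith
      · intro a ha
        refine ⟨?_, ?_, ?_⟩
        · exact Finset.sdiff_subset_sdiff (Finset.subset_univ _) (Finset.Subset.refl _)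
        · exact Finset.sdiff_subset_sdiff (Finset.Subset.refl _) (hMa a ha)
        · rw [Finset.disjoint_left]
          intro x hx hx'
          exact (Finset.mem_sdiff.mp hx').2 (Finset.mem_sdiff.mp hx).1
      · intro a _
        refine ⟨?_, le_refl _⟩
        change j + 7 ≤ 7 * (J + 1 - i)
        omega
      · rintro a - W W' hW ⟨g, h1, h2⟩
        exact ⟨g, h1, h2.trans hW⟩
      · intro a _
        exact ih (by omega) a
      · rintro a ha W hlab ⟨g, h1, h2⟩
        refine ⟨g, (hMa a ha).trans h1, fun x hx => ?_⟩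
        rw [Finset.mem_sdiff] at hx
        by_cases hxa : x ∈ a • K i
        · exact hlab (Finset.mem_sdiff.mpr ⟨hxa, hx.2⟩)
        · exact h2 (Finset.mem_sdiff.mpr ⟨hx.1, hxa⟩)
      · refine le_of_eq (Finset.sum_eq_zero fun a _ => ?_)
        have h1 : 7 * (J + 1 - i) - (j + 7) = 0 := by omega
        rw [hb, h1]
        simp
  have hKJ : K J = ∅ := by
    have h1 := hcard J
    rw [← Finset.card_eq_zero]
    by_contra hc
    have h2 : 128 ^ J * 1 ≤ 128 ^ J * (K J).card :=
      Nat.mul_le_mul_left _ (Nat.one_le_iff_ne_zero.mpr hc)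
    omega
  refine ⟨univ \ (1 : Γ) • K J, ?_⟩
  have h1 := claim J (le_refl _) 1
  have h2 : 7 * (J + 1 - J) = 7 := by omega
  rw [h2] at h1
  have h3 : (fun W : Finset X => ∃ g : Γ, (1 : Γ) • K J ⊆ g • H ∧ g • H \ (1 : Γ) • K J ⊆ W) =
      fun W => ∃ g : Γ, g • H ⊆ W := by
    funext W
    rw [hKJ, Finset.smul_finset_empty]
    simp
  rw [h3] at h1
  exact h1

end P064.H
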