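import Vale.Agent.P064.Main
import Vale.Agent.P064.HHit
import Vale.Agent.P064.HInit

/-! P064, full result: assembly. -/

namespace P064

open Finset
open scoped Pointwise

/-- the threshold estimate for one `p` in the expectation set -/
theorem pc_le_of_mem1 {n : ℕ} {V : Type*} [Fintype V] (H : SimpleGraph V)
    (hV : Fintype.card V ≤ n) (hH : H ≠ ⊥) {p : ℝ} (hp : p ∈ pESet n H) {m J : ℕ}
    (hm : n.choose 2 ≤ m) (hJ : m < 128 ^ J) :
    pc n H ≤ (14 * (J + 1) + 1 : ℕ) * (786432 * p) := by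
  classical
  have hbdd : BddBelow (pcSet n H) := ⟨0, fun x hx => hx.1⟩
  obtain ⟨f⟩ : Nonempty (V ↪ Fin n) := by
    apply Function.Embedding.nonempty_of_card_le
    simpa using hV
  set E := edg (H.map f) with hE
  have hEne : E.Nonempty := edg_nonempty H f hH
  have hEm : E.card ≤ m := by
    refine le_trans ?_ hm
    rw [← card_Edg]
    exact Finset.card_le_univ _
  have hp0 : 0 < p := by
    obtain ⟨e, he⟩ := hEne
    have h1 := stab_le H f hp {e} (by simpa using he) (by simp)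
    have h2 := spr_self_pos (Γ := Equiv.Perm (Fin n)) ({e} : Finset (Edg n))
    simp only [card_singleton, pow_one] at h1
    linarith
  set t : ℕ := 14 * (J + 1) + 1 with ht
  set P : ℝ := 786432 * p with hP
  have hP0 : 0 < P := by rw [hP]; positivity
  have ht1 : (1 : ℝ) ≤ t := by
    rw [ht]; push_cast
    have : (0 : ℝ) ≤ J := by positivity
    linarith
  by_cases hbig : 1 ≤ (t : ℝ) * P
  · exact (csInf_le hbdd (one_mem_pcSet H hV)).trans hbig
  push Not at hbig
  have hP1 : P ≤ 1 := by nlinarith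
  have hst : ∀ U ⊆ E, U.Nonempty → spr (Equiv.Perm (Fin n)) U U ≤ (2 * p) ^ U.card := by
    intro U hU hne
    refine (stab_le H f hp U hU hne).trans ?_
    rw [mul_pow]
    apply mul_le_mul_of_nonneg_right _ (by positivity)
    have : 1 ≤ U.card := hne.card_pos
    calc (2 : ℝ) = 2 ^ 1 := by norm_num
      _ ≤ 2 ^ U.card := pow_le_pow_right₀ (by norm_num) this
  obtain ⟨L, hGood⟩ := P064.H.init (Γ := Equiv.Perm (Fin n)) E (q := 2 * p) (r := 768 * p)
    (by positivity) (by ring) (by rw [hP] at hP1; linarith) J (lt_of_le_of_lt hEm hJ) hst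
  have hhit := P064.H.hit (r := 768 * p) (p := P) (by positivity) (by rw [hP]; ring) hP1 t J 7 0 L
    (fun W => ∃ g : Equiv.Perm (Fin n), g • E ⊆ W) (by norm_num) (le_refl _)
    (fun W W' hW ⟨g, hg⟩ => ⟨g, hg.trans hW⟩) hGood
  have hnum : (1 / 8 : ℝ) ^ t * 64 ^ (7 + 7 * J) * (1 + 0) = 1 / 8 := by
    have e1 : (64 : ℝ) ^ (7 + 7 * J) = 8 ^ (14 * (J + 1)) := by
      rw [show (64 : ℝ) = 8 ^ 2 by norm_num, ← pow_mul]
      congr 1; ring
    rw [e1, ht, pow_succ]
    have e2 : (1 / 8 : ℝ) ^ (14 * (J + 1)) * 8 ^ (14 * (J + 1)) = 1 := by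
      rw [← mul_pow]; norm_num
    calc (1 / 8 : ℝ) ^ (14 * (J + 1)) * (1 / 8) * 8 ^ (14 * (J + 1)) * (1 + 0)
        = ((1 / 8 : ℝ) ^ (14 * (J + 1)) * 8 ^ (14 * (J + 1))) * (1 / 8) := by ring
      _ = _ := by rw [e2, one_mul]
  rw [hnum, P064.H.pu_eq] at hhit
  have hmono := bw_mono (X := Edg n)
    (fun W => ∃ i : Equiv.Perm (Fin n), i • E ⊆ W)
    (fun S T hST ⟨i, h⟩ => ⟨i, h.trans hST⟩)
    (p := 1 - (1 - P) ^ t) (q := (t : ℝ) * P) (by
      have : (1 - P) ^ t ≤ 1 := pow_le_one₀ (by linarith) (by linarith)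
      linarith) (by
      have h1 := one_add_mul_le_pow (a := -P) (by linarith) t
      have h2 : (1 + -P) ^ t = (1 - P) ^ t := by ring
      rw [h2] at h1
      linarith) hbig.le
  have hge := prob_ge H f (p := (t : ℝ) * P) (by positivity) hbig.le
  have hfin : (1 : ℝ) / 2 ≤ prob n ((t : ℝ) * P) {G | 0 < copies G H} := by
    refine le_trans ?_ hge
    refine le_trans ?_ (le_trans hhit (le_trans (le_of_eq ?_) (le_trans hmono (le_of_eq ?_))))
    · norm_num
    · exact Finset.sum_congr rfl fun W _ => by congr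
    · exact Finset.sum_congr rfl fun W _ => by congr
  exact csInf_le hbdd ⟨by positivity, hbig.le, hfin⟩

theorem log_bounds1 {n : ℕ} (hn : 2 ≤ n) :
    ((14 * ((Nat.log 128 (n ^ 2) + 1) + 1) + 1 : ℕ) : ℝ) ≤ 50 * Real.log n := by
  have hn' : (2 : ℝ) ≤ n := by exact_mod_cast hn
  have hlog2 : (0.69 : ℝ) < Real.log 2 := by
    have := Real.log_two_gt_d9
    linarith
  have hln : Real.log 2 ≤ Real.log n := Real.log_le_log (by norm_num) hn'
  have hsq : Real.log ((n ^ 2 : ℕ) : ℝ) = 2 * Real.log n := by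
    push_cast
    rw [Real.log_pow]
    norm_num
  have hlog128 : Real.log 128 = 7 * Real.log 2 := by
    rw [show (128 : ℝ) = 2 ^ 7 by norm_num, Real.log_pow]
    norm_num
  have h1 : ((Nat.log 128 (n ^ 2) : ℕ) : ℝ) * Real.log 128 ≤ 2 * Real.log n := by
    rw [← hsq, ← Real.log_pow]
    apply Real.log_le_log (by positivity)
    have : 128 ^ Nat.log 128 (n ^ 2) ≤ n ^ 2 := Nat.pow_log_le_self 128 (by positivity)
    exact_mod_cast this
  have h2 : (0 : ℝ) ≤ ((Nat.log 128 (n ^ 2) : ℕ) : ℝ) := by positivity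
  have h3 : ((Nat.log 128 (n ^ 2) : ℕ) : ℝ) * 4.83 ≤ 2 * Real.log n := by
    rw [hlog128] at h1
    nlinarith
  push_cast
  linarith

/-- `f(n) ≤ 39321600 log n`. -/
theorem pc_le_log {n : ℕ} (hn : 2 ≤ n) {V : Type*} [Fintype V] (H : SimpleGraph V)
    (hV : Fintype.card V ≤ n) (hH : H ≠ ⊥) :
    pc n H ≤ 39321600 * pE n H * Real.log n := by
  have hn' : (2 : ℝ) ≤ n := by exact_mod_cast hn
  have hlog : 0 < Real.log n := Real.log_pos (by linarith)
  have hm : n.choose 2 ≤ n ^ 2 := Nat.choose_le_pow n 2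
  have hle : ∀ p ∈ pESet n H, pc n H / (39321600 * Real.log n) ≤ p := by
    intro p hp
    have h1 := pc_le_of_mem1 H hV hH hp (J := Nat.log 128 (n ^ 2) + 1) hm
      (Nat.lt_pow_succ_log_self (by norm_num) _)
    have hp0 : 0 ≤ p := hp.1
    rw [div_le_iff₀ (by positivity)]
    refine h1.trans ?_
    have h2 := mul_le_mul_of_nonneg_right (log_bounds1 hn)
      (show (0 : ℝ) ≤ 786432 * p by positivity)
    refine h2.trans (le_of_eq ?_)
    ring
  have h := le_csInf ⟨1, one_mem_pESet H hV⟩ hle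
  rw [div_le_iff₀ (by positivity)] at h
  calc pc n H ≤ sInf (pESet n H) * (39321600 * Real.log n) := h
    _ = 39321600 * pE n H * Real.log n := by unfold pE; ring

end P064
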