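import Vale.Agent.P064.HResample
import Vale.Agent.P064.HIndep
import Vale.Agent.P064.HFknp

/-! P064, full result, module D: one time step. -/

set_option linter.unusedSectionVars false

namespace P064.H

open Finset P064

variable {X : Type} [Fintype X] [DecidableEq X]

theorem ex_mono {p : ℝ} (hp0 : 0 ≤ p) (hp1 : p ≤ 1) {f g : Finset X → ℝ}
    (h : ∀ W, f W ≤ g W) : ex p f ≤ ex p g := by
  unfold ex
  exact Finset.sum_le_sum fun W _ =>
    mul_le_mul_of_nonneg_left (h W) (Thr.bw_nonneg hp0 hp1 W)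

theorem ex_nonneg {p : ℝ} (hp0 : 0 ≤ p) (hp1 : p ≤ 1) {f : Finset X → ℝ}
    (h : ∀ W, 0 ≤ f W) : 0 ≤ ex p f := by
  unfold ex
  exact Finset.sum_nonneg fun W _ => mul_nonneg (Thr.bw_nonneg hp0 hp1 W) (h W)

theorem ex_const (p c : ℝ) : ex p (fun _ : Finset X => c) = c := by
  unfold ex
  rw [← Finset.sum_mul, Thr.sum_bw, one_mul]

theorem ex_add (p : ℝ) (f g : Finset X → ℝ) :
    ex p (fun W => f W + g W) = ex p f + ex p g := by
  unfold ex
  rw [← Finset.sum_add_distrib]
  exact Finset.sum_congr rfl fun W _ => mul_add _ _ _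

theorem ex_mul (p c : ℝ) (f : Finset X → ℝ) :
    ex p (fun W => c * f W) = c * ex p f := by
  unfold ex
  rw [Finset.mul_sum]
  exact Finset.sum_congr rfl fun W _ => by ring

theorem good_mono {r : ℝ} {m j : ℕ} {B : ℝ} {L : Finset X} {E E' : Finset X → Prop}
    (h : Good r m j B L E) (hE : ∀ W, E W → E' W) : Good r m j B L E' := by
  cases m with
  | zero => exact fun W => hE W (h W)
  | succ m =>
    obtain ⟨ι, I, wt, lab, jc, Bc, Lc, Ec, h1, h2, h3, h4, h5, h6, h7⟩ := h
    exact ⟨ι, I, wt, lab, jc, Bc, Lc, Ec, h1, h2, h3, h4, h5,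
      fun a ha W hl hw => hE W (h6 a ha W hl hw), h7⟩

theorem hb_nonneg {j jc : ℕ} {B : ℝ} (hB : 0 ≤ B) : 0 ≤ hb j jc B := by
  unfold hb
  have h1 : (1 : ℝ) ≤ 2 ^ (2 ^ jc * (jc - (j + 7))) := one_le_pow₀ (by norm_num)
  nlinarith

open Classical in
theorem child_bd {j jc : ℕ} (hjc : (j + 1) + 7 ≤ jc) {Bc : ℝ} (hBc : 0 ≤ Bc)
    (sc : Finset X → Prop) (b : Finset X → ℝ)
    {p : ℝ} (hp0 : 0 ≤ p) (hp1 : p ≤ 1)
    (hf : ex p (fun W => if sc W then 0 else 1) ≤ (1 / 4 : ℝ) ^ (2 ^ jc))
    (hs : ex p (fun W => if sc W then b W else 0) ≤ (1 / 2 : ℝ) ^ (2 ^ jc) * (1 + Bc)) :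
    ex p (fun W => if sc W then hb j (jc - 1) (b W) else hb j jc Bc) ≤
      3 * (1 / 2 : ℝ) ^ (2 ^ (jc - 1)) * (1 + hb (j + 1) jc Bc) := by
  obtain ⟨D, rfl⟩ : ∃ D, jc = j + 1 + 7 + D := ⟨jc - (j + 1 + 7), by omega⟩
  have e1 : j + 1 + 7 + D - 1 = j + 7 + D := by omega
  rw [e1]
  set k : ℕ := 2 ^ (j + 7 + D) with hk
  have hk2 : 2 ^ (j + 1 + 7 + D) = 2 * k := by
    rw [hk, ← pow_succ']
    congr 1
    omega
  rw [hk2] at hf hs
  have hb1 : ∀ B : ℝ, hb j (j + 7 + D) B = 2 ^ (k * D) * (1 + B) - 1 := by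
    intro B
    unfold hb
    rw [show j + 7 + D - (j + 7) = D by omega]
  have hb2 : hb j (j + 1 + 7 + D) Bc = 2 ^ (2 * k * (D + 1)) * (1 + Bc) - 1 := by
    unfold hb
    rw [hk2, show j + 1 + 7 + D - (j + 7) = D + 1 by omega]
  have hb3 : hb (j + 1) (j + 1 + 7 + D) Bc = 2 ^ (2 * k * D) * (1 + Bc) - 1 := by
    unfold hb
    rw [hk2, show j + 1 + 7 + D - (j + 1 + 7) = D by omega]
  rw [hb2, hb3]
  simp_rw [hb1]
  set x : ℝ := 2 ^ (k * D) with hx
  set u : ℝ := (1 / 2) ^ k with hu
  have hx1 : 1 ≤ x := one_le_pow₀ (by norm_num)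
  have hu0 : 0 < u := by rw [hu]; positivity
  have hu1 : u ≤ 1 := pow_le_one₀ (by norm_num) (by norm_num)
  have hx2 : (2 : ℝ) ^ (2 * k * D) = x ^ 2 := by
    rw [hx, ← pow_mul]; congr 1; ring
  have hxx : (2 : ℝ) ^ (2 * k * (D + 1)) = x ^ 2 * (u ^ 2)⁻¹ := by
    rw [hx, hu, ← pow_mul, ← pow_mul, one_div, inv_pow, inv_inv, ← pow_add]
    congr 1; ring
  have hu2 : (1 / 2 : ℝ) ^ (2 * k) = u ^ 2 := by
    rw [hu, ← pow_mul]; congr 1; ring
  have hu4 : (1 / 4 : ℝ) ^ (2 * k) = u ^ 4 := by
    rw [hu, ← pow_mul, show (1 / 4 : ℝ) = (1 / 2) ^ 2 by norm_num, ← pow_mul]; congr 1; ring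
  rw [hx2, hxx]
  rw [hu4] at hf
  rw [hu2] at hs
  have hpt : ∀ W, (if sc W then x * (1 + b W) - 1 else x ^ 2 * (u ^ 2)⁻¹ * (1 + Bc) - 1) ≤
      ((x - 1) + x * (if sc W then b W else 0)) +
        (x ^ 2 * (u ^ 2)⁻¹ * (1 + Bc)) * (if sc W then 0 else 1) := by
    intro W
    split_ifs
    · linarith
    · linarith
  refine (ex_mono hp0 hp1 hpt).trans ?_
  rw [ex_add, ex_add, ex_const, ex_mul, ex_mul]
  have h1 : x * ex p (fun W => if sc W then b W else 0) ≤ x * (u ^ 2 * (1 + Bc)) :=
    mul_le_mul_of_nonneg_left hs (by linarith)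
  have h2 : x ^ 2 * (u ^ 2)⁻¹ * (1 + Bc) * ex p (fun W => if sc W then 0 else 1) ≤
      x ^ 2 * (u ^ 2)⁻¹ * (1 + Bc) * u ^ 4 :=
    mul_le_mul_of_nonneg_left hf (by positivity)
  have h3 : x ^ 2 * (u ^ 2)⁻¹ * (1 + Bc) * u ^ 4 = x ^ 2 * u ^ 2 * (1 + Bc) := by
    field_simp
  have hBc1 : 1 ≤ 1 + Bc := by linarith
  have h4 : x - 1 ≤ u * x ^ 2 * (1 + Bc) := by
    rcases Nat.eq_zero_or_pos D with hD | hD
    · have : x = 1 := by rw [hx, hD]; simp
      rw [this]
      have : 0 ≤ u * 1 ^ 2 * (1 + Bc) := by positivity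
      linarith
    · have hxk : u⁻¹ ≤ x := by
        rw [hx, hu, one_div, inv_pow, inv_inv]
        apply pow_le_pow_right₀ (by norm_num)
        exact Nat.le_mul_of_pos_right k hD
      have hux : 1 ≤ u * x := by
        have := mul_le_mul_of_nonneg_left hxk hu0.le
        rwa [mul_inv_cancel₀ hu0.ne'] at this
      have h5 : x ≤ u * x ^ 2 := by nlinarith
      have h6 : u * x ^ 2 ≤ u * x ^ 2 * (1 + Bc) := by
        have : 0 ≤ u * x ^ 2 := by positivity
        nlinarith
      linarith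
  have h7 : x * (u ^ 2 * (1 + Bc)) ≤ u * x ^ 2 * (1 + Bc) := by
    have h8 : x * u ^ 2 ≤ u * x ^ 2 := by
      have : x * u * u ≤ x * u * x := mul_le_mul_of_nonneg_left (by linarith) (by positivity)
      nlinarith
    have := mul_le_mul_of_nonneg_right h8 (by linarith : (0 : ℝ) ≤ 1 + Bc)
    linarith
  have h9 : x ^ 2 * u ^ 2 * (1 + Bc) ≤ u * x ^ 2 * (1 + Bc) := by
    apply mul_le_mul_of_nonneg_right _ (by linarith)
    have : x ^ 2 * u * u ≤ x ^ 2 * u * 1 := mul_le_mul_of_nonneg_left hu1 (by positivity)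
    nlinarith
  have h10 : 3 * u * (1 + (x ^ 2 * (1 + Bc) - 1)) = 3 * (u * x ^ 2 * (1 + Bc)) := by ring
  rw [h10]
  linarith

open Classical in
theorem step {r p : ℝ} (hr : 0 < r) (hp : p = 1024 * r) (hp1 : p ≤ 1) (m : ℕ) :
    ∀ (j : ℕ) (B : ℝ) (L : Finset X) (E : Finset X → Prop), 1 ≤ j → 0 ≤ B →
      (∀ W W', W ⊆ W' → E W → E W') → Good r m j B L E →
      ∃ (sc : Finset X → Prop) (b : Finset X → ℝ),
        (∀ W, sc W ↔ sc (W ∩ L)) ∧ (∀ W, b W = b (W ∩ L)) ∧ (∀ W, 0 ≤ b W) ∧
        (∀ W, sc W → Good r m (j - 1) (b W) L (fun W' => E (W ∪ W'))) ∧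
        ex p (fun W => if sc W then 0 else 1) ≤ (1 / 4 : ℝ) ^ (2 ^ j) ∧
        ex p (fun W => if sc W then b W else 0) ≤ (1 / 2 : ℝ) ^ (2 ^ j) * (1 + B) := by
  have hp0 : 0 ≤ p := by rw [hp]; positivity
  have hrp : r ≤ p := by rw [hp]; linarith
  have hr1 : r ≤ 1 := hrp.trans hp1
  induction m with
  | zero =>
    intro j B L E hj hB hE hG
    refine ⟨fun _ => True, fun _ => 0, fun _ => Iff.rfl, fun _ => rfl, fun _ => le_refl _,
      fun W _ W' => hG _, ?_, ?_⟩
    · simp only [if_true]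
      rw [ex_const]
      positivity
    · simp only [if_true]
      rw [ex_const]
      positivity
  | succ m ih =>
    intro j B L E hj hB hE hG
    obtain ⟨j, rfl⟩ : ∃ j', j = j' + 1 := ⟨j - 1, by omega⟩
    obtain ⟨ι, I, wt, lab, jc, Bc, Lc, Ec, hFam, hlab, hjc, hmono, hGood, hhit, hsum⟩ := hG
    have hwt : ∀ a ∈ I, 0 ≤ wt a := fun a ha =>
      le_trans (by positivity) (hFam.atom a ha)
    -- the steps of the children
    have hch : ∀ a ∈ I, ∃ (sc : Finset X → Prop) (b : Finset X → ℝ),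
        (∀ W, sc W ↔ sc (W ∩ Lc a)) ∧ (∀ W, b W = b (W ∩ Lc a)) ∧ (∀ W, 0 ≤ b W) ∧
        (∀ W, sc W → Good r m (jc a - 1) (b W) (Lc a) (fun W' => Ec a (W ∪ W'))) ∧
        ex p (fun W => if sc W then 0 else 1) ≤ (1 / 4 : ℝ) ^ (2 ^ jc a) ∧
        ex p (fun W => if sc W then b W else 0) ≤ (1 / 2 : ℝ) ^ (2 ^ jc a) * (1 + Bc a) :=
      fun a ha => ih (jc a) (Bc a) (Lc a) (Ec a) (by have := (hjc a ha).1; omega) (hjc a ha).2
        (hmono a ha) (hGood a ha)
    choose! scC bC hc1 hc2 hc3 hc4 hc5 hc6 using hch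
    -- the selection
    have hsel0 : ∀ u ∈ I, ∀ V : Finset X, ∃ a, a ∈ I ∧ lab a ⊆ V ∪ lab u ∧
        ∀ a' ∈ I, lab a' ⊆ V ∪ lab u → (lab a \ V).card ≤ (lab a' \ V).card := by
      intro u hu V
      obtain ⟨a, ha, hmin⟩ := Finset.exists_min_image
        (I.filter fun a => lab a ⊆ V ∪ lab u) (fun a => (lab a \ V).card)
        ⟨u, Finset.mem_filter.2 ⟨hu, Finset.subset_union_right⟩⟩
      rw [Finset.mem_filter] at ha
      exact ⟨a, ha.1, ha.2, fun a' h1 h2 => hmin a' (Finset.mem_filter.2 ⟨h1, h2⟩)⟩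
    choose! sel0 hs1 hs2 hs3 using hsel0
    set sel : ι → Finset X → ι := fun u W => sel0 u (W ∩ L) with hseldef
    have hsdiff : ∀ a ∈ I, ∀ W, lab a \ (W ∩ L) = lab a \ W := by
      intro a ha W
      ext x
      simp only [mem_sdiff, mem_inter]
      constructor
      · rintro ⟨h1, h2⟩
        exact ⟨h1, fun h => h2 ⟨h, (hlab a ha).1 h1⟩⟩
      · rintro ⟨h1, h2⟩
        exact ⟨h1, fun h => h2 h.1⟩
    have hselI : ∀ u ∈ I, ∀ W, sel u W ∈ I := fun u hu W => hs1 u hu _
    have hselsub : ∀ u ∈ I, ∀ W, lab (sel u W) ⊆ W ∪ lab u := fun u hu W =>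
      (hs2 u hu (W ∩ L)).trans (Finset.union_subset_union_left Finset.inter_subset_left)
    have hselmin : ∀ u ∈ I, ∀ W, ∀ a ∈ I, lab a ⊆ W ∪ lab u →
        (lab (sel u W) \ W).card ≤ (lab a \ W).card := by
      intro u hu W a ha h
      have h1 : lab a ⊆ (W ∩ L) ∪ lab u := by
        intro x hx
        rcases Finset.mem_union.1 (h hx) with h2 | h2
        · exact Finset.mem_union_left _ (Finset.mem_inter.2 ⟨h2, (hlab a ha).1 hx⟩)
        · exact Finset.mem_union_right _ h2
      have h2 := hs3 u hu (W ∩ L) a ha h1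
      rwa [hsdiff _ (hselI u hu W), hsdiff a ha] at h2
    have hselT : ∀ u ∈ I, ∀ W, lab (sel u W) \ W ⊆ lab u := by
      intro u hu W x hx
      rw [mem_sdiff] at hx
      rcases Finset.mem_union.1 (hselsub u hu W hx.1) with h | h
      · exact absurd h hx.2
      · exact h
    have hselloc : ∀ u W, sel u (W ∩ L) = sel u W := by
      intro u W
      simp only [hseldef, Finset.inter_assoc, Finset.inter_self]
    -- the badness of the children after the step
    set G : ι → Finset X → ℝ := fun a W =>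
      if scC a W then hb j (jc a - 1) (bC a W) else hb j (jc a) (Bc a) with hGdef
    have hG0 : ∀ a ∈ I, ∀ W, 0 ≤ G a W := by
      intro a ha W
      simp only [hGdef]
      split_ifs
      · exact hb_nonneg (hc3 a ha W)
      · exact hb_nonneg (hjc a ha).2
    have hGloc : ∀ a ∈ I, ∀ W V, W ∩ Lc a = V ∩ Lc a → G a W = G a V := by
      intro a ha W V h
      have e1 : scC a W ↔ scC a V := by
        rw [hc1 a ha W, hc1 a ha V, h]
      have e2 : bC a W = bC a V := by
        rw [hc2 a ha W, hc2 a ha V, h]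
      simp only [hGdef, e2]
      by_cases h1 : scC a W
      · rw [if_pos h1, if_pos (e1.1 h1)]
      · rw [if_neg h1, if_neg (fun h => h1 (e1.2 h))]
    set A : ℝ := 1 + (1 / 2 : ℝ) ^ (j + 1) with hA
    have hA0 : 0 ≤ A := by rw [hA]; positivity
    have hA2 : A ≤ 2 := by
      rw [hA]
      have : (1 / 2 : ℝ) ^ (j + 1) ≤ 1 := pow_le_one₀ (by norm_num) (by norm_num)
      linarith
    set beta : Finset X → ℝ := fun W =>
      ∑ u ∈ I with 2 ^ j ≤ (lab (sel u W) \ W).card, wt u with hbeta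
    have hbeta0 : ∀ W, 0 ≤ beta W := fun W =>
      Finset.sum_nonneg fun u hu => hwt u (Finset.mem_filter.1 hu).1
    set b : Finset X → ℝ := fun W => 4 * ∑ u ∈ I, wt u * G (sel u W) W with hbdef
    have hb0 : ∀ W, 0 ≤ b W := by
      intro W
      simp only [hbdef]
      have : 0 ≤ ∑ u ∈ I, wt u * G (sel u W) W :=
        Finset.sum_nonneg fun u hu => mul_nonneg (hwt u hu) (hG0 _ (hselI u hu W) W)
      linarith
    have hbetaloc : ∀ W, beta W = beta (W ∩ L) := by
      intro W
      simp only [hbeta]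
      apply Finset.sum_congr _ fun _ _ => rfl
      apply Finset.filter_congr
      intro u hu
      rw [hselloc, hsdiff _ (hselI u hu W)]
    refine ⟨fun W => beta W ≤ (1 / 2 : ℝ) ^ (j + 3), b, ?_, ?_, hb0, ?_, ?_, ?_⟩
    · intro W
      show beta W ≤ (1 / 2 : ℝ) ^ (j + 3) ↔ beta (W ∩ L) ≤ (1 / 2 : ℝ) ^ (j + 3)
      rw [hbetaloc W]
    · intro W
      simp only [hbdef]
      congr 1
      apply Finset.sum_congr rfl
      intro u hu
      rw [hselloc]
      congr 1
      apply hGloc _ (hselI u hu W)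
      rw [Finset.inter_assoc, Finset.inter_eq_right.2 (hlab _ (hselI u hu W)).2.1]
    · -- the new system
      intro W hW
      show Good r (m + 1) j (b W) L (fun W' => E (W ∪ W'))
      set T : ι → Finset X := fun u => lab (sel u W) \ W with hT
      set I1 : Finset ι := I.filter fun u => (T u).card < 2 ^ j with hI1
      have hI1I : ∀ u ∈ I1, u ∈ I := fun u hu => (Finset.mem_filter.1 hu).1
      obtain ⟨I', wt', hI', hatom, hspr, hmass, hsum'⟩ := resample I1 wt
        (fun a ha => hwt a (hI1I a ha)) T hr hr1 hA0 hA2 (by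
          intro S
          refine le_trans ?_ (hFam.spread S)
          apply Finset.sum_le_sum_of_subset_of_nonneg
          · intro u hu
            rw [Finset.mem_filter] at hu ⊢
            exact ⟨hI1I u hu.1, hu.2.trans (hselT u (hI1I u hu.1) W)⟩
          · intro u hu _
            exact hwt u (Finset.mem_filter.1 hu).1)
        (2 ^ j) Nat.one_le_two_pow (fun a ha => (Finset.mem_filter.1 ha).2)
        (fun u => G (sel u W) W) (fun u hu => hG0 _ (hselI u (hI1I u hu) W) W)
      have hI'I : ∀ u ∈ I', u ∈ I := fun u hu => hI1I u (hI' hu)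
      refine ⟨ι, I', wt', T,
        fun u => if scC (sel u W) W then jc (sel u W) - 1 else jc (sel u W),
        fun u => if scC (sel u W) W then bC (sel u W) W else Bc (sel u W),
        fun u => Lc (sel u W), fun u W' => Ec (sel u W) (W ∪ W'), ?_, ?_, ?_, ?_, ?_, ?_, ?_⟩
      · refine ⟨hatom, ?_, ?_, ?_⟩
        · refine le_trans ?_ hmass
          have hsplit : ∑ a ∈ I1, wt a = ∑ a ∈ I, wt a - beta W := by
            have := Finset.sum_filter_add_sum_filter_not I (fun u => (T u).card < 2 ^ j) wt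
            have e : ∑ a ∈ I with ¬ (T a).card < 2 ^ j, wt a = beta W := by
              simp only [hbeta, hT, not_lt]
            rw [e] at this
            rw [hI1]
            linarith
          rw [hsplit]
          have hm := hFam.mass
          have e1 : (1 / 2 : ℝ) ^ (j + 1 + 1) = (1 / 2) ^ j * (1 / 4) := by
            rw [pow_add, pow_add]; norm_num; ring
          have e2 : (1 / 2 : ℝ) ^ (j + 1) = (1 / 2) ^ j * (1 / 2) := by
            rw [pow_add]; norm_num
          have e3 : (1 / 2 : ℝ) ^ (j + 3) = (1 / 2) ^ j * (1 / 8) := by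
            rw [pow_add]; norm_num
          have e4 : (1 : ℝ) / (8 * ((2 ^ j : ℕ) : ℝ)) = (1 / 2) ^ j * (1 / 8) := by
            push_cast
            rw [one_div_pow]
            field_simp
          have hW' : beta W ≤ (1 / 2 : ℝ) ^ (j + 3) := hW
          rw [e1] at hm
          rw [e3] at hW'
          rw [e2, e4]
          linarith
        · intro S
          refine (hspr S).trans (le_of_eq ?_)
          congr 1
          rw [hA]
          push_cast
          rw [one_div_pow, one_div_pow, pow_succ]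
          field_simp
          ring
        · intro a ha
          exact (Finset.mem_filter.1 (hI' ha)).2
      · intro u hu
        have huI := hI'I u hu
        have hs := hlab _ (hselI u huI W)
        refine ⟨(Finset.sdiff_subset).trans hs.1, hs.2.1, ?_⟩
        exact Finset.disjoint_of_subset_left Finset.sdiff_subset hs.2.2
      · intro u hu
        have huI := hI'I u hu
        have hj := hjc _ (hselI u huI W)
        dsimp only
        split_ifs
        · exact ⟨by omega, hc3 _ (hselI u huI W) W⟩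
        · exact ⟨by omega, hj.2⟩
      · intro u hu V V' hV h
        have huI := hI'I u hu
        exact hmono _ (hselI u huI W) _ _ (Finset.union_subset_union_right hV) h
      · intro u hu
        have huI := hI'I u hu
        dsimp only
        split_ifs with hs
        · exact hc4 _ (hselI u huI W) W hs
        · exact good_mono (hGood _ (hselI u huI W)) fun V hV =>
            hmono _ (hselI u huI W) _ _ Finset.subset_union_right hV
      · intro u hu V hV hEV
        have huI := hI'I u hu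
        apply hhit _ (hselI u huI W) (W ∪ V) _ hEV
        intro x hx
        by_cases hxW : x ∈ W
        · exact Finset.mem_union_left _ hxW
        · exact Finset.mem_union_right _ (hV (Finset.mem_sdiff.2 ⟨hx, hxW⟩))
      · have e1 : ∀ u ∈ I', wt' u * hb j (if scC (sel u W) W then jc (sel u W) - 1
            else jc (sel u W)) (if scC (sel u W) W then bC (sel u W) W else Bc (sel u W)) =
            wt' u * G (sel u W) W := by
          intro u _
          congr 1
          simp only [hGdef]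
          split_ifs <;> rfl
        rw [Finset.sum_congr rfl e1]
        refine hsum'.trans ?_
        simp only [hbdef]
        apply mul_le_mul_of_nonneg_left _ (by norm_num)
        apply Finset.sum_le_sum_of_subset_of_nonneg (Finset.filter_subset _ _)
        intro u hu _
        exact mul_nonneg (hwt u hu) (hG0 _ (hselI u hu W) W)
    · -- failure probability
      have h1 := fknp I wt hwt lab sel
        (fun u hu W => ⟨hselI u hu W, hselsub u hu W, hselmin u hu W⟩) hr hrp hp1 hA0
        hFam.spread (2 ^ j) (fun a ha => by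
          have := hFam.size a ha
          rwa [pow_succ, mul_comm] at this)
      have h2 : ∀ W, (if beta W ≤ (1 / 2 : ℝ) ^ (j + 3) then (0 : ℝ) else 1) ≤
          2 ^ (j + 3) * beta W := by
        intro W
        split_ifs with h
        · exact mul_nonneg (by positivity) (hbeta0 W)
        · push Not at h
          have h3 : (2 : ℝ) ^ (j + 3) * (1 / 2) ^ (j + 3) = 1 := by
            rw [← mul_pow]; norm_num
          have h4 := mul_lt_mul_of_pos_left h (show (0 : ℝ) < 2 ^ (j + 3) by positivity)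
          rw [h3] at h4
          exact h4.le
      refine (ex_mono hp0 hp1 h2).trans ?_
      rw [ex_mul]
      have h5 : 4 * r / p = 1 / 256 := by
        rw [hp]; field_simp; norm_num
      rw [h5] at h1
      have h6 : ex p beta ≤ A * (1 / 256) ^ (2 ^ j) := h1
      have h7 : (1 / 4 : ℝ) ^ (2 ^ (j + 1)) = (1 / 16) ^ (2 ^ j) := by
        rw [pow_succ 2 j, mul_comm, pow_mul]; norm_num
      have h8 : (1 / 256 : ℝ) ^ (2 ^ j) = (1 / 16) ^ (2 ^ j) * (1 / 16) ^ (2 ^ j) := by
        rw [← mul_pow]; norm_num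
      have h9 : (2 : ℝ) ^ (j + 3) * 2 * (1 / 16) ^ (2 ^ j) ≤ 1 := by
        have h10 : (1 / 16 : ℝ) ^ (2 ^ j) = (1 / 2) ^ (4 * 2 ^ j) := by
          rw [pow_mul]; norm_num
        have h11 : (2 : ℝ) ^ (j + 3) * 2 = 2 ^ (j + 4) := by ring
        rw [h10, h11]
        have h12 : (1 / 2 : ℝ) ^ (4 * 2 ^ j) ≤ (1 / 2) ^ (j + 4) := by
          apply pow_le_pow_of_le_one (by norm_num) (by norm_num)
          have : j < 2 ^ j := Nat.lt_two_pow_self
          omega
        calc (2 : ℝ) ^ (j + 4) * (1 / 2) ^ (4 * 2 ^ j) ≤ 2 ^ (j + 4) * (1 / 2) ^ (j + 4) :=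
              mul_le_mul_of_nonneg_left h12 (by positivity)
          _ = 1 := by rw [← mul_pow]; norm_num
      rw [h7]
      calc 2 ^ (j + 3) * ex p beta ≤ 2 ^ (j + 3) * (A * (1 / 256) ^ (2 ^ j)) :=
            mul_le_mul_of_nonneg_left h6 (by positivity)
        _ ≤ 2 ^ (j + 3) * (2 * (1 / 256) ^ (2 ^ j)) := by
            apply mul_le_mul_of_nonneg_left _ (by positivity)
            exact mul_le_mul_of_nonneg_right hA2 (by positivity)
        _ = (2 ^ (j + 3) * 2 * (1 / 16) ^ (2 ^ j)) * (1 / 16) ^ (2 ^ j) := by rw [h8]; ring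
        _ ≤ 1 * (1 / 16) ^ (2 ^ j) := mul_le_mul_of_nonneg_right h9 (by positivity)
        _ = _ := one_mul _
    · -- expected badness
      have h1 : ∀ W, (if beta W ≤ (1 / 2 : ℝ) ^ (j + 3) then b W else 0) ≤ b W := by
        intro W
        split_ifs
        · exact le_refl _
        · exact hb0 W
      refine (ex_mono hp0 hp1 h1).trans ?_
      simp only [hbdef]
      rw [ex_mul]
      have h2 := union_bd I wt hwt lab sel
        (fun u hu W => ⟨hselI u hu W, hselsub u hu W⟩) hr hp0 hp1 hA0 hFam.spread G hG0 (by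
          intro a ha W
          apply hGloc a ha
          ext x
          simp only [mem_inter, mem_sdiff]
          constructor
          · rintro ⟨h3, h4⟩
            exact ⟨⟨h3, fun h5 => (Finset.disjoint_left.1 (hlab a ha).2.2 h5) h4⟩, h4⟩
          · rintro ⟨⟨h3, -⟩, h4⟩
            exact ⟨h3, h4⟩)
      have h3 : ∀ a ∈ I, (p + r) ^ (lab a).card * ex p (G a) ≤
          (1025 * 65536) ^ (2 ^ (j + 1)) * (3 * (1 / 2) ^ (64 * 2 ^ (j + 1))) *
            (wt a * (1 + hb (j + 1) (jc a) (Bc a))) := by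
        intro a ha
        have hja := hjc a ha
        have h4 : ex p (G a) ≤ 3 * (1 / 2 : ℝ) ^ (2 ^ (jc a - 1)) *
            (1 + hb (j + 1) (jc a) (Bc a)) :=
          child_bd hja.1 hja.2 (scC a) (bC a) hp0 hp1 (hc5 a ha) (hc6 a ha)
        have h5 : (1 / 2 : ℝ) ^ (2 ^ (jc a - 1)) ≤ (1 / 2) ^ (64 * 2 ^ (j + 1)) := by
          apply pow_le_pow_of_le_one (by norm_num) (by norm_num)
          have h6 : 2 ^ (j + 1 + 6) ≤ 2 ^ (jc a - 1) :=
            Nat.pow_le_pow_right (by norm_num) (by omega)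
          have h7 : 2 ^ (j + 1 + 6) = 64 * 2 ^ (j + 1) := by rw [pow_add]; norm_num; ring
          omega
        have hhb : 0 ≤ hb (j + 1) (jc a) (Bc a) := hb_nonneg hja.2
        have h8 : (p + r) ^ (lab a).card ≤ 1025 ^ (2 ^ (j + 1)) * r ^ (lab a).card := by
          have e : p + r = 1025 * r := by rw [hp]; ring
          rw [e, mul_pow]
          apply mul_le_mul_of_nonneg_right _ (by positivity)
          exact pow_le_pow_right₀ (by norm_num) (hFam.size a ha).le
        have h9 : r ^ (lab a).card ≤ 65536 ^ (2 ^ (j + 1)) * wt a := by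
          have h10 := hFam.atom a ha
          have h11 : (65536 : ℝ) ^ (2 ^ (j + 1)) * (1 / 65536) ^ (2 ^ (j + 1)) = 1 := by
            rw [← mul_pow]; norm_num
          calc r ^ (lab a).card = (65536 : ℝ) ^ (2 ^ (j + 1)) *
                ((1 / 65536) ^ (2 ^ (j + 1)) * r ^ (lab a).card) := by
                rw [← mul_assoc, h11, one_mul]
            _ ≤ _ := mul_le_mul_of_nonneg_left h10 (by positivity)
        have h12 : (p + r) ^ (lab a).card ≤ (1025 * 65536) ^ (2 ^ (j + 1)) * wt a := by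
          rw [mul_pow, mul_assoc]
          exact h8.trans (mul_le_mul_of_nonneg_left h9 (by positivity))
        have h13 : ex p (G a) ≤ 3 * (1 / 2) ^ (64 * 2 ^ (j + 1)) *
            (1 + hb (j + 1) (jc a) (Bc a)) := by
          refine h4.trans ?_
          apply mul_le_mul_of_nonneg_right _ (by linarith)
          exact mul_le_mul_of_nonneg_left h5 (by norm_num)
        have h14 : 0 ≤ ex p (G a) := ex_nonneg hp0 hp1 (hG0 a ha)
        have hwa := hwt a ha
        calc (p + r) ^ (lab a).card * ex p (G a)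
            ≤ ((1025 * 65536) ^ (2 ^ (j + 1)) * wt a) * (3 * (1 / 2) ^ (64 * 2 ^ (j + 1)) *
                (1 + hb (j + 1) (jc a) (Bc a))) :=
              mul_le_mul h12 h13 h14 (by positivity)
          _ = _ := by ring
      have hS : ∑ a ∈ I, wt a * (1 + hb (j + 1) (jc a) (Bc a)) ≤ 2 * (1 + B) := by
        have e : ∑ a ∈ I, wt a * (1 + hb (j + 1) (jc a) (Bc a)) =
            ∑ a ∈ I, wt a + ∑ a ∈ I, wt a * hb (j + 1) (jc a) (Bc a) := by
          rw [← Finset.sum_add_distrib]
          exact Finset.sum_congr rfl fun a _ => by ring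
        have hm : ∑ a ∈ I, wt a ≤ 2 := by
          have := hFam.spread ∅
          simp only [empty_subset, filter_true, card_empty, pow_zero, mul_one] at this
          exact this.trans hA2
        rw [e]
        linarith
      have h20 : ex p (fun W => ∑ u ∈ I, wt u * G (sel u W) W) ≤
          2 * ((1025 * 65536) ^ (2 ^ (j + 1)) * (3 * (1 / 2) ^ (64 * 2 ^ (j + 1))) *
            (2 * (1 + B))) := by
        refine h2.trans ?_
        have h21 : ∑ a ∈ I, (p + r) ^ (lab a).card * ex p (G a) ≤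
            (1025 * 65536) ^ (2 ^ (j + 1)) * (3 * (1 / 2) ^ (64 * 2 ^ (j + 1))) *
            (2 * (1 + B)) := by
          refine (Finset.sum_le_sum h3).trans ?_
          rw [← Finset.mul_sum]
          exact mul_le_mul_of_nonneg_left hS (by positivity)
        have h22 : 0 ≤ ∑ a ∈ I, (p + r) ^ (lab a).card * ex p (G a) :=
          Finset.sum_nonneg fun a ha =>
            mul_nonneg (by positivity) (ex_nonneg hp0 hp1 (hG0 a ha))
        exact mul_le_mul hA2 h21 h22 (by norm_num)
      set n : ℕ := 2 ^ (j + 1) with hn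
      have hn1 : 1 ≤ n := Nat.one_le_two_pow
      have h23 : (1025 * 65536 : ℝ) ^ n * (1 / 2) ^ (64 * n) ≤ (1 / 2) ^ n * (1 / 64) := by
        have h24 : (1025 * 65536 : ℝ) ^ n ≤ (2 ^ 27) ^ n :=
          pow_le_pow_left₀ (by norm_num) (by norm_num) n
        have h25 : (1 / 2 : ℝ) ^ (64 * n) = (1 / 2 ^ 64) ^ n := by
          rw [pow_mul]; congr 1; norm_num
        have h26 : (1 / 2 ^ 36 : ℝ) ^ n ≤ 1 / 64 := by
          calc (1 / 2 ^ 36 : ℝ) ^ n ≤ (1 / 2 ^ 36) ^ 1 :=
                pow_le_pow_of_le_one (by norm_num) (by norm_num) hn1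
            _ ≤ 1 / 64 := by norm_num
        rw [h25]
        calc (1025 * 65536 : ℝ) ^ n * (1 / 2 ^ 64) ^ n ≤ (2 ^ 27) ^ n * (1 / 2 ^ 64) ^ n :=
              mul_le_mul_of_nonneg_right h24 (by positivity)
          _ = (1 / 2) ^ n * (1 / 2 ^ 36) ^ n := by
              rw [← mul_pow, ← mul_pow]; norm_num
          _ ≤ _ := mul_le_mul_of_nonneg_left h26 (by positivity)
      have h27 : (0 : ℝ) < 1 + B := by linarith
      calc 4 * ex p (fun W => ∑ u ∈ I, wt u * G (sel u W) W)
          ≤ 4 * (2 * ((1025 * 65536) ^ n * (3 * (1 / 2) ^ (64 * n)) * (2 * (1 + B)))) :=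
            mul_le_mul_of_nonneg_left h20 (by norm_num)
        _ = 48 * (1 + B) * ((1025 * 65536) ^ n * (1 / 2) ^ (64 * n)) := by ring
        _ ≤ 48 * (1 + B) * ((1 / 2) ^ n * (1 / 64)) :=
            mul_le_mul_of_nonneg_left h23 (by positivity)
        _ ≤ (1 / 2) ^ n * (1 + B) := by
            have : 0 < (1 / 2 : ℝ) ^ n * (1 + B) := by positivity
            nlinarith

end P064.H
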