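import Vale.Agent.P064.GBase

/-!
P064, module C2: the stabilizer bound.
-/

namespace P064

open Finset
open scoped Pointwise

section Stab

theorem smul_val {n : ℕ} (g : Equiv.Perm (Fin n)) (e : Edg n) : (g • e).1 = Sym2.map g e.1 := rfl

theorem st_bw_nonneg {X : Type*} [Fintype X] {p : ℝ} (hp0 : 0 ≤ p) (hp1 : p ≤ 1) (W : Finset X) :
    0 ≤ bw p W := by
  unfold bw
  have : 0 ≤ 1 - p := by linarith
  positivity

variable {n : ℕ} {V : Type*} (H : SimpleGraph V) (f : V ↪ Fin n)

/-- the subgraph of `H` spanned by a set of edges -/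
def FU (U : Finset (Edg n)) (hU : U ⊆ edg (H.map f)) : H.Subgraph where
  verts := {v | ∃ w, ∃ e ∈ U, e.1 = s(f v, f w)}
  Adj v w := ∃ e ∈ U, e.1 = s(f v, f w)
  adj_sub := by
    rintro v w ⟨e, he, h⟩
    have h1 := mem_edg.mp (hU he)
    rw [h, SimpleGraph.mem_edgeSet, SimpleGraph.map_adj_apply] at h1
    exact h1
  edge_vert := by
    rintro v w h
    exact ⟨w, h⟩
  symm := ⟨by
    rintro v w ⟨e, he, h⟩
    exact ⟨e, he, by rw [h, Sym2.eq_swap]⟩⟩

open Classical in
/-- the edges of a subgraph of a graph on `Fin n` -/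
noncomputable def sedg {G : SimpleGraph (Fin n)} (F : G.Subgraph) : Finset (Edg n) :=
  univ.filter fun e => e.1 ∈ F.edgeSet

theorem mem_sedg {G : SimpleGraph (Fin n)} {F : G.Subgraph} {e : Edg n} :
    e ∈ sedg F ↔ e.1 ∈ F.edgeSet := by
  classical
  unfold sedg
  rw [mem_filter]
  exact ⟨fun h => h.2, fun h => ⟨mem_univ _, h⟩⟩

theorem exists_edge (U : Finset (Edg n)) (hU : U ⊆ edg (H.map f)) {e : Edg n} (he : e ∈ U) :
    ∃ v w, e.1 = s(f v, f w) := by
  have h1 := mem_edg.mp (hU he)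
  revert h1
  obtain ⟨e, hd⟩ := e
  induction e using Sym2.ind with
  | _ a b =>
    intro h1
    simp only [SimpleGraph.mem_edgeSet] at h1
    rw [SimpleGraph.map_adj] at h1
    obtain ⟨v, w, -, h2, h3⟩ := h1
    exact ⟨v, w, by rw [h2, h3]⟩

theorem mem_smul_U {U : Finset (Edg n)} {g : Equiv.Perm (Fin n)} {e : Edg n} :
    e ∈ g • U ↔ ∃ e' ∈ U, g • e' = e := by
  rw [Finset.mem_smul_finset]

/-- the edges of a copy form a translate of `U` -/
theorem sedg_copy (U : Finset (Edg n)) (hU : U ⊆ edg (H.map f)) {G : SimpleGraph (Fin n)}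
    {F' : G.Subgraph} (φ : (FU H f U hU).coe ≃g F'.coe) :
    ∃ g : Equiv.Perm (Fin n), sedg F' = g • U := by
  classical
  -- the bijection between the vertices
  let e0 : {x : Fin n // ∃ v, ∃ _ : v ∈ (FU H f U hU).verts, f v = x} ≃
      {x : Fin n // x ∈ F'.verts} :=
    { toFun := fun x => ⟨(φ ⟨x.2.choose, x.2.choose_spec.choose⟩ : F'.verts).1,
        (φ ⟨x.2.choose, x.2.choose_spec.choose⟩ : F'.verts).2⟩
      invFun := fun y => ⟨f ((φ.symm ⟨y.1, y.2⟩ : (FU H f U hU).verts).1),
        (φ.symm ⟨y.1, y.2⟩ : (FU H f U hU).verts).1,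
        (φ.symm ⟨y.1, y.2⟩ : (FU H f U hU).verts).2, rfl⟩
      left_inv := by
        rintro ⟨x, hx⟩
        apply Subtype.ext
        simp only [Subtype.coe_eta, RelIso.symm_apply_apply]
        exact hx.choose_spec.choose_spec
      right_inv := by
        rintro ⟨y, hy⟩
        apply Subtype.ext
        simp only
        have h1 : ∀ h : ∃ v, ∃ _ : v ∈ (FU H f U hU).verts,
            f v = f ((φ.symm ⟨y, hy⟩ : (FU H f U hU).verts).1),
            (⟨h.choose, h.choose_spec.choose⟩ : (FU H f U hU).verts) = φ.symm ⟨y, hy⟩ := by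
          intro h
          apply Subtype.ext
          exact f.injective h.choose_spec.choose_spec
        rw [h1, RelIso.apply_symm_apply] }
  have he0 : ∀ (v : V) (hv : v ∈ (FU H f U hU).verts),
      (e0 ⟨f v, v, hv, rfl⟩).1 = (φ ⟨v, hv⟩ : F'.verts).1 := by
    intro v hv
    have h1 : ∀ h : ∃ w, ∃ _ : w ∈ (FU H f U hU).verts, f w = f v,
        (⟨h.choose, h.choose_spec.choose⟩ : (FU H f U hU).verts) = ⟨v, hv⟩ := by
      intro h
      apply Subtype.ext
      exact f.injective h.choose_spec.choose_spec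
    show (φ _ : F'.verts).1 = _
    rw [h1]
  let g : Equiv.Perm (Fin n) := e0.extendSubtype
  have hg : ∀ (v : V) (hv : v ∈ (FU H f U hU).verts), g (f v) = (φ ⟨v, hv⟩ : F'.verts).1 := by
    intro v hv
    show e0.extendSubtype (f v) = _
    rw [Equiv.extendSubtype_apply_of_mem e0 (f v) ⟨v, hv, rfl⟩, he0]
  refine ⟨g, ?_⟩
  ext e
  rw [mem_sedg, mem_smul_U]
  constructor
  · intro h
    obtain ⟨e, hd⟩ := e
    revert hd h
    induction e using Sym2.ind with
    | _ a b =>
      intro hd h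
      simp only [SimpleGraph.Subgraph.mem_edgeSet] at h
      have ha := F'.edge_vert h
      have hb := F'.edge_vert h.symm
      set v := (φ.symm ⟨a, ha⟩ : (FU H f U hU).verts) with hv
      set w := (φ.symm ⟨b, hb⟩ : (FU H f U hU).verts) with hw
      have h1 : (FU H f U hU).coe.Adj v w := by
        rw [← φ.map_adj_iff, hv, hw, RelIso.apply_symm_apply, RelIso.apply_symm_apply]
        exact h
      obtain ⟨e', he', h2⟩ : ∃ e ∈ U, e.1 = s(f v.1, f w.1) := h1
      refine ⟨e', he', ?_⟩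
      apply Subtype.ext
      rw [smul_val, h2, Sym2.map_mk, hg v.1 v.2, hg w.1 w.2]
      rw [show (⟨v.1, v.2⟩ : (FU H f U hU).verts) = v from rfl,
        show (⟨w.1, w.2⟩ : (FU H f U hU).verts) = w from rfl, hv, hw,
        RelIso.apply_symm_apply, RelIso.apply_symm_apply]
  · rintro ⟨e', he', rfl⟩
    obtain ⟨v, w, h1⟩ := exists_edge H f U hU he'
    have hadj : (FU H f U hU).Adj v w := ⟨e', he', h1⟩
    have hv := (FU H f U hU).edge_vert hadj
    have hw := (FU H f U hU).edge_vert hadj.symm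
    have h2 : F'.coe.Adj (φ ⟨v, hv⟩) (φ ⟨w, hw⟩) := by
      rw [φ.map_adj_iff]
      exact hadj
    rw [smul_val, h1, Sym2.map_mk, hg v hv, hg w hw, SimpleGraph.Subgraph.mem_edgeSet]
    exact h2

/-- the number of copies in `G` is at most the number of translates of `U` inside `G` -/
theorem copies_le_orbit (U : Finset (Edg n)) (hU : U ⊆ edg (H.map f)) (G : SimpleGraph (Fin n)) :
    copies G (FU H f U hU).coe ≤
      Nat.card {W : MulAction.orbit (Equiv.Perm (Fin n)) U // W.1 ⊆ edg G} := by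
  classical
  unfold copies
  have hmem : ∀ F' : {F' : G.Subgraph // Nonempty ((FU H f U hU).coe ≃g F'.coe)},
      sedg F'.1 ∈ MulAction.orbit (Equiv.Perm (Fin n)) U := by
    rintro ⟨F', ⟨φ⟩⟩
    obtain ⟨g, hg⟩ := sedg_copy H f U hU φ
    exact ⟨g, hg.symm⟩
  refine Nat.card_le_card_of_injective (fun F' => ⟨⟨sedg F'.1, hmem F'⟩, ?_⟩) ?_
  · intro e he
    rw [mem_edg]
    exact F'.1.edgeSet_subset (mem_sedg.mp he)
  · rintro ⟨F', ⟨φ⟩⟩ ⟨F'', ⟨ψ⟩⟩ h
    have h0 : sedg F' = sedg F'' := congrArg (fun x => x.1.1) h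
    have hAdj : ∀ a b, F'.Adj a b ↔ F''.Adj a b := by
      intro a b
      constructor
      · intro hab
        have hne : ¬ (s(a, b)).IsDiag := by
          rw [Sym2.mk_isDiag_iff]
          exact (F'.adj_sub hab).ne
        have h1 : (⟨s(a, b), hne⟩ : Edg n) ∈ sedg F' := mem_sedg.mpr hab
        rw [h0] at h1
        exact mem_sedg.mp h1
      · intro hab
        have hne : ¬ (s(a, b)).IsDiag := by
          rw [Sym2.mk_isDiag_iff]
          exact (F''.adj_sub hab).ne
        have h1 : (⟨s(a, b), hne⟩ : Edg n) ∈ sedg F'' := mem_sedg.mpr hab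
        rw [← h0] at h1
        exact mem_sedg.mp h1
    have hiso : ∀ {K : G.Subgraph} (χ : (FU H f U hU).coe ≃g K.coe) {a : Fin n},
        a ∈ K.verts → ∃ b, K.Adj a b := by
      intro K χ a ha
      obtain ⟨w, hw⟩ := (χ.symm ⟨a, ha⟩ : (FU H f U hU).verts).2
      have hadj : (FU H f U hU).Adj (χ.symm ⟨a, ha⟩ : (FU H f U hU).verts).1 w := hw
      have hw' := (FU H f U hU).edge_vert hadj.symm
      have h2 : K.coe.Adj (χ (χ.symm ⟨a, ha⟩)) (χ ⟨w, hw'⟩) := by
        rw [χ.map_adj_iff]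
        exact hadj
      rw [RelIso.apply_symm_apply] at h2
      exact ⟨_, h2⟩
    apply Subtype.ext
    show F' = F''
    apply SimpleGraph.Subgraph.ext
    · ext a
      constructor
      · intro ha
        obtain ⟨b, hb⟩ := hiso φ ha
        exact F''.edge_vert ((hAdj a b).mp hb)
      · intro ha
        obtain ⟨b, hb⟩ := hiso ψ ha
        exact F'.edge_vert ((hAdj a b).mpr hb)
    · funext a b
      exact propext (hAdj a b)

theorem card_of_mem_orbit (U W : Finset (Edg n))
    (hW : W ∈ MulAction.orbit (Equiv.Perm (Fin n)) U) : W.card = U.card := by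
  obtain ⟨g, rfl⟩ := hW
  exact Finset.card_smul_finset g U

/-- expectation of the number of copies -/
theorem expec_le (U : Finset (Edg n)) (hU : U ⊆ edg (H.map f)) {p : ℝ} (hp0 : 0 ≤ p)
    (hp1 : p ≤ 1) :
    expec n p (fun G => (copies G (FU H f U hU).coe : ℝ)) ≤
      Nat.card (MulAction.orbit (Equiv.Perm (Fin n)) U) * p ^ U.card := by
  classical
  unfold expec
  have h1 : ∀ G : SimpleGraph (Fin n), gnpWeight n p G * (copies G (FU H f U hU).coe : ℝ) ≤
      ∑ W : MulAction.orbit (Equiv.Perm (Fin n)) U, if W.1 ⊆ edg G then bw p (edg G) else 0 := by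
    intro G
    rw [gnpWeight_eq, ← Finset.sum_filter, Finset.sum_const, nsmul_eq_mul, mul_comm]
    refine mul_le_mul_of_nonneg_right ?_ (st_bw_nonneg hp0 hp1 _)
    have h2 := copies_le_orbit H f U hU G
    rw [Nat.card_eq_fintype_card, Fintype.card_subtype] at h2
    exact_mod_cast h2
  refine (Finset.sum_le_sum fun G _ => h1 G).trans ?_
  rw [Finset.sum_comm]
  have h3 : ∀ W : MulAction.orbit (Equiv.Perm (Fin n)) U,
      (∑ G : SimpleGraph (Fin n), if W.1 ⊆ edg G then bw p (edg G) else 0) = p ^ U.card := by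
    intro W
    rw [← card_of_mem_orbit U W.1 W.2, ← sum_bw_superset p W.1]
    refine Fintype.sum_equiv (edgEquiv n) _ _ fun G => ?_
    have e : (edgEquiv n) G = edg G := rfl
    rw [e]
  simp_rw [h3]
  rw [Finset.sum_const, Finset.card_univ, nsmul_eq_mul, Nat.card_eq_fintype_card]

/-- `spr U U` is the inverse of the size of the orbit -/
theorem spr_eq (U : Finset (Edg n)) :
    spr (Equiv.Perm (Fin n)) U U * Nat.card (MulAction.orbit (Equiv.Perm (Fin n)) U) = 1 := by
  classical
  have h1 := MulAction.card_orbit_mul_card_stabilizer_eq_card_group (Equiv.Perm (Fin n)) U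
  have h2 : cnt (Equiv.Perm (Fin n)) U U =
      Fintype.card (MulAction.stabilizer (Equiv.Perm (Fin n)) U) := by
    unfold cnt
    rw [← Fintype.card_subtype]
    refine Fintype.card_congr (Equiv.subtypeEquivRight fun g => ?_)
    rw [MulAction.mem_stabilizer_iff]
    constructor
    · intro h
      exact Finset.eq_of_subset_of_card_le h (by rw [Finset.card_smul_finset])
    · intro h
      rw [h]
  unfold spr
  rw [h2, ← h1, Nat.card_eq_fintype_card]
  have h3 : (Fintype.card (MulAction.orbit (Equiv.Perm (Fin n)) U) : ℝ) ≠ 0 := by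
    have : Nonempty (MulAction.orbit (Equiv.Perm (Fin n)) U) :=
      ⟨⟨U, MulAction.mem_orbit_self U⟩⟩
    exact_mod_cast Fintype.card_ne_zero
  have h4 : (Fintype.card (MulAction.stabilizer (Equiv.Perm (Fin n)) U) : ℝ) ≠ 0 := by
    exact_mod_cast Fintype.card_ne_zero
  push_cast
  field_simp

theorem stab_le {n : ℕ} {V : Type*} [Fintype V] (H : SimpleGraph V) (f : V ↪ Fin n)
    {p : ℝ} (hp : p ∈ pESet n H) (U : Finset (Edg n)) (hU : U ⊆ edg (H.map f))
    (_hne : U.Nonempty) :
    spr (Equiv.Perm (Fin n)) U U ≤ 2 * p ^ U.card := by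
  obtain ⟨hp0, hp1, hp2⟩ := hp
  have h1 := (hp2 (FU H f U hU)).trans (expec_le H f U hU hp0 hp1)
  have h2 := spr_eq U
  set s := spr (Equiv.Perm (Fin n)) U U with hs
  set c : ℝ := (Nat.card (MulAction.orbit (Equiv.Perm (Fin n)) U) : ℝ) with hc
  have hs0 : 0 ≤ s := by
    rw [hs]
    unfold spr
    positivity
  have h3 : s * (1 / 2) ≤ s * (c * p ^ U.card) := mul_le_mul_of_nonneg_left h1 hs0
  have h4 : s * (c * p ^ U.card) = p ^ U.card := by rw [← mul_assoc, h2, one_mul]
  linarith

end Stab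

end P064
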