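import Vale.Agent.P064.Basic

/-!
# P064, module B : spread families are covered by a random set of larger density
-/

namespace P064.Thr

open Finset P064

variable {X : Type*} [Fintype X]

theorem bw_nonneg {p : ℝ} (h0 : 0 ≤ p) (h1 : p ≤ 1) (W : Finset X) : 0 ≤ bw p W :=
  mul_nonneg (pow_nonneg h0 _) (pow_nonneg (by linarith) _)

theorem sum_bw (p : ℝ) : ∑ W : Finset X, bw p W = 1 := by
  have h := Finset.sum_pow_mul_eq_add_pow p (1 - p) (univ : Finset X)
  rw [Finset.powerset_univ] at h
  unfold bw
  rw [Finset.card_univ] at h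
  rw [h]
  norm_num

open Classical in
theorem sum_union_one (r : ℝ) (V W : Finset X) :
    (∑ W2 : Finset X, if V ∪ W2 = W then bw r W2 else 0) =
      if V ⊆ W then r ^ (W.card - V.card) * (1 - r) ^ (Fintype.card X - W.card) else 0 := by
  by_cases hV : V ⊆ W
  · rw [if_pos hV, ← Finset.sum_filter]
    have hVW : V.card ≤ W.card := Finset.card_le_card hV
    have hWX : W.card ≤ Fintype.card X := Finset.card_le_univ W
    have h1 : ∑ W2 ∈ univ.filter (fun W2 => V ∪ W2 = W), bw r W2 =
        ∑ S ∈ V.powerset, r ^ (W.card - V.card) * (1 - r) ^ (Fintype.card X - W.card) *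
          (r ^ S.card * (1 - r) ^ (V.card - S.card)) := by
      refine Finset.sum_nbij' (fun W2 => W2 ∩ V) (fun S => (W \ V) ∪ S) ?_ ?_ ?_ ?_ ?_
      · intro W2 _
        exact Finset.mem_powerset.mpr Finset.inter_subset_right
      · intro S hS
        rw [Finset.mem_powerset] at hS
        rw [Finset.mem_filter]
        refine ⟨mem_univ _, ?_⟩
        ext x
        simp only [mem_union, mem_sdiff]
        constructor
        · rintro (h | h | h)
          · exact hV h
          · exact h.1
          · exact hV (hS h)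
        · intro h
          by_cases hx : x ∈ V
          · exact Or.inl hx
          · exact Or.inr (Or.inl ⟨h, hx⟩)
      · intro W2 hW2
        rw [Finset.mem_filter] at hW2
        rw [← hW2.2]
        ext x
        simp only [mem_union, mem_sdiff, mem_inter]
        tauto
      · intro S hS
        rw [Finset.mem_powerset] at hS
        ext x
        simp only [mem_union, mem_sdiff, mem_inter]
        constructor
        · rintro ⟨h | h, h'⟩
          · exact absurd h' h.2
          · exact h
        · exact fun h => ⟨Or.inr h, hS h⟩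
      · intro W2 hW2
        rw [Finset.mem_filter] at hW2
        have h2 : (V ∪ W2).card = W.card := by rw [hW2.2]
        have h3 := Finset.card_union_add_card_inter V W2
        have h4 : (W2 ∩ V).card = (V ∩ W2).card := by rw [Finset.inter_comm]
        have h5 : (W2 ∩ V).card ≤ V.card := Finset.card_le_card Finset.inter_subset_right
        have h6 : W2.card = (W.card - V.card) + (W2 ∩ V).card := by omega
        have h7 : Fintype.card X - W2.card =
          (Fintype.card X - W.card) + (V.card - (W2 ∩ V).card) := by omega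
        unfold bw
        rw [h7, pow_add]
        nth_rewrite 1 [h6]
        rw [pow_add]
        ring
    rw [h1, ← Finset.mul_sum, Finset.sum_pow_mul_eq_add_pow]
    norm_num
  · rw [if_neg hV]
    refine Finset.sum_eq_zero fun W2 _ => if_neg fun h => hV ?_
    rw [← h]
    exact Finset.subset_union_left

open Classical in
theorem sum_union (p r : ℝ) (F : Finset X → ℝ) :
    ∑ W1 : Finset X, ∑ W2 : Finset X, bw p W1 * bw r W2 * F (W1 ∪ W2) =
      ∑ W : Finset X, bw (p + r - p * r) W * F W := by
  have h1 : ∀ W1 : Finset X, ∑ W2 : Finset X, bw p W1 * bw r W2 * F (W1 ∪ W2) =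
      ∑ W : Finset X, bw p W1 * F W *
        ∑ W2 : Finset X, (if W1 ∪ W2 = W then bw r W2 else 0) := by
    intro W1
    simp_rw [Finset.mul_sum]
    rw [Finset.sum_comm]
    refine Finset.sum_congr rfl fun W2 _ => ?_
    rw [Finset.sum_eq_single (W1 ∪ W2)]
    · rw [if_pos rfl]
      ring
    · intro W _ hW
      rw [if_neg fun h => hW h.symm, mul_zero]
    · exact fun h => absurd (mem_univ _) h
  simp_rw [h1, sum_union_one]
  rw [Finset.sum_comm]
  refine Finset.sum_congr rfl fun W _ => ?_
  have hWX : W.card ≤ Fintype.card X := Finset.card_le_univ W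
  have h2 : ∀ W1 : Finset X, bw p W1 * F W * (if W1 ⊆ W then r ^ (W.card - W1.card) *
      (1 - r) ^ (Fintype.card X - W.card) else 0) =
      if W1 ⊆ W then F W * (((1 - p) * (1 - r)) ^ (Fintype.card X - W.card)) *
        (p ^ W1.card * ((1 - p) * r) ^ (W.card - W1.card)) else 0 := by
    intro W1
    by_cases h : W1 ⊆ W
    · rw [if_pos h, if_pos h]
      have h3 : W1.card ≤ W.card := Finset.card_le_card h
      have h4 : Fintype.card X - W1.card =
        (Fintype.card X - W.card) + (W.card - W1.card) := by omega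
      unfold bw
      rw [h4, pow_add, mul_pow, mul_pow]
      ring
    · rw [if_neg h, if_neg h, mul_zero]
  simp_rw [h2]
  rw [← Finset.sum_filter]
  have h3 : (univ : Finset (Finset X)).filter (fun W1 => W1 ⊆ W) = W.powerset := by
    ext S
    simp
  rw [h3, ← Finset.mul_sum, Finset.sum_pow_mul_eq_add_pow]
  unfold bw
  have h4 : p + (1 - p) * r = p + r - p * r := by ring
  have h5 : (1 - p) * (1 - r) = 1 - (p + r - p * r) := by ring
  rw [h4, h5]
  ring

end P064.Thr

namespace P064

open Finset

open Classical in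
theorem bw_mono {X : Type*} [Fintype X] (E : Finset X → Prop)
    (hE : ∀ S T, S ⊆ T → E S → E T) {p q : ℝ} (hp : 0 ≤ p) (hpq : p ≤ q) (hq : q ≤ 1) :
    (∑ W : Finset X, if E W then bw p W else 0) ≤
      ∑ W : Finset X, if E W then bw q W else 0 := by
  by_cases h1 : p = 1
  · have h2 : q = 1 := by linarith
    rw [h1, h2]
  · have hp1 : 0 < 1 - p := by
      have : p < 1 := lt_of_le_of_ne (hpq.trans hq) h1
      linarith
    set r : ℝ := (q - p) / (1 - p) with hr
    have hr0 : 0 ≤ r := div_nonneg (by linarith) hp1.le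
    have hr1 : r ≤ 1 := (div_le_one hp1).mpr (by linarith)
    have hqr : p + r - p * r = q := by
      have : r * (1 - p) = q - p := div_mul_cancel₀ _ hp1.ne'
      linarith
    have h2 := Thr.sum_union p r fun W => if E W then (1 : ℝ) else 0
    rw [hqr] at h2
    have h3 : (∑ W : Finset X, if E W then bw q W else 0) =
        ∑ W : Finset X, bw q W * if E W then (1 : ℝ) else 0 :=
      Finset.sum_congr rfl fun W _ => by split_ifs <;> simp
    rw [h3, ← h2]
    refine Finset.sum_le_sum fun W _ => ?_
    have h4 : (if E W then bw p W else 0) =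
        ∑ W2 : Finset X, bw p W * bw r W2 * if E W then (1 : ℝ) else 0 := by
      rw [← Finset.sum_mul, ← Finset.mul_sum, Thr.sum_bw]
      split_ifs <;> simp
    rw [h4]
    refine Finset.sum_le_sum fun W2 _ => mul_le_mul_of_nonneg_left ?_
      (mul_nonneg (Thr.bw_nonneg hp (hpq.trans hq) W) (Thr.bw_nonneg hr0 hr1 W2))
    by_cases hW : E W
    · rw [if_pos hW, if_pos (hE _ _ Finset.subset_union_left hW)]
    · rw [if_neg hW]
      split_ifs <;> norm_num

end P064

namespace P064.Thr

open Finset P064

variable {X : Type*} [Fintype X]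

open Classical in
theorem bw_sdiff_le {p : ℝ} (h0 : 0 < p) (h1 : p ≤ 1) {W S : Finset X} (h : Disjoint W S) :
    bw p W ≤ (p ^ S.card)⁻¹ * bw p (W ∪ S) := by
  have hc : (W ∪ S).card = W.card + S.card := Finset.card_union_of_disjoint h
  have hX : (W ∪ S).card ≤ Fintype.card X := Finset.card_le_univ _
  unfold bw
  rw [hc, pow_add]
  have h2 : (p ^ S.card)⁻¹ * (p ^ W.card * p ^ S.card * (1 - p) ^ (Fintype.card X -
      (W.card + S.card))) = p ^ W.card * (1 - p) ^ (Fintype.card X - (W.card + S.card)) := by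
    field_simp
  rw [h2]
  refine mul_le_mul_of_nonneg_left ?_ (by positivity)
  exact pow_le_pow_of_le_one (by linarith) (by linarith) (by omega)

open Classical in
/-- the number of bad pairs, weighted -/
theorem bad_le {ι : Type*} (I : Finset ι) (T : ι → Finset X) {A lam p : ℝ} (hA : 0 < A)
    (hl : 0 < lam) (hp : p = 16 * lam) (hp1 : p ≤ 1)
    (hspr : ∀ S : Finset X, ((I.filter fun i => S ⊆ T i).card : ℝ) ≤ lam ^ S.card * A)
    (m : ℕ) (hm : ∀ i ∈ I, (T i).card < 2 * m) (J : Finset X → ι → ι)
    (hJ : ∀ W, ∀ i ∈ I, J W i ∈ I ∧ T (J W i) ⊆ W ∪ T i ∧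
      ∀ j ∈ I, T j ⊆ W ∪ T i → (T (J W i) \ W).card ≤ (T j \ W).card) :
    ∑ W : Finset X, bw p W * ((I.filter fun i => m ≤ (T (J W i) \ W).card).card : ℝ) ≤
      (1 / 4) ^ m * A := by
  have hp0 : 0 < p := by
    rw [hp]
    linarith
  -- the large subsets of a chosen member inside `Z`
  let Ss : Finset X → Finset (Finset X) := fun Z =>
    if h : ∃ j, j ∈ I ∧ T j ⊆ Z then (T h.choose).powerset.filter fun S => m ≤ S.card else ∅
  have hSs : ∀ W, ∀ i ∈ I, m ≤ (T (J W i) \ W).card →
      T (J W i) \ W ∈ Ss (W ∪ (T (J W i) \ W)) := by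
    intro W i hi hmi
    obtain ⟨h1, h2, h3⟩ := hJ W i hi
    have hsub : T (J W i) ⊆ W ∪ (T (J W i) \ W) := by
      intro x hx
      rw [Finset.mem_union, Finset.mem_sdiff]
      by_cases hxW : x ∈ W
      · exact Or.inl hxW
      · exact Or.inr ⟨hx, hxW⟩
    have hex : ∃ j, j ∈ I ∧ T j ⊆ W ∪ (T (J W i) \ W) := ⟨_, h1, hsub⟩
    have hSeq : Ss (W ∪ (T (J W i) \ W)) =
        (T hex.choose).powerset.filter fun S => m ≤ S.card := dif_pos hex
    rw [hSeq, Finset.mem_filter, Finset.mem_powerset]
    refine ⟨?_, hmi⟩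
    obtain ⟨h4, h5⟩ := hex.choose_spec
    set j0 := hex.choose with hj0
    have h6 : T j0 ⊆ W ∪ T i := by
      intro x hx
      have := h5 hx
      rw [Finset.mem_union, Finset.mem_sdiff] at this
      rcases this with h | h
      · exact Finset.mem_union_left _ h
      · exact h2 h.1
    have h7 := h3 j0 h4 h6
    have h8 : T j0 \ W ⊆ T (J W i) \ W := by
      intro x hx
      rw [Finset.mem_sdiff] at hx
      have := h5 hx.1
      rw [Finset.mem_union] at this
      exact this.resolve_left hx.2
    have h9 : T j0 \ W = T (J W i) \ W := Finset.eq_of_subset_of_card_le h8 h7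
    rw [← h9]
    exact Finset.sdiff_subset
  have hScard : ∀ Z, ((Ss Z).card : ℝ) ≤ 4 ^ m := by
    intro Z
    by_cases h : ∃ j, j ∈ I ∧ T j ⊆ Z
    · have hSeq : Ss Z = (T h.choose).powerset.filter fun S => m ≤ S.card := dif_pos h
      have h1 : (Ss Z).card ≤ 2 ^ (T h.choose).card := by
        rw [hSeq, ← Finset.card_powerset]
        exact Finset.card_filter_le _ _
      have h2 : (2 : ℕ) ^ (T h.choose).card ≤ 4 ^ m := by
        have h3 : (4 : ℕ) ^ m = 2 ^ (2 * m) := by
          rw [pow_mul]
          norm_num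
        rw [h3]
        exact Nat.pow_le_pow_right (by norm_num) (hm _ h.choose_spec.1).le
      exact_mod_cast h1.trans h2
    · have hSeq : Ss Z = ∅ := dif_neg h
      rw [hSeq]
      simp
  have hSm : ∀ Z, ∀ S ∈ Ss Z, m ≤ S.card := by
    intro Z S hS
    by_cases h : ∃ j, j ∈ I ∧ T j ⊆ Z
    · have hSeq : Ss Z = (T h.choose).powerset.filter fun S => m ≤ S.card := dif_pos h
      rw [hSeq, Finset.mem_filter] at hS
      exact hS.2
    · have hSeq : Ss Z = ∅ := dif_neg h
      rw [hSeq] at hS
      exact absurd hS (Finset.notMem_empty _)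
  -- for a fixed index
  have hone : ∀ i ∈ I, ∑ W : Finset X, (if m ≤ (T (J W i) \ W).card then bw p W else 0) ≤
      ∑ Z : Finset X, ∑ S ∈ Ss Z, if S ⊆ T i then (p ^ S.card)⁻¹ * bw p Z else 0 := by
    intro i hi
    rw [Finset.sum_sigma' univ Ss, ← Finset.sum_filter, ← Finset.sum_filter]
    have hinj : Set.InjOn (fun W : Finset X =>
        (⟨W ∪ (T (J W i) \ W), T (J W i) \ W⟩ : Sigma fun _ : Finset X => Finset X))
        (univ.filter fun W => m ≤ (T (J W i) \ W).card : Finset (Finset X)) := by
      intro W _ W' _ h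
      simp only [Sigma.mk.injEq, heq_eq_eq] at h
      have h1 : ∀ V : Finset X, (V ∪ (T (J V i) \ V)) \ (T (J V i) \ V) = V := by
        intro V
        ext x
        simp only [mem_sdiff, mem_union]
        tauto
      rw [← h1 W, ← h1 W', h.1, h.2]
    calc ∑ W ∈ univ.filter (fun W => m ≤ (T (J W i) \ W).card), bw p W ≤
        ∑ W ∈ univ.filter (fun W => m ≤ (T (J W i) \ W).card),
          (p ^ (T (J W i) \ W).card)⁻¹ * bw p (W ∪ (T (J W i) \ W)) :=
          Finset.sum_le_sum fun W _ => bw_sdiff_le hp0 hp1 disjoint_sdiff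
      _ = ∑ x ∈ (univ.filter fun W => m ≤ (T (J W i) \ W).card).image (fun W : Finset X =>
            (⟨W ∪ (T (J W i) \ W), T (J W i) \ W⟩ : Sigma fun _ : Finset X => Finset X)),
          (p ^ x.2.card)⁻¹ * bw p x.1 := by
          rw [Finset.sum_image hinj]
      _ ≤ _ := by
          refine Finset.sum_le_sum_of_subset_of_nonneg ?_ fun x _ _ => ?_
          · intro x hx
            rw [Finset.mem_image] at hx
            obtain ⟨W, hW, rfl⟩ := hx
            rw [Finset.mem_filter] at hW
            rw [Finset.mem_filter, Finset.mem_sigma]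
            refine ⟨⟨mem_univ _, hSs W i hi hW.2⟩, ?_⟩
            intro y hy
            rw [Finset.mem_sdiff] at hy
            have := (hJ W i hi).2.1 hy.1
            rw [Finset.mem_union] at this
            exact this.resolve_left hy.2
          · exact mul_nonneg (by positivity) (bw_nonneg hp0.le hp1 _)
  calc ∑ W : Finset X, bw p W * ((I.filter fun i => m ≤ (T (J W i) \ W).card).card : ℝ) =
      ∑ i ∈ I, ∑ W : Finset X, (if m ≤ (T (J W i) \ W).card then bw p W else 0) := by
        rw [Finset.sum_comm]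
        refine Finset.sum_congr rfl fun W _ => ?_
        rw [← Finset.sum_filter, Finset.sum_const, nsmul_eq_mul, mul_comm]
    _ ≤ ∑ i ∈ I, ∑ Z : Finset X, ∑ S ∈ Ss Z,
          (if S ⊆ T i then (p ^ S.card)⁻¹ * bw p Z else 0) := Finset.sum_le_sum hone
    _ = ∑ Z : Finset X, ∑ S ∈ Ss Z, ((I.filter fun i => S ⊆ T i).card : ℝ) *
          ((p ^ S.card)⁻¹ * bw p Z) := by
        rw [Finset.sum_comm]
        refine Finset.sum_congr rfl fun Z _ => ?_
        rw [Finset.sum_comm]
        refine Finset.sum_congr rfl fun S _ => ?_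
        rw [← Finset.sum_filter, Finset.sum_const, nsmul_eq_mul]
    _ ≤ ∑ Z : Finset X, ∑ S ∈ Ss Z, ((1 / 16) ^ m * A) * bw p Z := by
        refine Finset.sum_le_sum fun Z _ => Finset.sum_le_sum fun S hS => ?_
        have hbw := bw_nonneg (X := X) hp0.le hp1 Z
        rw [← mul_assoc]
        refine mul_le_mul_of_nonneg_right ?_ hbw
        have h1 : ((I.filter fun i => S ⊆ T i).card : ℝ) * (p ^ S.card)⁻¹ ≤
            (lam ^ S.card * A) * (p ^ S.card)⁻¹ :=
          mul_le_mul_of_nonneg_right (hspr S) (by positivity)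
        refine h1.trans ?_
        have h2 : (lam ^ S.card * A) * (p ^ S.card)⁻¹ = (1 / 16) ^ S.card * A := by
          rw [hp, mul_pow, mul_inv, one_div, inv_pow]
          have : lam ^ S.card ≠ 0 := by positivity
          field_simp
        rw [h2]
        refine mul_le_mul_of_nonneg_right ?_ hA.le
        exact pow_le_pow_of_le_one (by norm_num) (by norm_num) (hSm Z S hS)
    _ = ∑ Z : Finset X, ((Ss Z).card : ℝ) * (((1 / 16) ^ m * A) * bw p Z) := by
        refine Finset.sum_congr rfl fun Z _ => ?_
        rw [Finset.sum_const, nsmul_eq_mul]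
    _ ≤ ∑ Z : Finset X, (4 : ℝ) ^ m * (((1 / 16) ^ m * A) * bw p Z) := by
        refine Finset.sum_le_sum fun Z _ => mul_le_mul_of_nonneg_right (hScard Z) ?_
        exact mul_nonneg (by positivity) (bw_nonneg hp0.le hp1 Z)
    _ = (1 / 4) ^ m * A := by
        rw [← Finset.mul_sum, ← Finset.mul_sum, sum_bw, mul_one, ← mul_assoc, ← mul_pow]
        norm_num

end P064.Thr

namespace P064

open Finset

open Classical in
theorem spread_threshold {X ι : Type*} [Fintype X] (I : Finset ι)
    (T : ι → Finset X) (A lam : ℝ) (hA : 0 < A) (hl : 0 < lam) (hl1 : 16 * lam ≤ 1)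
    (hspr : ∀ S : Finset X, ((I.filter fun i => S ⊆ T i).card : ℝ) ≤ lam ^ S.card * A)
    (k : ℕ) (hk : ∀ i ∈ I, (T i).card < 2 ^ k) :
    (I.card : ℝ) / A - ∑ j ∈ range k, (1 / 4 : ℝ) ^ (2 ^ j) ≤
      ∑ W : Finset X, if ∃ i ∈ I, T i ⊆ W then bw (1 - (1 - 16 * lam) ^ k) W else 0 := by
  induction k generalizing I T with
  | zero =>
    rw [Finset.range_zero, Finset.sum_empty, sub_zero]
    rcases I.eq_empty_or_nonempty with rfl | ⟨i, hi⟩
    · simp
    · have h1 : ∀ W : Finset X, (∃ i ∈ I, T i ⊆ W) := fun W => by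
        have h2 := hk i hi
        rw [pow_zero, Nat.lt_one_iff, Finset.card_eq_zero] at h2
        exact ⟨i, hi, by rw [h2]; exact Finset.empty_subset _⟩
      have h3 : (∑ W : Finset X, if ∃ i ∈ I, T i ⊆ W then
          bw (1 - (1 - 16 * lam) ^ 0) W else 0) =
          ∑ W : Finset X, bw (1 - (1 - 16 * lam) ^ 0) W :=
        Finset.sum_congr rfl fun W _ => if_pos (h1 W)
      rw [h3, Thr.sum_bw, div_le_one hA]
      have h4 := hspr ∅
      rw [Finset.card_empty, pow_zero, one_mul] at h4
      have h5 : I.filter (fun i => (∅ : Finset X) ⊆ T i) = I :=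
        Finset.filter_true_of_mem fun i _ => Finset.empty_subset _
      rwa [h5] at h4
  | succ k ih =>
    have hp0 : 0 < 16 * lam := by linarith
    have hex : ∀ (W : Finset X) (i : ι), ∃ j, i ∈ I → j ∈ I ∧ T j ⊆ W ∪ T i ∧
        ∀ j' ∈ I, T j' ⊆ W ∪ T i → (T j \ W).card ≤ (T j' \ W).card := by
      intro W i
      by_cases hi : i ∈ I
      · obtain ⟨j, hj, hmin⟩ := Finset.exists_min_image (I.filter fun j => T j ⊆ W ∪ T i)
          (fun j => (T j \ W).card)
          ⟨i, Finset.mem_filter.mpr ⟨hi, Finset.subset_union_right⟩⟩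
        rw [Finset.mem_filter] at hj
        exact ⟨j, fun _ => ⟨hj.1, hj.2, fun j' h1 h2 =>
          hmin j' (Finset.mem_filter.mpr ⟨h1, h2⟩)⟩⟩
      · exact ⟨i, fun h => absurd h hi⟩
    choose J hJ using hex
    have hbad := Thr.bad_le I T hA hl rfl hl1 hspr (2 ^ k)
      (fun i hi => by
        have := hk i hi
        rw [pow_succ] at this
        omega) J (fun W i hi => hJ W i hi)
    set r : ℝ := 1 - (1 - 16 * lam) ^ k with hr
    have hq0 : 0 ≤ (1 - 16 * lam) ^ k := pow_nonneg (by linarith) k
    have hq1 : (1 - 16 * lam) ^ k ≤ 1 := pow_le_one₀ (by linarith) (by linarith)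
    have hr0 : 0 ≤ r := by linarith
    have hr1 : r ≤ 1 := by linarith
    -- the induction hypothesis for the good indices
    have hgood : ∀ W : Finset X,
        ((I.filter fun i => (T (J W i) \ W).card < 2 ^ k).card : ℝ) / A -
          ∑ j ∈ range k, (1 / 4 : ℝ) ^ (2 ^ j) ≤
        ∑ W' : Finset X, if ∃ i ∈ I, T i ⊆ W ∪ W' then bw r W' else 0 := by
      intro W
      refine (ih (I.filter fun i => (T (J W i) \ W).card < 2 ^ k) (fun i => T (J W i) \ W)
        ?_ ?_).trans ?_
      · intro S
        refine le_trans ?_ (hspr S)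
        have : ((I.filter fun i => (T (J W i) \ W).card < 2 ^ k).filter
            fun i => S ⊆ T (J W i) \ W) ⊆ I.filter fun i => S ⊆ T i := by
          intro i hi
          rw [Finset.mem_filter, Finset.mem_filter] at hi
          rw [Finset.mem_filter]
          refine ⟨hi.1.1, fun x hx => ?_⟩
          have h1 := hi.2 hx
          rw [Finset.mem_sdiff] at h1
          have h2 := (hJ W i hi.1.1).2.1 h1.1
          rw [Finset.mem_union] at h2
          exact h2.resolve_left h1.2
        exact_mod_cast Finset.card_le_card this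
      · intro i hi
        exact (Finset.mem_filter.mp hi).2
      · refine Finset.sum_le_sum fun W' _ => ?_
        by_cases h : ∃ i ∈ I.filter (fun i => (T (J W i) \ W).card < 2 ^ k),
            T (J W i) \ W ⊆ W'
        · rw [if_pos h, if_pos]
          obtain ⟨i, hi, hi2⟩ := h
          have hi1 := (Finset.mem_filter.mp hi).1
          refine ⟨J W i, (hJ W i hi1).1, fun x hx => ?_⟩
          rw [Finset.mem_union]
          by_cases hxW : x ∈ W
          · exact Or.inl hxW
          · exact Or.inr (hi2 (Finset.mem_sdiff.mpr ⟨hx, hxW⟩))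
        · rw [if_neg h]
          split_ifs
          · exact Thr.bw_nonneg hr0 hr1 W'
          · exact le_rfl
    -- average over `W`
    have hsum : ∑ W : Finset X, bw (16 * lam) W *
        (((I.filter fun i => (T (J W i) \ W).card < 2 ^ k).card : ℝ) / A -
          ∑ j ∈ range k, (1 / 4 : ℝ) ^ (2 ^ j)) ≤
        ∑ W : Finset X, bw (16 * lam) W *
          ∑ W' : Finset X, if ∃ i ∈ I, T i ⊆ W ∪ W' then bw r W' else 0 :=
      Finset.sum_le_sum fun W _ => mul_le_mul_of_nonneg_left (hgood W)
        (Thr.bw_nonneg hp0.le hl1 W)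
    have hrhs : ∑ W : Finset X, bw (16 * lam) W *
          (∑ W' : Finset X, if ∃ i ∈ I, T i ⊆ W ∪ W' then bw r W' else 0) =
        ∑ W : Finset X, if ∃ i ∈ I, T i ⊆ W then
          bw (1 - (1 - 16 * lam) ^ (k + 1)) W else 0 := by
      have h1 := Thr.sum_union (16 * lam) r
        fun W : Finset X => if ∃ i ∈ I, T i ⊆ W then (1 : ℝ) else 0
      have h2 : 16 * lam + r - 16 * lam * r = 1 - (1 - 16 * lam) ^ (k + 1) := by
        rw [hr, pow_succ]
        ring
      rw [h2] at h1
      have h3 : ∑ W : Finset X, bw (16 * lam) W *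
          (∑ W' : Finset X, if ∃ i ∈ I, T i ⊆ W ∪ W' then bw r W' else 0) =
          ∑ W1 : Finset X, ∑ W2 : Finset X, bw (16 * lam) W1 * bw r W2 *
            (if ∃ i ∈ I, T i ⊆ W1 ∪ W2 then (1 : ℝ) else 0) := by
        refine Finset.sum_congr rfl fun W _ => ?_
        rw [Finset.mul_sum]
        refine Finset.sum_congr rfl fun W' _ => ?_
        split_ifs
        · rw [mul_one]
        · rw [mul_zero, mul_zero]
      rw [h3, h1]
      refine Finset.sum_congr rfl fun W _ => ?_
      split_ifs
      · rw [mul_one]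
      · rw [mul_zero]
    rw [hrhs] at hsum
    refine le_trans ?_ hsum
    have hcount : ∀ W : Finset X,
        ((I.filter fun i => (T (J W i) \ W).card < 2 ^ k).card : ℝ) =
          I.card - ((I.filter fun i => 2 ^ k ≤ (T (J W i) \ W).card).card : ℝ) := by
      intro W
      have h1 := Finset.card_filter_add_card_filter_not (s := I)
        (fun i => (T (J W i) \ W).card < 2 ^ k)
      simp only [not_lt] at h1
      have h2 : (((I.filter fun i => (T (J W i) \ W).card < 2 ^ k).card +
        (I.filter fun i => 2 ^ k ≤ (T (J W i) \ W).card).card : ℕ) : ℝ) = I.card := by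
        rw [h1]
      push_cast at h2
      linarith
    have hlhs : ∑ W : Finset X, bw (16 * lam) W *
        (((I.filter fun i => (T (J W i) \ W).card < 2 ^ k).card : ℝ) / A -
          ∑ j ∈ range k, (1 / 4 : ℝ) ^ (2 ^ j)) =
        (I.card : ℝ) / A - ∑ j ∈ range k, (1 / 4 : ℝ) ^ (2 ^ j) -
          (∑ W : Finset X, bw (16 * lam) W *
            ((I.filter fun i => 2 ^ k ≤ (T (J W i) \ W).card).card : ℝ)) / A := by
      have h1 : ∀ W : Finset X, bw (16 * lam) W *
          (((I.filter fun i => (T (J W i) \ W).card < 2 ^ k).card : ℝ) / A -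
            ∑ j ∈ range k, (1 / 4 : ℝ) ^ (2 ^ j)) =
          bw (16 * lam) W * ((I.card : ℝ) / A - ∑ j ∈ range k, (1 / 4 : ℝ) ^ (2 ^ j)) -
            bw (16 * lam) W *
              ((I.filter fun i => 2 ^ k ≤ (T (J W i) \ W).card).card : ℝ) / A := by
        intro W
        rw [hcount W]
        ring
      simp_rw [h1]
      rw [Finset.sum_sub_distrib, ← Finset.sum_mul, Thr.sum_bw, one_mul, Finset.sum_div]
    rw [hlhs, Finset.sum_range_succ]
    have h2 : (∑ W : Finset X, bw (16 * lam) W *
        ((I.filter fun i => 2 ^ k ≤ (T (J W i) \ W).card).card : ℝ)) / A ≤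
        (1 / 4) ^ 2 ^ k := by
      rw [div_le_iff₀ hA]
      exact hbad
    linarith

end P064
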