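import Vale.Agent.P064.Spr
import Vale.Agent.P064.Graph
import Vale.Agent.P064.Thr
import Vale.Agent.P064.Stab

/-! P064: assembly. -/

namespace P064

open Finset
open scoped Pointwise

theorem spr_self_pos {Γ X : Type*} [Group Γ] [Fintype Γ] [DecidableEq X] [MulAction Γ X]
    (U : Finset X) : 0 < spr Γ U U := by
  unfold spr
  apply div_pos _ card_pos_real
  have : 0 < cnt Γ U U := by
    unfold cnt
    rw [Finset.card_pos]
    exact ⟨1, by simp⟩
  exact_mod_cast this

theorem sum_quarter (k : ℕ) : ∑ j ∈ range k, (1 / 4 : ℝ) ^ (2 ^ j) ≤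
    1 / 3 * (1 - (1 / 4) ^ k) := by
  induction k with
  | zero => simp
  | succ k ih =>
    rw [Finset.sum_range_succ]
    have h1 : (1 / 4 : ℝ) ^ (2 ^ k) ≤ (1 / 4) ^ (k + 1) := by
      apply pow_le_pow_of_le_one (by norm_num) (by norm_num)
      exact Nat.lt_two_pow_self
    have h2 : (1 / 4 : ℝ) ^ (k + 1) = (1 / 4) ^ k * (1 / 4) := pow_succ _ _
    rw [h2] at h1 ⊢
    linarith

theorem edg_nonempty {n : ℕ} {V : Type*} (H : SimpleGraph V) (f : V ↪ Fin n)
    (hH : H ≠ ⊥) : (edg (H.map f)).Nonempty := by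
  have : ∃ v w, H.Adj v w := by
    by_contra hc
    push Not at hc
    apply hH
    ext v w
    simp [hc v w]
  obtain ⟨v, w, hvw⟩ := this
  have h1 : (H.map f).Adj (f v) (f w) := by
    rw [SimpleGraph.map_adj]
    exact ⟨v, w, hvw, rfl, rfl⟩
  exact ⟨⟨s(f v, f w), (H.map f).not_isDiag_of_mem_edgeSet h1⟩, mem_edg.2 h1⟩

/-- the threshold estimate for one `p` in the expectation set -/
theorem pc_le_of_mem {n : ℕ} {V : Type*} [Fintype V] (H : SimpleGraph V)
    (hV : Fintype.card V ≤ n) (hH : H ≠ ⊥) {p : ℝ} (hp : p ∈ pESet n H) {m J k : ℕ}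
    (hm : n.choose 2 ≤ m) (hJ1 : 1 ≤ J) (hJ : m < 3 ^ J) (hk1 : 1 ≤ k) (hk : m < 2 ^ k) :
    pc n H ≤ 1152 * J * k * p := by
  classical
  have hbdd : BddBelow (pcSet n H) := ⟨0, fun x hx => hx.1⟩
  obtain ⟨f⟩ : Nonempty (V ↪ Fin n) := by
    apply Function.Embedding.nonempty_of_card_le
    simpa using hV
  set E := edg (H.map f) with hE
  have hEne : E.Nonempty := edg_nonempty H f hH
  have hEm : E.card ≤ m := by
    refine le_trans ?_ hm
    rw [← card_Edg]
    exact Finset.card_le_univ _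
  have hp0 : 0 < p := by
    obtain ⟨e, he⟩ := hEne
    have h1 := stab_le H f hp {e} (by simpa using he) (by simp)
    have h2 := spr_self_pos (Γ := Equiv.Perm (Fin n)) ({e} : Finset (Edg n))
    simp only [card_singleton, pow_one] at h1
    linarith
  have hJ' : (1 : ℝ) ≤ J := by exact_mod_cast hJ1
  have hk' : (1 : ℝ) ≤ k := by exact_mod_cast hk1
  by_cases hbig : 1 ≤ 1152 * J * k * p
  · exact (csInf_le hbdd (one_mem_pcSet H hV)).trans hbig
  push Not at hbig
  have hst : ∀ U ⊆ E, U.Nonempty → spr (Equiv.Perm (Fin n)) U U ≤ (2 * p) ^ U.card := by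
    intro U hU hne
    refine (stab_le H f hp U hU hne).trans ?_
    rw [mul_pow]
    apply mul_le_mul_of_nonneg_right _ (by positivity)
    have : 1 ≤ U.card := hne.card_pos
    calc (2 : ℝ) = 2 ^ 1 := by norm_num
      _ ≤ 2 ^ U.card := pow_le_pow_right₀ (by norm_num) this
  have hA := spread_of_stab (Γ := Equiv.Perm (Fin n)) E (2 * p) (by positivity) J hJ1
    (lt_of_le_of_lt hEm hJ) hst
  set lam : ℝ := 36 * J * (2 * p) with hlam
  have hlam0 : 0 < lam := by positivity
  have hx : 16 * lam * k = 1152 * J * k * p := by rw [hlam]; ring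
  have hl1 : 16 * lam ≤ 1 := by
    have : 16 * lam * 1 ≤ 16 * lam * k := mul_le_mul_of_nonneg_left hk' (by positivity)
    linarith
  have hcard : (0 : ℝ) < Fintype.card (Equiv.Perm (Fin n)) := card_pos_real
  have hB := spread_threshold (X := Edg n) (univ : Finset (Equiv.Perm (Fin n)))
    (fun g => g • E) (Fintype.card (Equiv.Perm (Fin n))) lam hcard hlam0 hl1 (by
      intro S
      have h1 := card_inv (Γ := Equiv.Perm (Fin n)) S E
      have h2 := hA S
      have h3 : ((univ.filter fun g : Equiv.Perm (Fin n) => S ⊆ g • E).card : ℝ) =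
          spr (Equiv.Perm (Fin n)) S E * Fintype.card (Equiv.Perm (Fin n)) := by
        unfold spr
        rw [div_mul_cancel₀ _ hcard.ne', ← h1]
      refine le_trans (le_of_eq ?_) (mul_le_mul_of_nonneg_right h2 hcard.le)
      rw [← h3]
      congr) k (by
      intro g _
      rw [Finset.card_smul_finset]
      exact lt_of_le_of_lt hEm hk)
  have hmono := bw_mono (X := Edg n)
    (fun W => ∃ i ∈ (univ : Finset (Equiv.Perm (Fin n))), i • E ⊆ W)
    (fun S T hST ⟨i, hi, h⟩ => ⟨i, hi, h.trans hST⟩)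
    (p := 1 - (1 - 16 * lam) ^ k) (q := 1152 * J * k * p) (by
      have : (1 - 16 * lam) ^ k ≤ 1 := pow_le_one₀ (by linarith) (by linarith)
      linarith) (by
      have h1 := one_add_mul_le_pow (a := -(16 * lam)) (by linarith) k
      have h2 : (1 + -(16 * lam)) ^ k = (1 - 16 * lam) ^ k := by ring
      rw [h2] at h1
      rw [← hx]
      linarith) hbig.le
  have hge := prob_ge H f (p := 1152 * J * k * p) (by positivity) hbig.le
  have hsum := sum_quarter k
  have h14 : (0 : ℝ) < (1 / 4) ^ k := by positivity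
  rw [Finset.card_univ, div_self hcard.ne'] at hB
  have hfin : (1 : ℝ) / 2 ≤ prob n (1152 * J * k * p) {G | 0 < copies G H} := by
    refine le_trans ?_ hge
    simp only [mem_univ, true_and] at hB hmono
    refine le_trans ?_ (le_trans hB ?_)
    · linarith
    · convert hmono
  exact csInf_le hbdd ⟨by positivity, hbig.le, hfin⟩

theorem log_bounds {n : ℕ} (hn : 2 ≤ n) :
    ((Nat.log 3 (n ^ 2) + 1 : ℕ) : ℝ) ≤ 4 * Real.log n ∧
    ((Nat.log 2 (n ^ 2) + 1 : ℕ) : ℝ) ≤ 5 * Real.log n := by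
  have hn' : (2 : ℝ) ≤ n := by exact_mod_cast hn
  have hlog2 : (0.69 : ℝ) < Real.log 2 := by
    have := Real.log_two_gt_d9
    linarith
  have hln : Real.log 2 ≤ Real.log n := Real.log_le_log (by norm_num) hn'
  have hsq : Real.log ((n ^ 2 : ℕ) : ℝ) = 2 * Real.log n := by
    push_cast
    rw [Real.log_pow]
    norm_num
  have hlog3 : (1 : ℝ) ≤ Real.log 3 := by
    rw [← Real.log_exp 1]
    apply Real.log_le_log (Real.exp_pos _)
    exact Real.exp_one_lt_three.le
  have h3 : ((Nat.log 3 (n ^ 2) : ℕ) : ℝ) ≤ 2 * Real.log n := by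
    have h1 : ((Nat.log 3 (n ^ 2) : ℕ) : ℝ) * Real.log 3 ≤ 2 * Real.log n := by
      rw [← hsq, ← Real.log_pow]
      apply Real.log_le_log (by positivity)
      have : 3 ^ Nat.log 3 (n ^ 2) ≤ n ^ 2 := Nat.pow_log_le_self 3 (by positivity)
      exact_mod_cast this
    have h2 : (0 : ℝ) ≤ ((Nat.log 3 (n ^ 2) : ℕ) : ℝ) := by positivity
    nlinarith
  have h2 : ((Nat.log 2 (n ^ 2) : ℕ) : ℝ) * 0.69 ≤ 2 * Real.log n := by
    have h1 : ((Nat.log 2 (n ^ 2) : ℕ) : ℝ) * Real.log 2 ≤ 2 * Real.log n := by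
      rw [← hsq, ← Real.log_pow]
      apply Real.log_le_log (by positivity)
      have : 2 ^ Nat.log 2 (n ^ 2) ≤ n ^ 2 := Nat.pow_log_le_self 2 (by positivity)
      exact_mod_cast this
    have h2 : (0 : ℝ) ≤ ((Nat.log 2 (n ^ 2) : ℕ) : ℝ) := by positivity
    nlinarith
  push_cast
  constructor <;> linarith

/-- `f(n) ≤ 23040 log² n`. -/
theorem pc_le {n : ℕ} (hn : 2 ≤ n) {V : Type*} [Fintype V] (H : SimpleGraph V)
    (hV : Fintype.card V ≤ n) (hH : H ≠ ⊥) :
    pc n H ≤ 23040 * pE n H * Real.log n ^ 2 := by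
  have hn' : (2 : ℝ) ≤ n := by exact_mod_cast hn
  have hlog : 0 < Real.log n := Real.log_pos (by linarith)
  obtain ⟨hJ, hk⟩ := log_bounds hn
  have hm : n.choose 2 ≤ n ^ 2 := Nat.choose_le_pow n 2
  have hle : ∀ p ∈ pESet n H, pc n H / (23040 * Real.log n ^ 2) ≤ p := by
    intro p hp
    have h1 := pc_le_of_mem H hV hH hp (J := Nat.log 3 (n ^ 2) + 1)
      (k := Nat.log 2 (n ^ 2) + 1) hm (by omega) (Nat.lt_pow_succ_log_self (by norm_num) _)
      (by omega) (Nat.lt_pow_succ_log_self (by norm_num) _)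
    have hp0 : 0 ≤ p := hp.1
    rw [div_le_iff₀ (by positivity)]
    refine h1.trans ?_
    have h2 : ((Nat.log 3 (n ^ 2) + 1 : ℕ) : ℝ) * ((Nat.log 2 (n ^ 2) + 1 : ℕ) : ℝ) ≤
        (4 * Real.log n) * (5 * Real.log n) :=
      mul_le_mul hJ hk (by positivity) (by positivity)
    calc 1152 * ((Nat.log 3 (n ^ 2) + 1 : ℕ) : ℝ) * ((Nat.log 2 (n ^ 2) + 1 : ℕ) : ℝ) * p
        = 1152 * p * (((Nat.log 3 (n ^ 2) + 1 : ℕ) : ℝ) *
            ((Nat.log 2 (n ^ 2) + 1 : ℕ) : ℝ)) := by ring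
      _ ≤ 1152 * p * ((4 * Real.log n) * (5 * Real.log n)) :=
          mul_le_mul_of_nonneg_left h2 (by positivity)
      _ = p * (23040 * Real.log n ^ 2) := by ring
  have h := le_csInf ⟨1, one_mem_pESet H hV⟩ hle
  rw [div_le_iff₀ (by positivity)] at h
  calc pc n H ≤ sInf (pESet n H) * (23040 * Real.log n ^ 2) := h
    _ = 23040 * pE n H * Real.log n ^ 2 := by unfold pE; ring

end P064
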